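import Mathlib
import Crest.Agent.H1.AreaGram

/-!
Cylinders over triangles in `ℝ³` in a given direction.
-/

set_option autoImplicit false

namespace Crest.Agent.H16

open MeasureTheory Crest.Agent.H1

abbrev E3 := EuclideanSpace ℝ (Fin 3)

/-- Orthogonal projection along the unit vector `u`. -/
noncomputable def pr (u x : E3) : E3 := x - inner ℝ x u • u

theorem inner_pr (u x : E3) (hu : ‖u‖ = 1) : inner ℝ (pr u x) u = 0 := by
  unfold pr
  rw [inner_sub_left, inner_smul_left, real_inner_self_eq_norm_sq, hu]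
  simp

theorem pr_sub (u x y : E3) : pr u x - pr u y = pr u (x - y) := by
  unfold pr
  rw [inner_sub_left, sub_smul]
  abel

/-- `3 × 3` determinant. -/
def det3 (X Y d : E3) : ℝ :=
  X 0 * (Y 1 * d 2 - Y 2 * d 1) - X 1 * (Y 0 * d 2 - Y 2 * d 0) + X 2 * (Y 0 * d 1 - Y 1 * d 0)

theorem inner3 (x y : E3) : inner ℝ x y = x 0 * y 0 + x 1 * y 1 + x 2 * y 2 := by
  simp only [PiLp.inner_apply, RCLike.inner_apply, conj_trivial, Fin.sum_univ_three]
  ring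

theorem normsq3 (x : E3) : ‖x‖ ^ 2 = x 0 ^ 2 + x 1 ^ 2 + x 2 ^ 2 := by
  rw [EuclideanSpace.real_norm_sq_eq, Fin.sum_univ_three]

theorem gramArea_pr (u X Y : E3) (hu : ‖u‖ = 1) :
    gramArea (pr u X) (pr u Y) = |det3 X Y u| := by
  rw [gramArea, ← Real.sqrt_sq_eq_abs]
  congr 1
  have h1 : u 0 ^ 2 + u 1 ^ 2 + u 2 ^ 2 = 1 := by rw [← normsq3, hu]; norm_num
  rw [normsq3, normsq3, inner3]
  unfold pr det3
  simp only [PiLp.sub_apply, PiLp.smul_apply, smul_eq_mul, inner3]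
  generalize X 0 = x0 at *
  generalize X 1 = x1 at *
  generalize X 2 = x2 at *
  generalize Y 0 = y0 at *
  generalize Y 1 = y1 at *
  generalize Y 2 = y2 at *
  generalize u 0 = u0 at *
  generalize u 1 = u1 at *
  generalize u 2 = u2 at *
  have key : ∀ s : ℝ, s = 1 → u0 ^ 2 + u1 ^ 2 + u2 ^ 2 = s →
    ((x0 - (x0 * u0 + x1 * u1 + x2 * u2) * u0) ^ 2 + (x1 - (x0 * u0 + x1 * u1 + x2 * u2) * u1) ^ 2 +
          (x2 - (x0 * u0 + x1 * u1 + x2 * u2) * u2) ^ 2) =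
      (x0 ^ 2 + x1 ^ 2 + x2 ^ 2) - (x0 * u0 + x1 * u1 + x2 * u2) ^ 2 := by
    intro s hs h
    rw [hs] at h
    linear_combination (x0 * u0 + x1 * u1 + x2 * u2) ^ 2 * h
  have key2 : ((y0 - (y0 * u0 + y1 * u1 + y2 * u2) * u0) ^ 2 + (y1 - (y0 * u0 + y1 * u1 + y2 * u2) * u1) ^ 2 +
          (y2 - (y0 * u0 + y1 * u1 + y2 * u2) * u2) ^ 2) =
      (y0 ^ 2 + y1 ^ 2 + y2 ^ 2) - (y0 * u0 + y1 * u1 + y2 * u2) ^ 2 := by
    linear_combination (y0 * u0 + y1 * u1 + y2 * u2) ^ 2 * h1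
  have key3 : ((x0 - (x0 * u0 + x1 * u1 + x2 * u2) * u0) * (y0 - (y0 * u0 + y1 * u1 + y2 * u2) * u0) +
        (x1 - (x0 * u0 + x1 * u1 + x2 * u2) * u1) * (y1 - (y0 * u0 + y1 * u1 + y2 * u2) * u1) +
          (x2 - (x0 * u0 + x1 * u1 + x2 * u2) * u2) * (y2 - (y0 * u0 + y1 * u1 + y2 * u2) * u2)) =
      (x0 * y0 + x1 * y1 + x2 * y2) -
        (x0 * u0 + x1 * u1 + x2 * u2) * (y0 * u0 + y1 * u1 + y2 * u2) := by
    linear_combination (x0 * u0 + x1 * u1 + x2 * u2) * (y0 * u0 + y1 * u1 + y2 * u2) * h1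
  rw [key 1 rfl h1, key2, key3]
  linear_combination (-((x0 ^ 2 + x1 ^ 2 + x2 ^ 2) * (y0 ^ 2 + y1 ^ 2 + y2 ^ 2) -
    (x0 * y0 + x1 * y1 + x2 * y2) ^ 2)) * h1

/-- The cylinder over the triangle `p q r` in direction `u`. -/
def cyl (p q r u : E3) : Set E3 :=
  {x : E3 | ∃ b ∈ convexHull ℝ {p, q, r}, ∃ t : ℝ, x = b + t • u}

/-- Normalised direction. -/
noncomputable def nrm (d : E3) : E3 := ‖d‖⁻¹ • d

theorem norm_nrm (d : E3) (hd : d ≠ 0) : ‖nrm d‖ = 1 := by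
  unfold nrm
  rw [norm_smul, norm_inv, norm_norm, inv_mul_cancel₀ (norm_ne_zero_iff.mpr hd)]

theorem convexHull_triple_mem (p q r : E3) (α β γ : ℝ) (hα : 0 ≤ α) (hβ : 0 ≤ β) (hγ : 0 ≤ γ)
    (hs : α + β + γ = 1) : α • p + β • q + γ • r ∈ convexHull ℝ {p, q, r} := by
  rw [convexHull_triple_eq_image]
  refine ⟨!₂[β, γ], ?_, ?_⟩
  · simp only [Set.mem_ofPred_eq]
    refine ⟨hβ, hγ, ?_⟩
    simp
    linarith
  · simp only
    have : α = 1 - β - γ := by linarith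
    subst this
    simp
    module

theorem mem_cyl_pr (d P Q R x : E3) (hd : d ≠ 0) (α β γ s : ℝ) (hα : 0 ≤ α) (hβ : 0 ≤ β)
    (hγ : 0 ≤ γ) (hs : α + β + γ = 1) (hx : x = α • P + β • Q + γ • R + s • d) :
    x ∈ cyl (pr (nrm d) P) (pr (nrm d) Q) (pr (nrm d) R) (nrm d) := by
  have hdn : ‖d‖ ≠ 0 := norm_ne_zero_iff.mpr hd
  refine ⟨_, convexHull_triple_mem _ _ _ α β γ hα hβ hγ hs,
    α * inner ℝ P (nrm d) + β * inner ℝ Q (nrm d) + γ * inner ℝ R (nrm d) + s * ‖d‖, ?_⟩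
  have h1 : s • d = (s * ‖d‖) • nrm d := by
    unfold nrm
    rw [smul_smul, mul_assoc, mul_inv_cancel₀ hdn, mul_one]
  rw [hx, h1]
  unfold pr
  module

theorem det3_smul (X Y d : E3) (k : ℝ) : det3 X Y (k • d) = k * det3 X Y d := by
  unfold det3
  simp only [PiLp.smul_apply, smul_eq_mul]
  ring

/-- Area of the perpendicular base of the cylinder over the triangle `P Q R` in direction `d`. -/
theorem area_base (d P Q R : E3) (hd : d ≠ 0) :
    (μHE[2] (convexHull ℝ ({pr (nrm d) P, pr (nrm d) Q, pr (nrm d) R} : Set E3))).toReal =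
      |det3 (Q - P) (R - P) d| / ‖d‖ / 2 := by
  rw [muHE_triangle, pr_sub, pr_sub, gramArea_pr _ _ _ (norm_nrm d hd), ENNReal.toReal_ofReal]
  · congr 1
    unfold nrm
    rw [det3_smul, abs_mul, abs_of_nonneg (by positivity : 0 ≤ ‖d‖⁻¹)]
    field_simp
  · positivity

end Crest.Agent.H16
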