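import Mathlib

/-!
Real algebra behind the cylinder cover of the regular tetrahedron (two radial sweeps).
-/

set_option autoImplicit false

namespace Crest.Agent.H16

/-- The ray parameters of a point of a cross-section: angle `t` and radius `ρ`. -/
theorem exists_ray (e x y z : ℝ) (hy : |y| ≤ z) :
    ∃ t ρ : ℝ, -1 ≤ t ∧ t ≤ 1 ∧ 0 ≤ ρ ∧ y = ρ * t + x * e * (1 + t ^ 2) / 2 ∧ z = ρ + x * e * t := by
  obtain ⟨h1, h2⟩ := abs_le.mp hy
  have hz : 0 ≤ z := le_trans (abs_nonneg y) hy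
  set D : ℝ := z ^ 2 - 2 * (x * e) * y + (x * e) ^ 2 with hD
  have hDnn : 0 ≤ D := by
    rcases le_total 0 (x * e) with h | h
    · nlinarith [sq_nonneg (z - x * e), mul_nonneg h (sub_nonneg.mpr h2)]
    · have h3 : 0 ≤ y + z := by linarith
      nlinarith [sq_nonneg (z + x * e), mul_nonneg (neg_nonneg.mpr h) h3]
  set ρ : ℝ := Real.sqrt D with hρ
  have hρ0 : 0 ≤ ρ := Real.sqrt_nonneg _
  have hρ2 : ρ ^ 2 = D := Real.sq_sqrt hDnn
  rcases eq_or_lt_of_le (add_nonneg hz hρ0) with h0 | h0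
  · have hz0 : z = 0 := by linarith
    have hr0 : ρ = 0 := by linarith
    have hy0 : y = 0 := by
      have := hy
      rw [hz0] at this
      exact abs_eq_zero.mp (le_antisymm this (abs_nonneg y))
    have hxe : x * e = 0 := by
      have : (x * e) ^ 2 = 0 := by
        have := hρ2
        rw [hD, hr0, hz0, hy0] at this
        nlinarith
      exact pow_eq_zero_iff (two_ne_zero) |>.mp this
    refine ⟨0, 0, by norm_num, by norm_num, le_refl _, ?_, ?_⟩
    · rw [hy0, hxe]; ring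
    · rw [hz0, hxe]; ring
  · set t : ℝ := (2 * y - x * e) / (z + ρ) with ht
    have htm : t * (z + ρ) = 2 * y - x * e := by
      rw [ht]; field_simp
    have key : ρ ^ 2 - (2 * y - x * e - z) ^ 2 = 2 * (z - y) * (2 * y - x * e) := by
      rw [hρ2, hD]; ring
    have key2 : ρ ^ 2 - (2 * y - x * e + z) ^ 2 = -2 * (z + y) * (2 * y - x * e) := by
      rw [hρ2, hD]; ring
    have ht1 : t ≤ 1 := by
      rw [ht, div_le_one h0]
      by_contra hcon
      push Not at hcon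
      have hA : 0 < 2 * y - x * e - z := by linarith
      have hB : 0 ≤ 2 * (z - y) * (2 * y - x * e) := by
        apply mul_nonneg
        · linarith
        · linarith
      nlinarith
    have ht2 : -1 ≤ t := by
      rw [ht, le_div_iff₀ h0]
      by_contra hcon
      push Not at hcon
      have hA : 2 * y - x * e + z < 0 := by linarith
      have hB : 0 ≤ -2 * (z + y) * (2 * y - x * e) := by
        have : 0 ≤ (z + y) * (-(2 * y - x * e)) := by
          apply mul_nonneg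
          · linarith
          · linarith
        linarith
      nlinarith
    have hzr : z = ρ + x * e * t := by
      have h5 : (z - ρ) * (z + ρ) = (x * e * t) * (z + ρ) := by
        have : x * e * t * (z + ρ) = x * e * (2 * y - x * e) := by
          rw [mul_assoc (x * e), htm]
        rw [this]
        have : (z - ρ) * (z + ρ) = z ^ 2 - ρ ^ 2 := by ring
        rw [this, hρ2, hD]; ring
      have h6 := mul_right_cancel₀ (ne_of_gt h0) h5
      linarith
    refine ⟨t, ρ, ht2, ht1, hρ0, ?_, hzr⟩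
    have h7 : t * (2 * z - x * e * t) = 2 * y - x * e := by
      rw [← htm]
      congr 1
      linarith
    have h8 : ρ = z - x * e * t := by linarith
    rw [h8]
    linarith

/-- The radius function. -/
noncomputable def RR (e t : ℝ) : ℝ := 1 / 2 + e ^ 2 * ((t ^ 2 + t ^ 4) / 4 + e ^ 2)

theorem RR_pos (e t : ℝ) : 0 < RR e t := by
  unfold RR; positivity

/-- At every point one of the two sweeps is within its radius. -/
theorem dichotomy (e x y z t ρ t' ρ' : ℝ) (he : 0 < e) (he1 : e ≤ 1 / 10)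
    (ht : -1 ≤ t) (ht1 : t ≤ 1) (ht' : -1 ≤ t') (ht1' : t' ≤ 1)
    (h1 : y = ρ * t + x * e * (1 + t ^ 2) / 2) (h2 : z = ρ + x * e * t)
    (h3 : -x = ρ' * t' + y * e * (1 + t' ^ 2) / 2) (h4 : 1 - z = ρ' + y * e * t') :
    ρ ≤ RR e t ∨ ρ' ≤ RR e t' := by
  by_contra hcon
  push Not at hcon
  obtain ⟨hr, hr'⟩ := hcon
  set A : ℝ := e * (1 + t ^ 2) / 2 with hA
  set B : ℝ := e * (1 + t' ^ 2) / 2 with hB
  have ha : 0 ≤ t ^ 2 := sq_nonneg t
  have ha1 : t ^ 2 ≤ 1 := by nlinarith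
  have hb : 0 ≤ t' ^ 2 := sq_nonneg t'
  have hb1 : t' ^ 2 ≤ 1 := by nlinarith
  have hy : y * (1 + A * B) = ρ * t - A * ρ' * t' := by
    have h1' : y = ρ * t + x * A := by rw [hA]; linarith
    have h3' : -x = ρ' * t' + y * B := by rw [hB]; linarith
    have : x = -(ρ' * t' + y * B) := by linarith
    rw [this] at h1'
    linarith
  have hx : x * (1 + A * B) = -(ρ' * t') - B * ρ * t := by
    have h1' : y = ρ * t + x * A := by rw [hA]; linarith
    have h3' : -x = ρ' * t' + y * B := by rw [hB]; linarith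
    rw [h1'] at h3'
    linarith
  have hsum : ρ + ρ' + e * (x * t + y * t') = 1 := by nlinarith
  have hrel : ρ * (1 + A * B - e * B * t ^ 2 + e * (t * t')) +
      ρ' * (1 + A * B - e * A * t' ^ 2 - e * (t * t')) = 1 + A * B := by
    have : (ρ + ρ' + e * (x * t + y * t')) * (1 + A * B) = 1 + A * B := by rw [hsum, one_mul]
    have e1 : (ρ + ρ' + e * (x * t + y * t')) * (1 + A * B) =
        (ρ + ρ') * (1 + A * B) + e * (t * (x * (1 + A * B)) + t' * (y * (1 + A * B))) := by ring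
    rw [e1, hx, hy] at this
    linear_combination this
  have habs : |t * t'| ≤ 1 := by
    rw [abs_mul]
    have h5 : |t| ≤ 1 := abs_le.mpr ⟨ht, ht1⟩
    have h6 : |t'| ≤ 1 := abs_le.mpr ⟨ht', ht1'⟩
    nlinarith [abs_nonneg t, abs_nonneg t']
  obtain ⟨hm1, hm2⟩ := abs_le.mp habs
  -- coefficients
  have hc1 : 1 + A * B - e * B * t ^ 2 + e * (t * t') =
      1 + e ^ 2 * ((1 + t' ^ 2) * (1 - t ^ 2)) / 4 + e * (t * t') := by
    rw [hA, hB]; ring
  have hc2 : 1 + A * B - e * A * t' ^ 2 - e * (t * t') =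
      1 + e ^ 2 * ((1 + t ^ 2) * (1 - t' ^ 2)) / 4 - e * (t * t') := by
    rw [hA, hB]; ring
  have hn1 : 0 ≤ e ^ 2 * ((1 + t' ^ 2) * (1 - t ^ 2)) / 4 := by
    have : 0 ≤ (1 + t' ^ 2) * (1 - t ^ 2) := mul_nonneg (by linarith) (by linarith)
    positivity
  have hn2 : 0 ≤ e ^ 2 * ((1 + t ^ 2) * (1 - t' ^ 2)) / 4 := by
    have : 0 ≤ (1 + t ^ 2) * (1 - t' ^ 2) := mul_nonneg (by linarith) (by linarith)
    positivity
  have hett : |e * (t * t')| ≤ 1 / 10 := by
    rw [abs_mul, abs_of_pos he]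
    nlinarith [abs_nonneg (t * t')]
  obtain ⟨hq1, hq2⟩ := abs_le.mp hett
  have hp1 : 0 < 1 + A * B - e * B * t ^ 2 + e * (t * t') := by rw [hc1]; linarith
  have hp2 : 0 < 1 + A * B - e * A * t' ^ 2 - e * (t * t') := by rw [hc2]; linarith
  have hlt : RR e t * (1 + A * B - e * B * t ^ 2 + e * (t * t')) +
      RR e t' * (1 + A * B - e * A * t' ^ 2 - e * (t * t')) < 1 + A * B := by
    have k1 := mul_lt_mul_of_pos_right hr hp1
    have k2 := mul_lt_mul_of_pos_right hr' hp2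
    linarith
  -- the polynomial inequality
  have hid : RR e t * (1 + A * B - e * B * t ^ 2 + e * (t * t')) +
      RR e t' * (1 + A * B - e * A * t' ^ 2 - e * (t * t')) - (1 + A * B) =
      e ^ 2 * ((t ^ 2 - t' ^ 2) ^ 2 / 4 + 2 * e ^ 2
        + e * (t * t') * ((t ^ 2 - t' ^ 2) * (1 + t ^ 2 + t' ^ 2) / 4)
        + ((t ^ 2 + t ^ 4) / 4 + e ^ 2) * (e ^ 2 * ((1 + t' ^ 2) * (1 - t ^ 2)) / 4)
        + ((t' ^ 2 + t' ^ 4) / 4 + e ^ 2) * (e ^ 2 * ((1 + t ^ 2) * (1 - t' ^ 2)) / 4)) := by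
    rw [hA, hB]; unfold RR; ring
  have hs1 : 0 ≤ ((t ^ 2 + t ^ 4) / 4 + e ^ 2) * (e ^ 2 * ((1 + t' ^ 2) * (1 - t ^ 2)) / 4) := by
    apply mul_nonneg _ hn1
    positivity
  have hs2 : 0 ≤ ((t' ^ 2 + t' ^ 4) / 4 + e ^ 2) * (e ^ 2 * ((1 + t ^ 2) * (1 - t' ^ 2)) / 4) := by
    apply mul_nonneg _ hn2
    positivity
  have hmain : 0 ≤ (t ^ 2 - t' ^ 2) ^ 2 / 4 + 2 * e ^ 2
        + e * (t * t') * ((t ^ 2 - t' ^ 2) * (1 + t ^ 2 + t' ^ 2) / 4) := by
    -- with m = t t' (1 + t^2 + t'^2)/ ... : |m| ≤ 3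
    set m : ℝ := (t * t') * (1 + t ^ 2 + t' ^ 2) with hm
    have hmm : |m| ≤ 3 := by
      rw [hm, abs_mul]
      have h9 : |1 + t ^ 2 + t' ^ 2| ≤ 3 := by
        rw [abs_of_nonneg (by positivity)]; linarith
      have h10 := abs_nonneg (1 + t ^ 2 + t' ^ 2)
      have h11 := mul_le_mul habs h9 h10 zero_le_one
      linarith
    have hm9 : m ^ 2 ≤ 9 := by
      have h12 := sq_abs m
      have h13 := mul_le_mul hmm hmm (abs_nonneg m) (by norm_num : (0:ℝ) ≤ 3)
      nlinarith only [h12, h13]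
    have : e * (t * t') * ((t ^ 2 - t' ^ 2) * (1 + t ^ 2 + t' ^ 2) / 4) =
        e * (t ^ 2 - t' ^ 2) * m / 4 := by rw [hm]; ring
    rw [this]
    have q1 := sq_nonneg ((t ^ 2 - t' ^ 2) + e * m / 2)
    have q2 := mul_nonneg (sq_nonneg e) (sub_nonneg.mpr hm9)
    have q3 := sq_nonneg e
    nlinarith only [q1, q2, q3]
  have hfin : 0 ≤ RR e t * (1 + A * B - e * B * t ^ 2 + e * (t * t')) +
      RR e t' * (1 + A * B - e * A * t' ^ 2 - e * (t * t')) - (1 + A * B) := by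
    rw [hid]
    apply mul_nonneg (sq_nonneg e)
    linarith
  linarith

/-- A point of the sweep with angle within `h / 2` of `c` lies over the enlarged thin triangle. -/
theorem slice_bounds (e h x t c ρ : ℝ) (he : 0 < e) (he1 : e ≤ 1 / 2) (hh : 0 < h)
    (hx : |x| ≤ 1) (ht : -1 ≤ t) (ht1 : t ≤ 1) (hc : -1 ≤ c) (hc1 : c ≤ 1) (htc : |t - c| ≤ h / 2)
    (hρ : 0 ≤ ρ) (hρR : ρ ≤ RR e t) :
    -(e * h) ≤ ρ + x * e * (t - c) ∧
    ρ + x * e * (t - c) ≤ RR e c + e * h ∧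
    |(ρ * t + x * e * (t ^ 2 - c ^ 2) / 2) - c * (ρ + x * e * (t - c))| ≤
      h / 2 * ((ρ + x * e * (t - c)) + e * h) := by
  have hxe : |x * e * (t - c)| ≤ e * h / 2 := by
    rw [abs_mul, abs_mul, abs_of_pos he]
    have h1 : |x| * e ≤ e := by nlinarith
    have h2 : 0 ≤ |x| * e := by positivity
    nlinarith [abs_nonneg (t - c), mul_le_mul h1 htc (abs_nonneg (t - c)) he.le]
  obtain ⟨hl, hu⟩ := abs_le.mp hxe
  have hRc : RR e t ≤ RR e c + e * h / 2 := by
    obtain ⟨h5, h6⟩ := abs_le.mp htc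
    have hk : |(t - c) * ((t + c) * (1 + t ^ 2 + c ^ 2))| ≤ 3 * h := by
      rw [abs_mul]
      have h7 : |(t + c) * (1 + t ^ 2 + c ^ 2)| ≤ 6 := by
        rw [abs_mul]
        have h8 : |t + c| ≤ 2 := abs_le.mpr ⟨by linarith, by linarith⟩
        have h9 : |1 + t ^ 2 + c ^ 2| ≤ 3 := by
          rw [abs_of_nonneg (by positivity)]; nlinarith
        nlinarith [abs_nonneg (t + c), abs_nonneg (1 + t ^ 2 + c ^ 2)]
      nlinarith [abs_nonneg (t - c), abs_nonneg ((t + c) * (1 + t ^ 2 + c ^ 2)),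
        mul_le_mul htc h7 (abs_nonneg _) (by linarith)]
    have hid : RR e t - RR e c = e ^ 2 * ((t - c) * ((t + c) * (1 + t ^ 2 + c ^ 2))) / 4 := by
      unfold RR; ring
    have h10 : e ^ 2 * ((t - c) * ((t + c) * (1 + t ^ 2 + c ^ 2))) ≤ e ^ 2 * (3 * h) :=
      mul_le_mul_of_nonneg_left (le_trans (le_abs_self _) hk) (sq_nonneg e)
    have h11 : e ^ 2 * (3 * h) / 4 ≤ e * h / 2 := by
      have : 0 ≤ e * h := by positivity
      nlinarith
    linarith
  refine ⟨by linarith [mul_pos he hh], by linarith, ?_⟩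
  have hid2 : (ρ * t + x * e * (t ^ 2 - c ^ 2) / 2) - c * (ρ + x * e * (t - c)) =
      ρ * (t - c) + (x * e * (t - c)) * (t - c) / 2 := by ring
  rw [hid2]
  have h12 : |ρ * (t - c) + (x * e * (t - c)) * (t - c) / 2| ≤
      ρ * (h / 2) + (e * h / 2) * (h / 2) / 2 := by
    refine le_trans (abs_add_le _ _) ?_
    rw [abs_mul, abs_div, abs_mul, abs_of_nonneg hρ, abs_of_pos (by norm_num : (0:ℝ) < 2)]
    have h13 : ρ * |t - c| ≤ ρ * (h / 2) := mul_le_mul_of_nonneg_left htc hρ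
    have h14 : |x * e * (t - c)| * |t - c| ≤ (e * h / 2) * (h / 2) :=
      mul_le_mul hxe htc (abs_nonneg _) (by positivity)
    linarith
  refine le_trans h12 ?_
  nlinarith [mul_pos he hh, mul_pos (mul_pos he hh) hh]

/-- Every angle in `[-1, 1]` is within `1 / N` of one of the midpoints `-1 + (2 i + 1) / N`. -/
theorem exists_slice (N : ℕ) (hN : 0 < N) (t : ℝ) (ht : -1 ≤ t) (ht1 : t ≤ 1) :
    ∃ i : Fin N, |t - (-1 + (2 * (i : ℝ) + 1) / N)| ≤ 1 / N := by
  have hNr : (0 : ℝ) < N := by exact_mod_cast hN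
  rcases eq_or_lt_of_le ht1 with h1 | h1
  · refine ⟨⟨N - 1, by omega⟩, ?_⟩
    have : ((N - 1 : ℕ) : ℝ) = N - 1 := by
      rw [Nat.cast_sub (by omega)]; norm_num
    simp only [this, h1]
    have e1 : (1 : ℝ) - (-1 + (2 * ((N : ℝ) - 1) + 1) / N) = 1 / N := by
      field_simp; ring
    rw [e1, abs_of_pos (by positivity)]
  · set k : ℕ := ⌊(t + 1) / 2 * N⌋₊ with hk
    have hnn : 0 ≤ (t + 1) / 2 * N := by
      apply mul_nonneg _ hNr.le; linarith
    have hk1 : (k : ℝ) ≤ (t + 1) / 2 * N := Nat.floor_le hnn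
    have hk2 : (t + 1) / 2 * N < k + 1 := Nat.lt_floor_add_one _
    have hkN : k < N := by
      have : (k : ℝ) < N := by
        refine lt_of_le_of_lt hk1 ?_
        have : (t + 1) / 2 < 1 := by linarith
        nlinarith
      exact_mod_cast this
    refine ⟨⟨k, hkN⟩, ?_⟩
    simp only
    have e1 : t - (-1 + (2 * (k : ℝ) + 1) / N) = ((t + 1) / 2 * N - k - 1 / 2) * (2 / N) := by
      field_simp; ring
    rw [e1, abs_mul, abs_of_pos (by positivity : (0 : ℝ) < 2 / N)]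
    have h2 : |(t + 1) / 2 * N - k - 1 / 2| ≤ 1 / 2 := abs_le.mpr ⟨by linarith, by linarith⟩
    have h3 : (0 : ℝ) < 2 / N := by positivity
    calc |(t + 1) / 2 * N - k - 1 / 2| * (2 / N) ≤ 1 / 2 * (2 / N) :=
          mul_le_mul_of_nonneg_right h2 h3.le
      _ = 1 / N := by ring

end Crest.Agent.H16
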