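import Mathlib
import Crest.Agent.H16.TetraAlg

set_option autoImplicit false

namespace Crest.Agent.H16

open Finset

theorem sum_odd1 (n : ℕ) : ∑ i ∈ range n, (2 * (i : ℝ) + 1) = (n : ℝ) ^ 2 := by
  induction n with
  | zero => simp
  | succ n ih => rw [sum_range_succ, ih]; push_cast; ring

theorem sum_odd2 (n : ℕ) : ∑ i ∈ range n, (2 * (i : ℝ) + 1) ^ 2 = (n : ℝ) * (4 * n ^ 2 - 1) / 3 := by
  induction n with
  | zero => simp
  | succ n ih => rw [sum_range_succ, ih]; push_cast; ring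

theorem sum_odd3 (n : ℕ) : ∑ i ∈ range n, (2 * (i : ℝ) + 1) ^ 3 = (n : ℝ) ^ 2 * (2 * n ^ 2 - 1) := by
  induction n with
  | zero => simp
  | succ n ih => rw [sum_range_succ, ih]; push_cast; ring

theorem sum_odd4 (n : ℕ) : ∑ i ∈ range n, (2 * (i : ℝ) + 1) ^ 4 =
    (n : ℝ) * (48 * n ^ 4 - 40 * n ^ 2 + 7) / 15 := by
  induction n with
  | zero => simp
  | succ n ih => rw [sum_range_succ, ih]; push_cast; ring

/-- The midpoints. -/
noncomputable def cc (N i : ℕ) : ℝ := -1 + (2 * (i : ℝ) + 1) / N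

theorem sum_cc2 (N : ℕ) (hN : 0 < N) :
    ∑ i ∈ range N, cc N i ^ 2 = ((N : ℝ) ^ 2 - 1) / (3 * N) := by
  have hNr : (N : ℝ) ≠ 0 := by positivity
  have h1 : ∀ i ∈ range N, cc N i ^ 2 =
      (1 / (N : ℝ) ^ 2) * (2 * (i : ℝ) + 1) ^ 2 - (2 / N) * (2 * (i : ℝ) + 1) + 1 := by
    intro i _
    unfold cc
    field_simp
    ring
  rw [sum_congr rfl h1, sum_add_distrib, sum_sub_distrib, ← mul_sum, ← mul_sum, sum_odd1, sum_odd2]
  simp only [sum_const, card_range, nsmul_eq_mul, mul_one]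
  field_simp
  ring

theorem sum_cc4 (N : ℕ) (hN : 0 < N) :
    ∑ i ∈ range N, cc N i ^ 4 = (N : ℝ) / 5 - 2 / (3 * N) + 7 / (15 * N ^ 3) := by
  have hNr : (N : ℝ) ≠ 0 := by positivity
  have h1 : ∀ i ∈ range N, cc N i ^ 4 =
      (1 / (N : ℝ) ^ 4) * (2 * (i : ℝ) + 1) ^ 4 - (4 / (N : ℝ) ^ 3) * (2 * (i : ℝ) + 1) ^ 3
       + (6 / (N : ℝ) ^ 2) * (2 * (i : ℝ) + 1) ^ 2 - (4 / (N : ℝ)) * (2 * (i : ℝ) + 1) + 1 := by
    intro i _
    unfold cc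
    field_simp
    ring
  rw [sum_congr rfl h1, sum_add_distrib, sum_sub_distrib, sum_add_distrib, sum_sub_distrib,
    ← mul_sum, ← mul_sum, ← mul_sum, ← mul_sum, sum_odd1, sum_odd2, sum_odd3, sum_odd4]
  simp only [sum_const, card_range, nsmul_eq_mul, mul_one]
  field_simp
  ring

theorem inv_sqrt_le (u : ℝ) (hu : 0 ≤ u) :
    1 / Real.sqrt (1 + u) ≤ 1 - u / 2 + 3 * u ^ 2 / 8 := by
  have hpos : 0 < 1 - u / 2 + 3 * u ^ 2 / 8 := by nlinarith [sq_nonneg (u - 2 / 3)]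
  have hs : 0 < Real.sqrt (1 + u) := Real.sqrt_pos.mpr (by linarith)
  rw [div_le_iff₀ hs]
  have h1 : 1 / (1 - u / 2 + 3 * u ^ 2 / 8) ≤ Real.sqrt (1 + u) := by
    apply Real.le_sqrt_of_sq_le
    rw [div_pow, one_pow, div_le_iff₀ (by positivity)]
    have : 0 ≤ u ^ 3 * (5 / 8 - 15 / 64 * u + 9 / 64 * u ^ 2) := by
      apply mul_nonneg (by positivity)
      nlinarith [sq_nonneg (u - 5 / 6)]
    nlinarith
  rw [div_le_iff₀ hpos] at h1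
  linarith

/-- Direction factor. -/
noncomputable def gg (c : ℝ) : ℝ := (1 + c ^ 2) ^ 2 / 4 + 2 * c ^ 2

/-- The normalised area density of a slice. -/
noncomputable def FF (e h c : ℝ) : ℝ :=
  (RR e c + 2 * (e * h)) ^ 2 / Real.sqrt (1 + e ^ 2 * gg c)

theorem FF_le (h c : ℝ) (hh : 0 < h) (hh1 : h ≤ 1 / 100000) (hc : -1 ≤ c) (hc1 : c ≤ 1) :
    FF (1 / 100) h c ≤ 1 / 4 + (1 / 10000) * (-1 / 32 - c ^ 2 / 16 + 7 / 32 * c ^ 4 + 1 / 10000)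
      + h / 50 + 2 / 10 ^ 8 := by
  have ha : 0 ≤ c ^ 2 := sq_nonneg c
  have ha1 : c ^ 2 ≤ 1 := by nlinarith
  have h4 : c ^ 4 = (c ^ 2) ^ 2 := by ring
  set a : ℝ := c ^ 2 with hadef
  have haa : a ^ 2 ≤ a := by nlinarith
  have haa0 : 0 ≤ a ^ 2 := sq_nonneg a
  set u : ℝ := (1 / 100 : ℝ) ^ 2 * gg c with hu
  have hg : gg c = (1 + a) ^ 2 / 4 + 2 * a := by unfold gg; rw [← hadef]
  have hg0 : 0 ≤ gg c := by rw [hg]; positivity
  have hg3 : gg c ≤ 3 := by rw [hg]; nlinarith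
  have hu0 : 0 ≤ u := by rw [hu]; positivity
  have hu3 : u ≤ 3 / 10000 := by rw [hu]; linarith
  set w : ℝ := (1 / 10000) * ((a + a ^ 2) / 4 + 1 / 10000) + h / 50 with hw
  have hw0 : 0 ≤ w := by rw [hw]; positivity
  have hw1 : w ≤ 52 / 1000000 := by rw [hw]; linarith
  have hF : FF (1 / 100) h c = (1 / 2 + w) ^ 2 * (1 / Real.sqrt (1 + u)) := by
    unfold FF RR
    rw [h4, ← hadef, hw, hu]
    ring
  rw [hF, h4]
  have h1 := inv_sqrt_le u hu0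
  have h2 : (1 / 2 + w) ^ 2 * (1 / Real.sqrt (1 + u)) ≤
      (1 / 2 + w) ^ 2 * (1 - u / 2 + 3 * u ^ 2 / 8) :=
    mul_le_mul_of_nonneg_left h1 (sq_nonneg _)
  refine le_trans h2 ?_
  have hu2 : u ^ 2 ≤ 9 / 10 ^ 8 := by nlinarith
  have hu20 : 0 ≤ u ^ 2 := sq_nonneg u
  have hw2 : w ^ 2 ≤ 3 / 10 ^ 9 := by nlinarith
  have hw20 : 0 ≤ w ^ 2 := sq_nonneg w
  have huw : 0 ≤ u * w := mul_nonneg hu0 hw0
  have huw2 : 0 ≤ u * w ^ 2 := mul_nonneg hu0 hw20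
  have hu2w : u ^ 2 * (w + w ^ 2) ≤ 1 / 10 ^ 11 := by
    have : w + w ^ 2 ≤ 1 / 10000 := by linarith
    have h5 : 0 ≤ w + w ^ 2 := by linarith
    calc u ^ 2 * (w + w ^ 2) ≤ 9 / 10 ^ 8 * (1 / 10000) := mul_le_mul hu2 this h5 (by norm_num)
      _ ≤ 1 / 10 ^ 11 := by norm_num
  have hexp : (1 / 2 + w) ^ 2 * (1 - u / 2 + 3 * u ^ 2 / 8) =
      1 / 4 - u / 8 + w + (3 * u ^ 2 / 32 + w ^ 2 - u * w / 2 - u * w ^ 2 / 2
        + 3 * (u ^ 2 * (w + w ^ 2)) / 8) := by ring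
  rw [hexp]
  have hub : u / 8 = (1 / 10000) * (1 / 32 + 5 / 16 * a + a ^ 2 / 32) := by
    rw [hu, hg]; ring
  rw [hub]
  have hwe : w = (1 / 10000) * ((a + a ^ 2) / 4 + 1 / 10000) + h / 50 := hw
  have : 3 * u ^ 2 / 32 + w ^ 2 - u * w / 2 - u * w ^ 2 / 2
        + 3 * (u ^ 2 * (w + w ^ 2)) / 8 ≤ 2 / 10 ^ 8 := by linarith
  linarith

theorem sum_FF_le (N : ℕ) (hN : N = 10 ^ 6) :
    ∑ i ∈ range N, (2 / (N : ℝ)) * FF (1 / 100) (2 / N) (cc N i) ≤ 1 / 2 - 1 / 10 ^ 6 := by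
  have hNpos : 0 < N := by rw [hN]; norm_num
  have hNr : (N : ℝ) = 10 ^ 6 := by rw [hN]; norm_num
  have hc : ∀ i ∈ range N, -1 ≤ cc N i ∧ cc N i ≤ 1 := by
    intro i hi
    have hi' : i < N := mem_range.mp hi
    have hi2 : ((i : ℝ) + 1) ≤ N := by exact_mod_cast hi'
    have hNp : (0 : ℝ) < N := by exact_mod_cast hNpos
    unfold cc
    constructor
    · have : 0 ≤ (2 * (i : ℝ) + 1) / N := by positivity
      linarith
    · have : (2 * (i : ℝ) + 1) / N ≤ 2 := by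
        rw [div_le_iff₀ hNp]; linarith
      linarith
  have h1 : ∀ i ∈ range N, (2 / (N : ℝ)) * FF (1 / 100) (2 / N) (cc N i) ≤
      (2 / (N : ℝ)) * (1 / 4 + (1 / 10000) * (-1 / 32 + 1 / 10000) + (2 / (N : ℝ)) / 50 + 2 / 10 ^ 8)
      + (-(2 / (N : ℝ)) / 160000) * cc N i ^ 2 + ((2 / (N : ℝ)) * 7 / 320000) * cc N i ^ 4 := by
    intro i hi
    have h2 := FF_le (2 / (N : ℝ)) (cc N i) (by rw [hNr]; norm_num) (by rw [hNr]; norm_num)
      (hc i hi).1 (hc i hi).2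
    have h3 : (0 : ℝ) ≤ 2 / (N : ℝ) := by positivity
    have h4 := mul_le_mul_of_nonneg_left h2 h3
    refine le_trans h4 (le_of_eq ?_)
    ring
  refine le_trans (sum_le_sum h1) ?_
  rw [sum_add_distrib, sum_add_distrib, sum_const, ← mul_sum, ← mul_sum, sum_cc2 N hNpos,
    sum_cc4 N hNpos]
  simp only [card_range, nsmul_eq_mul]
  rw [hNr]
  norm_num

end Crest.Agent.H16
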