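import Mathlib
import Crest.Agent.H16.TetraSum
import Crest.Agent.H16.Cyl

/-!
The cover of the standard regular tetrahedron by two families of thin triangular cylinders.
-/

set_option autoImplicit false

namespace Crest.Agent.H16

open MeasureTheory Crest.Agent.H1

/-- The standard regular tetrahedron. -/
noncomputable def K0 : Set E3 :=
  convexHull ℝ {!₂[1, 0, 0], !₂[-1, 0, 0], !₂[0, 1, Real.sqrt 2], !₂[0, -1, Real.sqrt 2]}

theorem K0_bounds (x : E3) (hx : x ∈ K0) :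
    |x 0| ≤ 1 - x 2 / Real.sqrt 2 ∧ |x 1| ≤ x 2 / Real.sqrt 2 := by
  have hs : 0 < Real.sqrt 2 := Real.sqrt_pos.mpr (by norm_num)
  have hss : Real.sqrt 2 / Real.sqrt 2 = 1 := div_self hs.ne'
  have hsub : K0 ⊆ {x : E3 | |x 0| ≤ 1 - x 2 / Real.sqrt 2 ∧ |x 1| ≤ x 2 / Real.sqrt 2} := by
    apply convexHull_min
    · rintro y (rfl | rfl | rfl | rfl) <;> simp
    · intro y hy z hz a b ha hb hab
      simp only [Set.mem_ofPred_eq, abs_le] at hy hz ⊢
      simp only [PiLp.add_apply, PiLp.smul_apply, smul_eq_mul]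
      obtain ⟨⟨h1, h2⟩, h3, h4⟩ := hy
      obtain ⟨⟨g1, g2⟩, g3, g4⟩ := hz
      have e1 : (a * y 2 + b * z 2) / Real.sqrt 2 = a * (y 2 / Real.sqrt 2) + b * (z 2 / Real.sqrt 2) := by
        ring
      rw [e1]
      have hb' : b = 1 - a := by linarith
      subst hb'
      refine ⟨⟨?_, ?_⟩, ?_, ?_⟩ <;> nlinarith
  exact hsub hx

/-- Lower direction. -/
noncomputable def dL (e c : ℝ) : E3 := !₂[1, e * (1 + c ^ 2) / 2, Real.sqrt 2 * (e * c)]
noncomputable def PL (e h c : ℝ) : E3 := !₂[0, -(c * (e * h)), -(Real.sqrt 2 * (e * h))]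
noncomputable def QL (e h c : ℝ) : E3 :=
  !₂[0, c * (RR e c + e * h) - h / 2 * (RR e c + 2 * (e * h)), Real.sqrt 2 * (RR e c + e * h)]
noncomputable def SL (e h c : ℝ) : E3 :=
  !₂[0, c * (RR e c + e * h) + h / 2 * (RR e c + 2 * (e * h)), Real.sqrt 2 * (RR e c + e * h)]

/-- Upper direction (image of the lower one under the rotary reflection). -/
noncomputable def dU (e c : ℝ) : E3 := !₂[-(e * (1 + c ^ 2) / 2), 1, -(Real.sqrt 2 * (e * c))]
noncomputable def PU (e h c : ℝ) : E3 :=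
  !₂[c * (e * h), 0, Real.sqrt 2 + Real.sqrt 2 * (e * h)]
noncomputable def QU (e h c : ℝ) : E3 :=
  !₂[-(c * (RR e c + e * h) - h / 2 * (RR e c + 2 * (e * h))), 0,
    Real.sqrt 2 - Real.sqrt 2 * (RR e c + e * h)]
noncomputable def SU (e h c : ℝ) : E3 :=
  !₂[-(c * (RR e c + e * h) + h / 2 * (RR e c + 2 * (e * h))), 0,
    Real.sqrt 2 - Real.sqrt 2 * (RR e c + e * h)]

theorem dL_ne (e c : ℝ) : dL e c ≠ 0 := by
  intro h
  have := congrArg (fun x : E3 => x 0) h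
  simp [dL] at this

theorem dU_ne (e c : ℝ) : dU e c ≠ 0 := by
  intro h
  have := congrArg (fun x : E3 => x 1) h
  simp [dU] at this

theorem norm_dL (e c : ℝ) : ‖dL e c‖ = Real.sqrt (1 + e ^ 2 * gg c) := by
  rw [← Real.sqrt_sq (norm_nonneg (dL e c)), normsq3]
  congr 1
  have h2 : Real.sqrt 2 ^ 2 = 2 := Real.sq_sqrt (by norm_num)
  simp only [dL, gg]
  simp
  linear_combination (e * c) ^ 2 * h2

theorem norm_dU (e c : ℝ) : ‖dU e c‖ = Real.sqrt (1 + e ^ 2 * gg c) := by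
  rw [← Real.sqrt_sq (norm_nonneg (dU e c)), normsq3]
  congr 1
  have h2 : Real.sqrt 2 ^ 2 = 2 := Real.sq_sqrt (by norm_num)
  simp only [dU, gg]
  simp
  linear_combination (e * c) ^ 2 * h2

theorem area_L (e h c : ℝ) (hh : 0 < h) :
    (μHE[2] (convexHull ℝ ({pr (nrm (dL e c)) (PL e h c), pr (nrm (dL e c)) (QL e h c),
      pr (nrm (dL e c)) (SL e h c)} : Set E3))).toReal = Real.sqrt 2 / 2 * (h * FF e h c) := by
  rw [area_base _ _ _ _ (dL_ne e c), norm_dL]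
  have hdet : det3 (QL e h c - PL e h c) (SL e h c - PL e h c) (dL e c) =
      -(Real.sqrt 2 * (h * (RR e c + 2 * (e * h)) ^ 2)) := by
    simp only [det3, QL, PL, SL, dL]
    simp
    ring
  rw [hdet, abs_neg, abs_of_nonneg (by positivity)]
  unfold FF
  ring

theorem area_U (e h c : ℝ) (hh : 0 < h) :
    (μHE[2] (convexHull ℝ ({pr (nrm (dU e c)) (PU e h c), pr (nrm (dU e c)) (QU e h c),
      pr (nrm (dU e c)) (SU e h c)} : Set E3))).toReal = Real.sqrt 2 / 2 * (h * FF e h c) := by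
  rw [area_base _ _ _ _ (dU_ne e c), norm_dU]
  have hdet : det3 (QU e h c - PU e h c) (SU e h c - PU e h c) (dU e c) =
      (Real.sqrt 2 * (h * (RR e c + 2 * (e * h)) ^ 2)) := by
    simp only [det3, QU, PU, SU, dU]
    simp
    ring
  rw [hdet, abs_of_nonneg (by positivity)]
  unfold FF
  ring

/-- Barycentric coordinates in the thin triangle. -/
theorem bary (e h c Y Z R : ℝ) (he : 0 < e) (hh : 0 < h) (hR : 0 < R)
    (h1 : -(e * h) ≤ Z) (h2 : Z ≤ R + e * h) (h3 : |Y - c * Z| ≤ h / 2 * (Z + e * h)) :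
    ∃ α β γ : ℝ, 0 ≤ α ∧ 0 ≤ β ∧ 0 ≤ γ ∧ α + β + γ = 1 ∧
      Y = α * (-(c * (e * h))) + β * (c * (R + e * h) - h / 2 * (R + 2 * (e * h))) +
        γ * (c * (R + e * h) + h / 2 * (R + 2 * (e * h))) ∧
      Z = α * (-(e * h)) + β * (R + e * h) + γ * (R + e * h) := by
  have hW : 0 < R + 2 * (e * h) := by positivity
  set W := R + 2 * (e * h) with hWdef
  set σ := (Z + e * h) / W with hσ
  have hσW : σ * W = Z + e * h := by rw [hσ]; field_simp
  have hσ0 : 0 ≤ σ := by rw [hσ]; apply div_nonneg _ hW.le; linarith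
  have hσ1 : σ ≤ 1 := by rw [hσ, div_le_one hW]; linarith
  set δ := (Y - c * Z) / (h / 2 * W) with hδ
  have hhW : 0 < h / 2 * W := by positivity
  have hδW : δ * (h / 2 * W) = Y - c * Z := by rw [hδ]; field_simp
  have hδσ : |δ| ≤ σ := by
    rw [hδ, abs_div, abs_of_pos hhW, div_le_iff₀ hhW]
    calc |Y - c * Z| ≤ h / 2 * (Z + e * h) := h3
      _ = σ * (h / 2 * W) := by rw [← hσW]; ring
  obtain ⟨hd1, hd2⟩ := abs_le.mp hδσ
  refine ⟨1 - σ, (σ - δ) / 2, (σ + δ) / 2, by linarith, by linarith, by linarith, by ring, ?_, ?_⟩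
  · have hR' : R = W - 2 * (e * h) := by rw [hWdef]; ring
    rw [hR']
    linear_combination (-c) * hσW - hδW
  · have hR' : R = W - 2 * (e * h) := by rw [hWdef]; ring
    rw [hR']
    linear_combination (-1) * hσW

theorem K0_covered (N : ℕ) (hN : 0 < N) (e : ℝ) (he : 0 < e) (he1 : e ≤ 1 / 10) (x : E3)
    (hx : x ∈ K0) :
    (∃ i : Fin N, x ∈ cyl (pr (nrm (dL e (cc N i))) (PL e (2 / N) (cc N i)))
      (pr (nrm (dL e (cc N i))) (QL e (2 / N) (cc N i)))
      (pr (nrm (dL e (cc N i))) (SL e (2 / N) (cc N i))) (nrm (dL e (cc N i)))) ∨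
    (∃ i : Fin N, x ∈ cyl (pr (nrm (dU e (cc N i))) (PU e (2 / N) (cc N i)))
      (pr (nrm (dU e (cc N i))) (QU e (2 / N) (cc N i)))
      (pr (nrm (dU e (cc N i))) (SU e (2 / N) (cc N i))) (nrm (dU e (cc N i)))) := by
  have hs : 0 < Real.sqrt 2 := Real.sqrt_pos.mpr (by norm_num)
  have hNr : (0 : ℝ) < N := by exact_mod_cast hN
  have hh : (0 : ℝ) < 2 / N := by positivity
  obtain ⟨hx0, hx1⟩ := K0_bounds x hx
  set X := x 0 with hX
  set Y := x 1 with hY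
  set ζ := x 2 / Real.sqrt 2 with hζ
  have hx2 : x 2 = Real.sqrt 2 * ζ := by rw [hζ]; field_simp
  have hζ0 : 0 ≤ ζ := le_trans (abs_nonneg _) hx1
  have hζ1 : ζ ≤ 1 := by linarith [abs_nonneg X]
  have hXle : |X| ≤ 1 := by linarith
  have hYle : |Y| ≤ 1 := by linarith
  obtain ⟨t, ρ, ht, ht1, hρ, hy, hz⟩ := exists_ray e X Y ζ hx1
  obtain ⟨t', ρ', ht', ht1', hρ', hy', hz'⟩ := exists_ray e Y (-X) (1 - ζ) (by rw [abs_neg]; exact hx0)
  have hcc : ∀ i : Fin N, -1 ≤ cc N i ∧ cc N i ≤ 1 := by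
    intro i
    have hi2 : ((i : ℝ) + 1) ≤ N := by exact_mod_cast i.2
    unfold cc
    constructor
    · have : 0 ≤ (2 * (i : ℝ) + 1) / N := by positivity
      linarith
    · have : (2 * (i : ℝ) + 1) / N ≤ 2 := by
        rw [div_le_iff₀ hNr]; linarith
      linarith
  rcases dichotomy e X Y ζ t ρ t' ρ' he he1 ht ht1 ht' ht1' hy hz hy' hz' with hcase | hcase
  · left
    obtain ⟨i, hi⟩ := exists_slice N hN t ht ht1
    refine ⟨i, ?_⟩
    have hi' : |t - cc N i| ≤ (2 / N) / 2 := by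
      unfold cc; convert hi using 1; ring
    obtain ⟨b1, b2, b3⟩ := slice_bounds e (2 / N) X t (cc N i) ρ he (by linarith) hh hXle ht ht1
      (hcc i).1 (hcc i).2 hi' hρ hcase
    obtain ⟨α, β, γ, hα, hβ, hγ, hsum, hYe, hZe⟩ := bary e (2 / N) (cc N i) _ _ (RR e (cc N i)) he hh
      (RR_pos _ _) b1 b2 b3
    refine mem_cyl_pr (dL e (cc N i)) _ _ _ x (dL_ne _ _) α β γ X hα hβ hγ hsum ?_
    ext j
    fin_cases j
    · simp [PL, QL, SL, dL, hX]
    · have : Y = (ρ * t + X * e * (t ^ 2 - cc N i ^ 2) / 2) + X * (e * (1 + cc N i ^ 2) / 2) := by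
        rw [hy]; ring
      simp only [PL, QL, SL, dL]
      simp
      rw [← hY, this, hYe]
      ring
    · have : ζ = (ρ + X * e * (t - cc N i)) + X * (e * cc N i) := by
        rw [hz]; ring
      simp only [PL, QL, SL, dL]
      simp
      rw [hx2, this, hZe]
      ring
  · right
    obtain ⟨i, hi⟩ := exists_slice N hN t' ht' ht1'
    refine ⟨i, ?_⟩
    have hi' : |t' - cc N i| ≤ (2 / N) / 2 := by
      unfold cc; convert hi using 1; ring
    obtain ⟨b1, b2, b3⟩ := slice_bounds e (2 / N) Y t' (cc N i) ρ' he (by linarith) hh hYle ht' ht1'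
      (hcc i).1 (hcc i).2 hi' hρ' hcase
    obtain ⟨α, β, γ, hα, hβ, hγ, hsum, hYe, hZe⟩ := bary e (2 / N) (cc N i) _ _ (RR e (cc N i)) he hh
      (RR_pos _ _) b1 b2 b3
    refine mem_cyl_pr (dU e (cc N i)) _ _ _ x (dU_ne _ _) α β γ Y hα hβ hγ hsum ?_
    ext j
    fin_cases j
    · have : -X = (ρ' * t' + Y * e * (t' ^ 2 - cc N i ^ 2) / 2) + Y * (e * (1 + cc N i ^ 2) / 2) := by
        rw [hy']; ring
      rw [hYe] at this
      simp only [PU, QU, SU, dU]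
      simp
      rw [← hX]
      linarith
    · simp [PU, QU, SU, dU, hY]
    · have h5 : 1 - ζ = (ρ' + Y * e * (t' - cc N i)) + Y * (e * cc N i) := by
        rw [hz']; ring
      rw [hZe] at h5
      simp only [PU, QU, SU, dU]
      simp
      rw [hx2]
      have h6 : Real.sqrt 2 * ζ = Real.sqrt 2 * (1 - (1 - ζ)) := by ring
      rw [h6, h5]
      linear_combination (-Real.sqrt 2) * hsum

/-- Triangular cylinder cover of a set with total base area `A`, indexed by `ι`. -/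
def TriCover (ι : Type) [Fintype ι] (K : Set E3) (A : ℝ) : Prop :=
  ∃ (u p q r : ι → E3),
    (∀ i, ‖u i‖ = 1) ∧
    (∀ i, inner ℝ (p i) (u i) = 0 ∧ inner ℝ (q i) (u i) = 0 ∧ inner ℝ (r i) (u i) = 0) ∧
    K ⊆ ⋃ i, {x : E3 | ∃ b ∈ convexHull ℝ {p i, q i, r i}, ∃ t : ℝ, x = b + t • u i} ∧
    ∑ i, (μHE[2] (convexHull ℝ ({p i, q i, r i} : Set E3))).toReal = A

theorem cover_std : ∃ A : ℝ, A ≤ Real.sqrt 2 * (1 / 2 - 1 / 10 ^ 6) ∧
    TriCover (Fin (10 ^ 6) ⊕ Fin (10 ^ 6)) K0 A := by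
  obtain ⟨N, hN⟩ : ∃ N : ℕ, N = 10 ^ 6 := ⟨_, rfl⟩
  rw [← hN]
  have hNpos : 0 < N := by rw [hN]; norm_num
  have hNr : (0 : ℝ) < N := by exact_mod_cast hNpos
  have hh : (0 : ℝ) < 2 / N := by positivity
  refine ⟨∑ i : Fin N ⊕ Fin N, (μHE[2] (convexHull ℝ
    ({Sum.elim (fun i : Fin N => pr (nrm (dL (1 / 100) (cc N i))) (PL (1 / 100) (2 / N) (cc N i)))
        (fun i : Fin N => pr (nrm (dU (1 / 100) (cc N i))) (PU (1 / 100) (2 / N) (cc N i))) i,
      Sum.elim (fun i : Fin N => pr (nrm (dL (1 / 100) (cc N i))) (QL (1 / 100) (2 / N) (cc N i)))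
        (fun i : Fin N => pr (nrm (dU (1 / 100) (cc N i))) (QU (1 / 100) (2 / N) (cc N i))) i,
      Sum.elim (fun i : Fin N => pr (nrm (dL (1 / 100) (cc N i))) (SL (1 / 100) (2 / N) (cc N i)))
        (fun i : Fin N => pr (nrm (dU (1 / 100) (cc N i))) (SU (1 / 100) (2 / N) (cc N i))) i} :
        Set E3))).toReal, ?_,
    Sum.elim (fun i : Fin N => nrm (dL (1 / 100) (cc N i))) (fun i : Fin N => nrm (dU (1 / 100) (cc N i))),
    _, _, _, ?_, ?_, ?_, rfl⟩
  · rw [Fintype.sum_sum_type]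
    simp only [Sum.elim_inl, Sum.elim_inr]
    simp_rw [area_L _ _ _ hh, area_U _ _ _ hh]
    rw [← Finset.mul_sum]
    have := sum_FF_le N hN
    rw [Finset.sum_range] at this
    have hs : 0 < Real.sqrt 2 := Real.sqrt_pos.mpr (by norm_num)
    nlinarith
  · rintro (i | i)
    · exact norm_nrm _ (dL_ne _ _)
    · exact norm_nrm _ (dU_ne _ _)
  · rintro (i | i)
    · exact ⟨inner_pr _ _ (norm_nrm _ (dL_ne _ _)), inner_pr _ _ (norm_nrm _ (dL_ne _ _)),
        inner_pr _ _ (norm_nrm _ (dL_ne _ _))⟩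
    · exact ⟨inner_pr _ _ (norm_nrm _ (dU_ne _ _)), inner_pr _ _ (norm_nrm _ (dU_ne _ _)),
        inner_pr _ _ (norm_nrm _ (dU_ne _ _))⟩
  · intro x hx
    rw [Set.mem_iUnion]
    rcases K0_covered N hNpos (1 / 100) (by norm_num) (by norm_num) x hx with ⟨i, hi⟩ | ⟨i, hi⟩
    · exact ⟨Sum.inl i, hi⟩
    · exact ⟨Sum.inr i, hi⟩

end Crest.Agent.H16
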