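import Mathlib
import Crest.Agent.H16.TetraCover

/-!
The least area of an orthogonal projection of the standard tetrahedron is `√2`; padding of covers.
-/

set_option autoImplicit false

namespace Crest.Agent.H16

open MeasureTheory Crest.Agent.H1

/-- `pr v` as a linear map. -/
noncomputable def prL (v : E3) : E3 →ₗ[ℝ] E3 where
  toFun := pr v
  map_add' x y := by unfold pr; rw [inner_add_left, add_smul]; abel
  map_smul' c x := by
    unfold pr
    rw [inner_smul_left, smul_sub, smul_smul]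
    simp

theorem prL_apply (v x : E3) : prL v x = pr v x := rfl

theorem tri_subset (v : E3) (K : Set E3) (hK : Convex ℝ K) (A B C : E3) (hA : A ∈ K) (hB : B ∈ K)
    (hC : C ∈ K) : convexHull ℝ {pr v A, pr v B, pr v C} ⊆ pr v '' K := by
  have : Convex ℝ (pr v '' K) := hK.linear_image (prL v)
  apply convexHull_min _ this
  rintro x (rfl | rfl | rfl)
  · exact ⟨A, hA, rfl⟩
  · exact ⟨B, hB, rfl⟩
  · exact ⟨C, hC, rfl⟩

theorem shadow_ge_tri (v : E3) (hv : ‖v‖ = 1) (K : Set E3) (hK : Convex ℝ K) (A B C : E3)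
    (hA : A ∈ K) (hB : B ∈ K) (hC : C ∈ K) :
    ENNReal.ofReal (|det3 (B - A) (C - A) v| / 2) ≤ μHE[2] (pr v '' K) := by
  refine le_trans (le_of_eq ?_) (measure_mono (tri_subset v K hK A B C hA hB hC))
  rw [muHE_triangle, pr_sub, pr_sub, gramArea_pr _ _ _ hv]

theorem volume_halfopen_triangle :
    volume {x : EuclideanSpace ℝ (Fin 2) | 0 ≤ x 0 ∧ 0 < x 1 ∧ x 0 + x 1 ≤ 1} =
      ENNReal.ofReal (1 / 2) := by
  apply le_antisymm
  · rw [← volume_stdTriangle]
    apply measure_mono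
    rintro x ⟨h0, h1, h2⟩
    exact ⟨h0, h1.le, h2⟩
  · rw [← volume_stdTriangle]
    have hnull : volume {x : EuclideanSpace ℝ (Fin 2) | x 1 = 0} = 0 := by
      have h := Measure.addHaar_submodule (volume : Measure (EuclideanSpace ℝ (Fin 2)))
        (LinearMap.ker (EuclideanSpace.proj (𝕜 := ℝ) (1 : Fin 2) : EuclideanSpace ℝ (Fin 2) →L[ℝ] ℝ).toLinearMap)
        (by
          intro htop
          have : (!₂[(0:ℝ), 1] : EuclideanSpace ℝ (Fin 2)) ∈ LinearMap.ker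
              (EuclideanSpace.proj (𝕜 := ℝ) (1 : Fin 2) : EuclideanSpace ℝ (Fin 2) →L[ℝ] ℝ).toLinearMap := by
            rw [htop]; trivial
          simp at this)
      refine le_antisymm ?_ (by simp)
      rw [← h]
      apply measure_mono
      intro x hx
      simpa using hx
    calc volume {x : EuclideanSpace ℝ (Fin 2) | 0 ≤ x 0 ∧ 0 ≤ x 1 ∧ x 0 + x 1 ≤ 1}
        ≤ volume ({x : EuclideanSpace ℝ (Fin 2) | 0 ≤ x 0 ∧ 0 < x 1 ∧ x 0 + x 1 ≤ 1} ∪
            {x : EuclideanSpace ℝ (Fin 2) | x 1 = 0}) := by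
          apply measure_mono
          rintro x ⟨h0, h1, h2⟩
          rcases eq_or_lt_of_le h1 with h | h
          · right; exact h.symm
          · left; exact ⟨h0, h, h2⟩
      _ ≤ _ := by
          refine le_trans (measure_union_le _ _) ?_
          rw [hnull, add_zero]

theorem det3_sub_mid (X Y Z v : E3) : det3 X (Y - Z) v = det3 X Y v - det3 X Z v := by
  unfold det3
  simp only [PiLp.sub_apply]
  ring

theorem det3_pr (X Y v : E3) : det3 X (pr v Y) v = det3 X Y v := by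
  unfold det3 pr
  simp only [PiLp.sub_apply, PiLp.smul_apply, smul_eq_mul]
  ring

theorem shadow_ge_quad_aux (v : E3) (hv : ‖v‖ = 1) (K : Set E3) (hK : Convex ℝ K) (A B C D : E3)
    (hA : A ∈ K) (hB : B ∈ K) (hC : C ∈ K) (hD : D ∈ K)
    (h1 : det3 (B - A) (C - A) v ≤ 0) (h2 : 0 < det3 (B - A) (D - A) v) :
    ENNReal.ofReal (|det3 (B - A) (D - C) v| / 2) ≤ μHE[2] (pr v '' K) := by
  set f : E3 → ℝ := fun X => det3 (B - A) (X - A) v with hf
  have hcont : Continuous f := by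
    rw [hf]
    unfold det3
    fun_prop
  have hmeas : MeasurableSet {X : E3 | 0 < f X} := (isOpen_lt continuous_const hcont).measurableSet
  have hfpr : ∀ X, f (pr v X) = f X := by
    intro X
    simp only [hf]
    rw [det3_sub_mid, det3_pr, det3_sub_mid]
  have hsplit := measure_inter_add_sdiff (μ := μHE[2]) (pr v '' K) hmeas
  have hval : |det3 (B - A) (D - C) v| / 2 =
      |det3 (B - A) (D - A) v| / 2 + |det3 (B - A) (C - A) v| / 2 := by
    have : det3 (B - A) (D - C) v = det3 (B - A) (D - A) v - det3 (B - A) (C - A) v := by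
      rw [← det3_sub_mid]; congr 1; abel
    rw [this, abs_of_pos h2, abs_of_nonpos h1, abs_of_pos (by linarith)]
    ring
  rw [hval, ENNReal.ofReal_add (by positivity) (by positivity), ← hsplit]
  apply add_le_add
  · -- open side
    have himg : (fun x : EuclideanSpace ℝ (Fin 2) => pr v A + x 0 • (pr v B - pr v A) +
        x 1 • (pr v D - pr v A)) ''
        {x : EuclideanSpace ℝ (Fin 2) | 0 ≤ x 0 ∧ 0 < x 1 ∧ x 0 + x 1 ≤ 1} ⊆
        pr v '' K ∩ {X : E3 | 0 < f X} := by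
      rintro _ ⟨x, ⟨hx0, hx1, hx2⟩, rfl⟩
      constructor
      · apply tri_subset v K hK A B D hA hB hD
        rw [convexHull_triple_eq_image]
        exact ⟨x, ⟨hx0, hx1.le, hx2⟩, rfl⟩
      · simp only [Set.mem_ofPred_eq]
        have : pr v A + x 0 • (pr v B - pr v A) + x 1 • (pr v D - pr v A) =
            pr v (A + x 0 • (B - A) + x 1 • (D - A)) := by
          rw [← prL_apply, ← prL_apply, ← prL_apply, ← prL_apply]
          simp only [map_add, map_smul, map_sub]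
        rw [this, hfpr]
        have h3 : f (A + x 0 • (B - A) + x 1 • (D - A)) = x 1 * det3 (B - A) (D - A) v := by
          simp only [hf]
          unfold det3
          simp only [PiLp.sub_apply, PiLp.add_apply, PiLp.smul_apply, smul_eq_mul]
          ring
        rw [h3]
        positivity
    refine le_trans (le_of_eq ?_) (measure_mono himg)
    rw [muHE_image_affine, volume_halfopen_triangle, pr_sub, pr_sub, gramArea_pr _ _ _ hv,
      ← ENNReal.ofReal_mul (by positivity)]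
    congr 1
    ring
  · have hsub : convexHull ℝ {pr v A, pr v B, pr v C} ⊆ pr v '' K \ {X : E3 | 0 < f X} := by
      intro X hX
      refine ⟨tri_subset v K hK A B C hA hB hC hX, ?_⟩
      simp only [Set.mem_ofPred_eq, not_lt]
      rw [convexHull_triple_eq_image] at hX
      obtain ⟨x, ⟨hx0, hx1, hx2⟩, rfl⟩ := hX
      simp only
      have : pr v A + x 0 • (pr v B - pr v A) + x 1 • (pr v C - pr v A) =
          pr v (A + x 0 • (B - A) + x 1 • (C - A)) := by
        rw [← prL_apply, ← prL_apply, ← prL_apply, ← prL_apply]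
        simp only [map_add, map_smul, map_sub]
      rw [this, hfpr]
      have h3 : f (A + x 0 • (B - A) + x 1 • (C - A)) = x 1 * det3 (B - A) (C - A) v := by
        simp only [hf]
        unfold det3
        simp only [PiLp.sub_apply, PiLp.add_apply, PiLp.smul_apply, smul_eq_mul]
        ring
      rw [h3]
      nlinarith
    refine le_trans (le_of_eq ?_) (measure_mono hsub)
    rw [muHE_triangle, pr_sub, pr_sub, gramArea_pr _ _ _ hv]

theorem shadow_ge_quad (v : E3) (hv : ‖v‖ = 1) (K : Set E3) (hK : Convex ℝ K) (A B C D : E3)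
    (hA : A ∈ K) (hB : B ∈ K) (hC : C ∈ K) (hD : D ∈ K) :
    ENNReal.ofReal (|det3 (B - A) (D - C) v| / 2) ≤ μHE[2] (pr v '' K) := by
  have hdiff : det3 (B - A) (D - C) v = det3 (B - A) (D - A) v - det3 (B - A) (C - A) v := by
    rw [← det3_sub_mid]; congr 1; abel
  have hsymm : |det3 (B - A) (D - C) v| = |det3 (B - A) (C - D) v| := by
    have : det3 (B - A) (C - D) v = - det3 (B - A) (D - C) v := by
      unfold det3
      simp only [PiLp.sub_apply]
      ring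
    rw [this, abs_neg]
  rcases le_or_gt (det3 (B - A) (C - A) v) 0 with h1 | h1
  · rcases lt_or_ge 0 (det3 (B - A) (D - A) v) with h2 | h2
    · exact shadow_ge_quad_aux v hv K hK A B C D hA hB hC hD h1 h2
    · -- both nonpositive
      rcases le_total (det3 (B - A) (C - A) v) (det3 (B - A) (D - A) v) with h3 | h3
      · refine le_trans (ENNReal.ofReal_le_ofReal ?_) (shadow_ge_tri v hv K hK A B C hA hB hC)
        rw [hdiff, abs_of_nonneg (by linarith), abs_of_nonpos h1]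
        linarith
      · refine le_trans (ENNReal.ofReal_le_ofReal ?_) (shadow_ge_tri v hv K hK A B D hA hB hD)
        rw [hdiff, abs_of_nonpos (by linarith), abs_of_nonpos h2]
        linarith
  · rcases le_or_gt (det3 (B - A) (D - A) v) 0 with h2 | h2
    · rw [hsymm]
      exact shadow_ge_quad_aux v hv K hK A B D C hA hB hD hC h2 h1
    · rcases le_total (det3 (B - A) (C - A) v) (det3 (B - A) (D - A) v) with h3 | h3
      · refine le_trans (ENNReal.ofReal_le_ofReal ?_) (shadow_ge_tri v hv K hK A B D hA hB hD)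
        rw [hdiff, abs_of_nonneg (by linarith), abs_of_pos h2]
        linarith
      · refine le_trans (ENNReal.ofReal_le_ofReal ?_) (shadow_ge_tri v hv K hK A B C hA hB hC)
        rw [hdiff, abs_of_nonpos (by linarith), abs_of_pos h1]
        linarith

/-- Elementary inequality behind the least shadow. -/
theorem shadow_alg (a b c s : ℝ) (hs : 0 < s) (hs2 : s ^ 2 = 2) (ha : 0 ≤ a) (hb : 0 ≤ b)
    (hc : 0 ≤ c) (h : a ^ 2 + b ^ 2 + c ^ 2 = 1) (h1 : s * b + c < s) (h2 : s * a + c < s)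
    (h3 : 2 * c < s) (h4 : s * (a + b) < s) : False := by
  have hab : a + b < 1 := by
    by_contra hcon
    push Not at hcon
    nlinarith
  have h5 : 2 * (a * b) < c ^ 2 := by nlinarith
  wlog hle : b ≤ a generalizing a b
  · exact this b a hb ha (by linarith) h2 h1 (by linarith) (by linarith) (by linarith)
      (by linarith)
  have h6 : b ^ 2 ≤ a * b := by nlinarith
  have h7 : 2 * a ^ 2 > 2 - 3 * c ^ 2 := by nlinarith
  have h8 : 2 - 3 * c ^ 2 ≥ (s - c) ^ 2 - 0 := by nlinarith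
  have h9 : (s * a) ^ 2 > (s - c) ^ 2 := by
    have : (s * a) ^ 2 = 2 * a ^ 2 := by rw [mul_pow, hs2]
    linarith
  have h10 : 0 < s - c := by linarith
  nlinarith

theorem K0_convex : Convex ℝ K0 := convex_convexHull ℝ _

theorem mem_K0_0 : (!₂[(1:ℝ), 0, 0] : E3) ∈ K0 := subset_convexHull ℝ _ (by simp)
theorem mem_K0_1 : (!₂[(-1:ℝ), 0, 0] : E3) ∈ K0 := subset_convexHull ℝ _ (by simp)
theorem mem_K0_2 : (!₂[(0:ℝ), 1, Real.sqrt 2] : E3) ∈ K0 := subset_convexHull ℝ _ (by simp)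
theorem mem_K0_3 : (!₂[(0:ℝ), -1, Real.sqrt 2] : E3) ∈ K0 := subset_convexHull ℝ _ (by simp)

theorem shadow_K0 (v : E3) (hv : ‖v‖ = 1) : ENNReal.ofReal (Real.sqrt 2) ≤ μHE[2] (pr v '' K0) := by
  by_contra hcon
  push Not at hcon
  have hs : 0 < Real.sqrt 2 := Real.sqrt_pos.mpr (by norm_num)
  have hs2 : Real.sqrt 2 ^ 2 = 2 := Real.sq_sqrt (by norm_num)
  have hv1 : v 0 ^ 2 + v 1 ^ 2 + v 2 ^ 2 = 1 := by rw [← normsq3, hv]; norm_num
  have key : ∀ A B C D : E3, A ∈ K0 → B ∈ K0 → C ∈ K0 → D ∈ K0 →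
      |det3 (B - A) (D - C) v| / 2 < Real.sqrt 2 := by
    intro A B C D hA hB hC hD
    have := lt_of_le_of_lt (shadow_ge_quad v hv K0 K0_convex A B C D hA hB hC hD) hcon
    exact (ENNReal.ofReal_lt_ofReal_iff hs).mp this
  -- faces
  have f1 := key _ _ _ _ mem_K0_0 mem_K0_1 mem_K0_0 mem_K0_2
  have f2 := key _ _ _ _ mem_K0_0 mem_K0_1 mem_K0_0 mem_K0_3
  have f3 := key _ _ _ _ mem_K0_0 mem_K0_2 mem_K0_0 mem_K0_3
  have f4 := key _ _ _ _ mem_K0_1 mem_K0_2 mem_K0_1 mem_K0_3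
  have q1 := key _ _ _ _ mem_K0_0 mem_K0_1 mem_K0_2 mem_K0_3
  have q2 := key _ _ _ _ mem_K0_0 mem_K0_2 mem_K0_1 mem_K0_3
  have q3 := key _ _ _ _ mem_K0_0 mem_K0_3 mem_K0_1 mem_K0_2
  have e1 : det3 (!₂[(-1:ℝ), 0, 0] - !₂[(1:ℝ), 0, 0]) (!₂[(0:ℝ), 1, Real.sqrt 2] - !₂[(1:ℝ), 0, 0]) v =
      2 * Real.sqrt 2 * v 1 - 2 * v 2 := by simp [det3]; ring
  have e2 : det3 (!₂[(-1:ℝ), 0, 0] - !₂[(1:ℝ), 0, 0]) (!₂[(0:ℝ), -1, Real.sqrt 2] - !₂[(1:ℝ), 0, 0]) v =
      2 * Real.sqrt 2 * v 1 + 2 * v 2 := by simp [det3]; ring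
  have e3 : det3 (!₂[(0:ℝ), 1, Real.sqrt 2] - !₂[(1:ℝ), 0, 0])
      (!₂[(0:ℝ), -1, Real.sqrt 2] - !₂[(1:ℝ), 0, 0]) v =
      2 * Real.sqrt 2 * v 0 + 2 * v 2 := by simp [det3]; ring
  have e4 : det3 (!₂[(0:ℝ), 1, Real.sqrt 2] - !₂[(-1:ℝ), 0, 0])
      (!₂[(0:ℝ), -1, Real.sqrt 2] - !₂[(-1:ℝ), 0, 0]) v =
      2 * Real.sqrt 2 * v 0 - 2 * v 2 := by simp [det3]; ring
  have e5 : det3 (!₂[(-1:ℝ), 0, 0] - !₂[(1:ℝ), 0, 0])
      (!₂[(0:ℝ), -1, Real.sqrt 2] - !₂[(0:ℝ), 1, Real.sqrt 2]) v = 4 * v 2 := by simp [det3]; ring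
  have e6 : det3 (!₂[(0:ℝ), 1, Real.sqrt 2] - !₂[(1:ℝ), 0, 0])
      (!₂[(0:ℝ), -1, Real.sqrt 2] - !₂[(-1:ℝ), 0, 0]) v = 2 * Real.sqrt 2 * (v 0 + v 1) := by
    simp [det3]; ring
  have e7 : det3 (!₂[(0:ℝ), -1, Real.sqrt 2] - !₂[(1:ℝ), 0, 0])
      (!₂[(0:ℝ), 1, Real.sqrt 2] - !₂[(-1:ℝ), 0, 0]) v = 2 * Real.sqrt 2 * (v 1 - v 0) := by
    simp [det3]; ring
  rw [e1, div_lt_iff₀ (by norm_num), abs_lt] at f1
  rw [e2, div_lt_iff₀ (by norm_num), abs_lt] at f2
  rw [e3, div_lt_iff₀ (by norm_num), abs_lt] at f3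
  rw [e4, div_lt_iff₀ (by norm_num), abs_lt] at f4
  rw [e5, div_lt_iff₀ (by norm_num), abs_lt] at q1
  rw [e6, div_lt_iff₀ (by norm_num), abs_lt] at q2
  rw [e7, div_lt_iff₀ (by norm_num), abs_lt] at q3
  have hb : Real.sqrt 2 * |v 1| + |v 2| < Real.sqrt 2 := by
    rcases abs_cases (v 1) with ⟨h, _⟩ | ⟨h, _⟩ <;> rcases abs_cases (v 2) with ⟨h', _⟩ | ⟨h', _⟩ <;>
      rw [h, h'] <;> linarith [f1.1, f1.2, f2.1, f2.2]
  have ha : Real.sqrt 2 * |v 0| + |v 2| < Real.sqrt 2 := by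
    rcases abs_cases (v 0) with ⟨h, _⟩ | ⟨h, _⟩ <;> rcases abs_cases (v 2) with ⟨h', _⟩ | ⟨h', _⟩ <;>
      rw [h, h'] <;> linarith [f3.1, f3.2, f4.1, f4.2]
  have hc : 2 * |v 2| < Real.sqrt 2 := by
    rcases abs_cases (v 2) with ⟨h', _⟩ | ⟨h', _⟩ <;> rw [h'] <;> linarith [q1.1, q1.2]
  have hd : Real.sqrt 2 * (|v 0| + |v 1|) < Real.sqrt 2 := by
    rcases abs_cases (v 0) with ⟨h, _⟩ | ⟨h, _⟩ <;> rcases abs_cases (v 1) with ⟨h', _⟩ | ⟨h', _⟩ <;>
      rw [h, h'] <;> linarith [q2.1, q2.2, q3.1, q3.2]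
  exact shadow_alg |v 0| |v 1| |v 2| (Real.sqrt 2) hs hs2 (abs_nonneg _) (abs_nonneg _) (abs_nonneg _)
    (by simpa using hv1) hb ha hc hd

theorem shadow_K0_eq : μHE[2] (pr (!₂[1, 0, 0] : E3) '' K0) = ENNReal.ofReal (Real.sqrt 2) := by
  have himg : pr (!₂[1, 0, 0] : E3) '' K0 =
      convexHull ℝ {(0 : E3), !₂[0, 1, Real.sqrt 2], !₂[0, -1, Real.sqrt 2]} := by
    have h1 : pr (!₂[1, 0, 0] : E3) '' K0 = (prL (!₂[1, 0, 0] : E3)) '' K0 := rfl
    rw [h1, K0, LinearMap.image_convexHull]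
    congr 1
    simp only [Set.image_insert_eq, Set.image_singleton, prL_apply]
    have hpr : ∀ y : E3, pr (!₂[1, 0, 0] : E3) y = !₂[0, y 1, y 2] := by
      intro y
      have : inner ℝ y (!₂[1, 0, 0] : E3) = y 0 := by rw [inner3]; simp
      unfold pr
      rw [this]
      ext j; fin_cases j <;> simp
    have h00 : (!₂[0, 0, 0] : E3) = 0 := by ext j; fin_cases j <;> simp
    have e1 : pr (!₂[1, 0, 0] : E3) !₂[1, 0, 0] = 0 := by
      rw [hpr, ← h00]; simp
    have e2 : pr (!₂[1, 0, 0] : E3) !₂[-1, 0, 0] = 0 := by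
      rw [hpr, ← h00]; simp
    have e3 : pr (!₂[1, 0, 0] : E3) !₂[0, 1, Real.sqrt 2] = !₂[0, 1, Real.sqrt 2] := by
      rw [hpr]; simp
    have e4 : pr (!₂[1, 0, 0] : E3) !₂[0, -1, Real.sqrt 2] = !₂[0, -1, Real.sqrt 2] := by
      rw [hpr]; simp
    rw [e1, e2, e3, e4]
    simp
  have hs2 : Real.sqrt 2 ^ 2 = 2 := Real.sq_sqrt (by norm_num)
  rw [himg, muHE_triangle]
  congr 1
  have hss : Real.sqrt 2 * Real.sqrt 2 = 2 := Real.mul_self_sqrt (by norm_num)
  have h9 : Real.sqrt (2 ^ 2 * 2) = 2 * Real.sqrt 2 := by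
    rw [Real.sqrt_mul (by norm_num), Real.sqrt_sq (by norm_num)]
  have hg : gramArea ((!₂[0, 1, Real.sqrt 2] : E3) - 0) ((!₂[0, -1, Real.sqrt 2] : E3) - 0) =
      2 * Real.sqrt 2 := by
    rw [gramArea, normsq3, normsq3, inner3, ← h9]
    congr 1
    simp
    norm_num
  rw [hg]
  ring

end Crest.Agent.H16
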