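import Mathlib
import Crest.Agent.H16.MinProj

set_option autoImplicit false

namespace Crest.Agent.H16

open MeasureTheory Crest.Agent.H1

theorem TriCover.equiv {ι κ : Type} [Fintype ι] [Fintype κ] (e : κ ≃ ι) {K : Set E3} {A : ℝ}
    (h : TriCover ι K A) : TriCover κ K A := by
  obtain ⟨u, p, q, r, h1, h2, h3, h4⟩ := h
  refine ⟨u ∘ e, p ∘ e, q ∘ e, r ∘ e, fun i => h1 _, fun i => h2 _, ?_, ?_⟩
  · intro x hx
    obtain ⟨i, hi⟩ := Set.mem_iUnion.mp (h3 hx)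
    exact Set.mem_iUnion.mpr ⟨e.symm i, by simpa using hi⟩
  · rw [← h4]
    exact Fintype.sum_equiv e _ _ (fun i => rfl)

/-- Add one triangle of prescribed area and any number of degenerate ones. -/
theorem TriCover.pad {ι : Type} [Fintype ι] {K : Set E3} {A : ℝ} (h : TriCover ι K A) (A' : ℝ)
    (hA : A ≤ A') (m : ℕ) : TriCover (ι ⊕ (Fin 1 ⊕ Fin m)) K A' := by
  obtain ⟨u, p, q, r, h1, h2, h3, h4⟩ := h
  have hs2 : Real.sqrt (2 * (A' - A)) ^ 2 = 2 * (A' - A) := Real.sq_sqrt (by linarith)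
  refine ⟨Sum.elim u (fun _ => !₂[1, 0, 0]), Sum.elim p (fun _ => 0),
    Sum.elim q (Sum.elim (fun _ => !₂[0, Real.sqrt (2 * (A' - A)), 0]) (fun _ => 0)),
    Sum.elim r (Sum.elim (fun _ => !₂[0, 0, Real.sqrt (2 * (A' - A))]) (fun _ => 0)), ?_, ?_, ?_, ?_⟩
  · rintro (i | i)
    · exact h1 i
    · simp [EuclideanSpace.norm_eq, Fin.sum_univ_three]
  · rintro (i | i | i)
    · exact h2 i
    · simp [inner3]
    · simp
  · intro x hx
    obtain ⟨i, hi⟩ := Set.mem_iUnion.mp (h3 hx)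
    exact Set.mem_iUnion.mpr ⟨Sum.inl i, hi⟩
  · rw [Fintype.sum_sum_type, Fintype.sum_sum_type]
    simp only [Sum.elim_inl, Sum.elim_inr, Finset.univ_unique, Finset.sum_singleton]
    rw [h4]
    have e1 : (μHE[2] (convexHull ℝ ({0, !₂[0, Real.sqrt (2 * (A' - A)), 0],
        !₂[0, 0, Real.sqrt (2 * (A' - A))]} : Set E3))).toReal = A' - A := by
      rw [muHE_triangle, sub_zero, sub_zero, gramArea, normsq3, normsq3, inner3]
      set w := Real.sqrt (2 * (A' - A)) with hw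
      have hg : Real.sqrt (((!₂[0, w, 0] : E3) 0 ^ 2 + (!₂[0, w, 0] : E3) 1 ^ 2 + (!₂[0, w, 0] : E3) 2 ^ 2) *
          ((!₂[0, 0, w] : E3) 0 ^ 2 + (!₂[0, 0, w] : E3) 1 ^ 2 + (!₂[0, 0, w] : E3) 2 ^ 2) -
          ((!₂[0, w, 0] : E3) 0 * (!₂[0, 0, w] : E3) 0 + (!₂[0, w, 0] : E3) 1 * (!₂[0, 0, w] : E3) 1 +
            (!₂[0, w, 0] : E3) 2 * (!₂[0, 0, w] : E3) 2) ^ 2) = 2 * (A' - A) := by
        rw [← hs2]
        have : ((!₂[0, w, 0] : E3) 0 ^ 2 + (!₂[0, w, 0] : E3) 1 ^ 2 + (!₂[0, w, 0] : E3) 2 ^ 2) *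
          ((!₂[0, 0, w] : E3) 0 ^ 2 + (!₂[0, 0, w] : E3) 1 ^ 2 + (!₂[0, 0, w] : E3) 2 ^ 2) -
          ((!₂[0, w, 0] : E3) 0 * (!₂[0, 0, w] : E3) 0 + (!₂[0, w, 0] : E3) 1 * (!₂[0, 0, w] : E3) 1 +
            (!₂[0, w, 0] : E3) 2 * (!₂[0, 0, w] : E3) 2) ^ 2 = (w ^ 2) ^ 2 := by
          simp
          ring
        rw [this, Real.sqrt_sq (sq_nonneg w)]
      rw [hg, ENNReal.toReal_ofReal (by linarith)]
      ring
    have e2 : (μHE[2] (convexHull ℝ ({0, 0, 0} : Set E3))).toReal = 0 := by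
      rw [muHE_triangle, gramArea]
      simp
    rw [e1, e2]
    simp

theorem TriCover.toFin {ι : Type} [Fintype ι] {K : Set E3} {A : ℝ} (h : TriCover ι K A) (A' : ℝ)
    (hA : A ≤ A') (M : ℕ) (hM : Fintype.card ι < M) : TriCover (Fin M) K A' := by
  obtain ⟨m, rfl⟩ : ∃ m, M = Fintype.card ι + (1 + m) := ⟨M - Fintype.card ι - 1, by omega⟩
  have e : Fin (Fintype.card ι + (1 + m)) ≃ ι ⊕ (Fin 1 ⊕ Fin m) := by
    apply Fintype.equivOfCardEq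
    simp
  exact TriCover.equiv e (TriCover.pad h A' hA m)

end Crest.Agent.H16
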