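import Mathlib
import Crest.Agent.H16.Pad

set_option autoImplicit false

namespace Crest.Agent.H16

open MeasureTheory Crest.Agent.H1 Module

theorem pr_mem_orth (v x : E3) (hv : ‖v‖ = 1) : pr v x ∈ (Submodule.span ℝ {v})ᗮ := by
  rw [Submodule.mem_orthogonal_singleton_iff_inner_left]
  exact inner_pr v x hv

/-- Planar bounded sets orthogonal to a unit vector have finite area. -/
theorem finite_area_orth (v : E3) (hv : ‖v‖ = 1) (S : Set E3) (hS : Bornology.IsBounded S)
    (hSv : ∀ x ∈ S, inner ℝ x v = 0) : μHE[2] S < ⊤ := by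
  have hfr : finrank ℝ (Submodule.span ℝ {v})ᗮ = 2 := by
    have h0 : v ≠ 0 := by
      intro h; rw [h, norm_zero] at hv; norm_num at hv
    have : Fact (finrank ℝ E3 = 2 + 1) := ⟨by simp [E3]⟩
    exact Submodule.finrank_orthogonal_span_singleton (n := 2) h0
  let bs := (stdOrthonormalBasis ℝ (Submodule.span ℝ {v})ᗮ).reindex (finCongr hfr)
  let ι : EuclideanSpace ℝ (Fin 2) →ₗᵢ[ℝ] E3 :=
    (Submodule.span ℝ {v})ᗮ.subtypeₗᵢ.comp bs.repr.symm.toLinearIsometry
  have himg : S = ι '' (ι ⁻¹' S) := by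
    rw [Set.image_preimage_eq_inter_range]
    refine (Set.inter_eq_left.mpr ?_).symm
    intro x hx
    have hx' : x ∈ (Submodule.span ℝ {v})ᗮ := by
      rw [Submodule.mem_orthogonal_singleton_iff_inner_left]; exact hSv x hx
    exact ⟨bs.repr ⟨x, hx'⟩, by simp [ι]⟩
  rw [himg, ι.isometry.euclideanHausdorffMeasure_image,
    EuclideanSpace.euclideanHausdorffMeasure_eq_volume]
  apply Bornology.IsBounded.measure_lt_top
  obtain ⟨R, hR⟩ := hS.subset_closedBall 0
  refine (Metric.isBounded_closedBall (x := (0 : EuclideanSpace ℝ (Fin 2))) (r := R)).subset ?_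
  intro y hy
  have := hR hy
  simp only [mem_closedBall_zero_iff] at this ⊢
  rwa [ι.norm_map] at this

theorem bounded_pr (v : E3) (K : Set E3) (hK : Bornology.IsBounded K) :
    Bornology.IsBounded (pr v '' K) := by
  have : pr v '' K = (prL v).toContinuousLinearMap '' K := rfl
  rw [this]
  exact (prL v).toContinuousLinearMap.lipschitz.isBounded_image hK

theorem finite_shadow (v : E3) (hv : ‖v‖ = 1) (K : Set E3) (hK : Bornology.IsBounded K) :
    μHE[2] (pr v '' K) < ⊤ := by
  apply finite_area_orth v hv _ (bounded_pr v K hK)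
  rintro _ ⟨x, _, rfl⟩
  exact inner_pr v x hv

theorem K0_bounded : Bornology.IsBounded K0 := by
  unfold K0
  rw [isBounded_convexHull]
  apply Set.Finite.isBounded
  simp

/-- Lower bound on the real-valued shadow area. -/
theorem shadow_K0_toReal (v : E3) (hv : ‖v‖ = 1) :
    Real.sqrt 2 ≤ (μHE[2] (pr v '' K0)).toReal := by
  have h1 := shadow_K0 v hv
  have h2 := finite_shadow v hv K0 K0_bounded
  rw [← ENNReal.ofReal_le_iff_le_toReal h2.ne]
  exact h1

/-- `μH[2]` and `μHE[2]` differ by a positive finite factor. -/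
theorem exists_factor : ∃ c : ℝ, 0 < c ∧ ∀ s : Set E3,
    (μH[(2 : ℝ)] s).toReal = c * (μHE[2] s).toReal := by
  have hdef := Measure.euclideanHausdorffMeasure_def (X := E3) 2
  have hne := Measure.addHaarScalarFactor_volume_hausdorffMeasure_ne_zero 2
  set k : NNReal := Measure.addHaarScalarFactor (volume : Measure (EuclideanSpace ℝ (Fin 2)))
    μH[((2 : ℕ) : ℝ)] with hk
  have hkpos : (0 : ℝ) < k := by
    have : k ≠ 0 := hne
    positivity
  refine ⟨(k : ℝ)⁻¹, by positivity, ?_⟩
  intro s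
  rw [hdef, Measure.smul_apply, ENNReal.smul_def, smul_eq_mul, ENNReal.toReal_mul, ENNReal.coe_toReal]
  have : ((2 : ℕ) : ℝ) = (2 : ℝ) := by norm_num
  rw [this]
  field_simp

end Crest.Agent.H16
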