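import Mathlib
import Crest.Agent.H16.Finite

set_option autoImplicit false

namespace Crest.Agent.H16

open MeasureTheory Crest.Agent.H1 Module
open scoped Pointwise

theorem gramArea_smul_isometry (L : E3 ≃ₗᵢ[ℝ] E3) (k : ℝ) (a b : E3) :
    gramArea (k • L a) (k • L b) = k ^ 2 * gramArea a b := by
  rw [gramArea, gramArea]
  have : ‖k • L a‖ ^ 2 * ‖k • L b‖ ^ 2 - inner ℝ (k • L a) (k • L b) ^ 2 =
      (k ^ 2) ^ 2 * (‖a‖ ^ 2 * ‖b‖ ^ 2 - inner ℝ a b ^ 2) := by
    rw [norm_smul, norm_smul, real_inner_smul_left, real_inner_smul_right, L.norm_map, L.norm_map,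
      L.inner_map_map, Real.norm_eq_abs]
    have : |k| ^ 2 = k ^ 2 := sq_abs k
    simp only [mul_pow, this]
    ring
  rw [this, Real.sqrt_mul (by positivity), Real.sqrt_sq (by positivity)]

/-- The similarity `x ↦ m + k L x`. -/
noncomputable def sim (m : E3) (k : ℝ) (L : E3 ≃ₗᵢ[ℝ] E3) (x : E3) : E3 := m + k • L x

theorem pr_sim (m : E3) (k : ℝ) (L : E3 ≃ₗᵢ[ℝ] E3) (u x : E3) :
    pr (L u) (sim m k L x) = pr (L u) m + k • L (pr u x) := by
  unfold pr sim
  rw [inner_add_left, real_inner_smul_left, L.inner_map_map, map_sub, map_smul]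
  module

theorem TriCover.sim {ι : Type} [Fintype ι] {K : Set E3} {A : ℝ} (h : TriCover ι K A) (m : E3)
    (k : ℝ) (hk : k ≠ 0) (L : E3 ≃ₗᵢ[ℝ] E3) : TriCover ι (sim m k L '' K) (k ^ 2 * A) := by
  obtain ⟨u, p, q, r, h1, h2, h3, h4⟩ := h
  refine ⟨fun i => L (u i), fun i => pr (L (u i)) m + k • L (p i),
    fun i => pr (L (u i)) m + k • L (q i), fun i => pr (L (u i)) m + k • L (r i), ?_, ?_, ?_, ?_⟩
  · intro i; simp only; rw [L.norm_map]; exact h1 i
  · intro i
    have hu : ‖L (u i)‖ = 1 := by rw [L.norm_map]; exact h1 i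
    simp only [inner_add_left, inner_pr _ _ hu, real_inner_smul_left, L.inner_map_map]
    obtain ⟨a, b, c⟩ := h2 i
    rw [a, b, c]
    simp
  · rintro _ ⟨x, hx, rfl⟩
    obtain ⟨i, b, hb, t, rfl⟩ := Set.mem_iUnion.mp (h3 hx)
    refine Set.mem_iUnion.mpr ⟨i, pr (L (u i)) m + k • L b, ?_, k * t + inner ℝ m (L (u i)), ?_⟩
    · have himg := convexHull_triple_eq_image (p i) (q i) (r i)
      rw [himg] at hb
      obtain ⟨y, hy, rfl⟩ := hb
      rw [convexHull_triple_eq_image]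
      refine ⟨y, hy, ?_⟩
      simp only [map_add, map_smul, map_sub]
      module
    · unfold Crest.Agent.H16.sim pr
      simp only [map_add, map_smul]
      module
  · rw [← h4, Finset.mul_sum]
    apply Finset.sum_congr rfl
    intro i _
    rw [muHE_triangle, muHE_triangle]
    have e1 : pr (L (u i)) m + k • L (q i) - (pr (L (u i)) m + k • L (p i)) = k • L (q i - p i) := by
      rw [map_sub]; module
    have e2 : pr (L (u i)) m + k • L (r i) - (pr (L (u i)) m + k • L (p i)) = k • L (r i - p i) := by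
      rw [map_sub]; module
    rw [e1, e2, gramArea_smul_isometry, ENNReal.toReal_ofReal, ENNReal.toReal_ofReal]
    · ring
    · rw [gramArea]; positivity
    · rw [gramArea]; positivity

/-- Shadows of a similar copy. -/
theorem shadow_sim (m : E3) (k : ℝ) (hk : k ≠ 0) (L : E3 ≃ₗᵢ[ℝ] E3) (v : E3) (hv : ‖v‖ = 1) :
    k ^ 2 * Real.sqrt 2 ≤ (μHE[2] (pr v '' (sim m k L '' K0))).toReal := by
  have himg : pr v '' (sim m k L '' K0) =
      (fun x => x + pr v m) '' (k • (L '' (pr (L.symm v) '' K0))) := by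
    ext y
    constructor
    · rintro ⟨_, ⟨x, hx, rfl⟩, rfl⟩
      refine ⟨k • L (pr (L.symm v) x), ⟨L (pr (L.symm v) x), ⟨_, ⟨x, hx, rfl⟩, rfl⟩, rfl⟩, ?_⟩
      have := pr_sim m k L (L.symm v) x
      rw [L.apply_symm_apply] at this
      rw [this]
      simp only
      abel
    · rintro ⟨_, ⟨_, ⟨_, ⟨x, hx, rfl⟩, rfl⟩, rfl⟩, rfl⟩
      refine ⟨sim m k L x, ⟨x, hx, rfl⟩, ?_⟩
      have := pr_sim m k L (L.symm v) x
      rw [L.apply_symm_apply] at this
      rw [this]
      simp only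
      abel
  rw [himg, muHE_image_add, Measure.euclideanHausdorffMeasure_smul₀ 2 hk,
    L.isometry.euclideanHausdorffMeasure_image]
  have h1 := shadow_K0_toReal (L.symm v) (by rw [L.symm.norm_map]; exact hv)
  have h2 : ((‖k‖₊ ^ 2 • μHE[2] (pr (L.symm v) '' K0) : ENNReal)).toReal =
      k ^ 2 * (μHE[2] (pr (L.symm v) '' K0)).toReal := by
    rw [ENNReal.smul_def, smul_eq_mul, ENNReal.toReal_mul]
    congr 1
    simp
  rw [h2]
  exact mul_le_mul_of_nonneg_left h1 (sq_nonneg k)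

/-- Every regular tetrahedron is a similar copy of the standard one. -/
theorem exists_sim (w : Fin 4 → E3) (ℓ : ℝ) (hℓ : 0 < ℓ) (hw : ∀ i j, i ≠ j → dist (w i) (w j) = ℓ) :
    ∃ (m : E3) (L : E3 ≃ₗᵢ[ℝ] E3), convexHull ℝ (Set.range w) = sim m (ℓ / 2) L '' K0 := by
  set a := w 0 - w 3 with ha
  set b := w 1 - w 3 with hb
  set c := w 2 - w 3 with hc
  have haa : inner ℝ a a = ℓ ^ 2 := by
    rw [real_inner_self_eq_norm_sq, ha, ← dist_eq_norm, hw 0 3 (by decide)]
  have hbb : inner ℝ b b = ℓ ^ 2 := by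
    rw [real_inner_self_eq_norm_sq, hb, ← dist_eq_norm, hw 1 3 (by decide)]
  have hcc : inner ℝ c c = ℓ ^ 2 := by
    rw [real_inner_self_eq_norm_sq, hc, ← dist_eq_norm, hw 2 3 (by decide)]
  have hab : inner ℝ a b = ℓ ^ 2 / 2 := by
    have h1 : ‖a - b‖ = ℓ := by
      have : a - b = w 0 - w 1 := by rw [ha, hb]; abel
      rw [this, ← dist_eq_norm, hw 0 1 (by decide)]
    rw [real_inner_eq_norm_mul_self_add_norm_mul_self_sub_norm_sub_mul_self_div_two, h1,
      ← real_inner_self_eq_norm_mul_norm, ← real_inner_self_eq_norm_mul_norm, haa, hbb]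
    ring
  have hac : inner ℝ a c = ℓ ^ 2 / 2 := by
    have h1 : ‖a - c‖ = ℓ := by
      have : a - c = w 0 - w 2 := by rw [ha, hc]; abel
      rw [this, ← dist_eq_norm, hw 0 2 (by decide)]
    rw [real_inner_eq_norm_mul_self_add_norm_mul_self_sub_norm_sub_mul_self_div_two, h1,
      ← real_inner_self_eq_norm_mul_norm, ← real_inner_self_eq_norm_mul_norm, haa, hcc]
    ring
  have hbc : inner ℝ b c = ℓ ^ 2 / 2 := by
    have h1 : ‖b - c‖ = ℓ := by
      have : b - c = w 1 - w 2 := by rw [hb, hc]; abel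
      rw [this, ← dist_eq_norm, hw 1 2 (by decide)]
    rw [real_inner_eq_norm_mul_self_add_norm_mul_self_sub_norm_sub_mul_self_div_two, h1,
      ← real_inner_self_eq_norm_mul_norm, ← real_inner_self_eq_norm_mul_norm, hbb, hcc]
    ring
  have hs : 0 < Real.sqrt 2 := Real.sqrt_pos.mpr (by norm_num)
  have hs2 : Real.sqrt 2 ^ 2 = 2 := Real.sq_sqrt (by norm_num)
  set e : Fin 3 → E3 := ![ℓ⁻¹ • (a - b), ℓ⁻¹ • c, (Real.sqrt 2 * ℓ)⁻¹ • (c - a - b)] with he
  have hba := real_inner_comm a b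
  have hca := real_inner_comm a c
  have hcb := real_inner_comm b c
  rw [hab] at hba
  rw [hac] at hca
  rw [hbc] at hcb
  have hon : Orthonormal ℝ e := by
    rw [orthonormal_iff_ite]
    intro i j
    fin_cases i <;> fin_cases j <;>
      simp only [he, Matrix.cons_val_zero, Matrix.cons_val_one, Matrix.cons_val, real_inner_smul_left,
        real_inner_smul_right, inner_sub_left, inner_sub_right, haa, hbb, hcc, hab, hac, hbc, hba, hca, hcb,
        Fin.zero_eta, Fin.mk_one, Fin.reduceFinMk, Fin.isValue] <;>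
      simp <;> field_simp <;> first | norm_num | (rw [hs2]; norm_num)
  have hcard : Fintype.card (Fin 3) = finrank ℝ E3 := by simp [E3]
  let bs : OrthonormalBasis (Fin 3) ℝ E3 := OrthonormalBasis.mk hon
    (by
      rw [top_le_iff]
      exact hon.linearIndependent.span_eq_top_of_card_eq_finrank hcard)
  refine ⟨(1 / 2 : ℝ) • (w 0 + w 1), bs.repr.symm, ?_⟩
  have happ : ∀ x : E3, bs.repr.symm x = x 0 • e 0 + x 1 • e 1 + x 2 • e 2 := by
    intro x
    have h1 := bs.sum_repr_symm x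
    rw [← h1, Fin.sum_univ_three]
    simp [bs]
  let f : E3 →ᵃ[ℝ] E3 :=
    { toFun := sim ((1 / 2 : ℝ) • (w 0 + w 1)) (ℓ / 2) bs.repr.symm
      linear := (ℓ / 2) • bs.repr.symm.toLinearEquiv.toLinearMap
      map_vadd' := by
        intro p v
        simp only [sim, vadd_eq_add, map_add, LinearMap.smul_apply]
        change _ = (ℓ / 2) • (bs.repr.symm v) + _
        rw [smul_add]
        module }
  have hf : sim ((1 / 2 : ℝ) • (w 0 + w 1)) (ℓ / 2) bs.repr.symm '' K0 = f '' K0 := rfl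
  rw [hf, K0, AffineMap.image_convexHull]
  congr 1
  have hfv : ∀ x y z : ℝ, f !₂[x, y, z] =
      (1 / 2 : ℝ) • (w 0 + w 1) + (ℓ / 2) • (x • e 0 + y • e 1 + z • e 2) := by
    intro x y z
    change (1 / 2 : ℝ) • (w 0 + w 1) + (ℓ / 2) • bs.repr.symm _ = _
    rw [happ]
    rfl
  have he0 : (ℓ / 2) • e 0 = (1 / 2 : ℝ) • (w 0 - w 1) := by
    change (ℓ / 2) • (ℓ⁻¹ • (a - b)) = _
    rw [smul_smul, show (ℓ / 2) * ℓ⁻¹ = 1 / 2 by field_simp, ha, hb]
    module
  have he1 : (ℓ / 2) • e 1 = (1 / 2 : ℝ) • (w 2 - w 3) := by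
    change (ℓ / 2) • (ℓ⁻¹ • c) = _
    rw [smul_smul, show (ℓ / 2) * ℓ⁻¹ = 1 / 2 by field_simp, hc]
  have he2 : (ℓ / 2) • (Real.sqrt 2 • e 2) = (1 / 2 : ℝ) • (w 2 + w 3 - w 0 - w 1) := by
    change (ℓ / 2) • (Real.sqrt 2 • ((Real.sqrt 2 * ℓ)⁻¹ • (c - a - b))) = _
    rw [smul_smul, smul_smul, show (ℓ / 2) * Real.sqrt 2 * (Real.sqrt 2 * ℓ)⁻¹ = 1 / 2 by field_simp,
      hc, ha, hb]
    module
  have g0 : f !₂[1, 0, 0] = w 0 := by
    rw [hfv, zero_smul, zero_smul, add_zero, add_zero, one_smul, he0]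
    module
  have g1 : f !₂[-1, 0, 0] = w 1 := by
    rw [hfv, zero_smul, zero_smul, add_zero, add_zero, neg_smul, one_smul, smul_neg, he0]
    module
  have g2 : f !₂[0, 1, Real.sqrt 2] = w 2 := by
    rw [hfv, zero_smul, zero_add, one_smul, smul_add (ℓ / 2), he1, he2]
    module
  have g3 : f !₂[0, -1, Real.sqrt 2] = w 3 := by
    rw [hfv, zero_smul, zero_add, neg_smul, one_smul, smul_add (ℓ / 2), smul_neg, he1, he2]
    module
  simp only [Set.image_insert_eq, Set.image_singleton, g0, g1, g2, g3]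
  ext x
  simp only [Set.mem_range, Set.mem_insert_iff, Set.mem_singleton_iff]
  constructor
  · rintro ⟨i, rfl⟩
    fin_cases i <;> simp
  · rintro (h | h | h | h)
    · exact ⟨0, h.symm⟩
    · exact ⟨1, h.symm⟩
    · exact ⟨2, h.symm⟩
    · exact ⟨3, h.symm⟩

end Crest.Agent.H16
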