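import Mathlib
import Crest.Agent.H16.Similar

set_option autoImplicit false

namespace Crest.Agent.H16

open MeasureTheory Crest.Agent.H1

theorem sum_const_sub (C : ℝ) (m : ℕ) :
    ∑ i ∈ Finset.range m, (C - i) = C * m - m * (m - 1) / 2 := by
  induction m with
  | zero => simp
  | succ m ih => rw [Finset.sum_range_succ, ih]; push_cast; ring

theorem card_tri (n : ℕ) :
    (Fintype.card (Σ i : Fin (n + 1), Fin (n + 1 - i)) : ℝ) = (n + 1) * (n + 2) / 2 := by
  rw [Fintype.card_sigma]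
  simp only [Fintype.card_fin]
  push_cast
  have h1 : ∀ i : Fin (n + 1), ((n + 1 - (i : ℕ) : ℕ) : ℝ) = ((n : ℝ) + 1) - (i : ℕ) := by
    intro i
    rw [Nat.cast_sub (by have := i.2; omega)]
    push_cast
    ring
  rw [Finset.sum_congr rfl (fun i _ => h1 i)]
  rw [Fin.sum_univ_eq_sum_range (fun i => ((n : ℝ) + 1) - (i : ℝ)) (n + 1), sum_const_sub]
  push_cast
  ring

theorem TriCover.para {ι : Type} [Fintype ι] {K : Set E3} {A : ℝ} (h : TriCover ι K A) (B : ℝ)
    (hB : A < B) :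
    ∃ (k : ℕ) (u c a b : Fin k → E3),
      (∀ i, ‖u i‖ = 1) ∧
      (∀ i, inner ℝ (c i) (u i) = 0 ∧ inner ℝ (a i) (u i) = 0 ∧ inner ℝ (b i) (u i) = 0) ∧
      K ⊆ ⋃ i, {x : E3 |
        ∃ s ∈ Set.Icc (0 : ℝ) 1, ∃ t ∈ Set.Icc (0 : ℝ) 1, ∃ τ : ℝ, x = c i + s • a i + t • b i + τ • u i} ∧
      ∑ i, (μHE[2] {x : E3 |
            ∃ s ∈ Set.Icc (0 : ℝ) 1, ∃ t ∈ Set.Icc (0 : ℝ) 1, x = c i + s • a i + t • b i}).toReal ≤ B := by
  obtain ⟨u, p, q, r, h1, h2, h3, h4⟩ := h
  have hA0 : 0 ≤ A := by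
    rw [← h4]; exact Finset.sum_nonneg (fun i _ => ENNReal.toReal_nonneg)
  -- choose n
  obtain ⟨n, hn⟩ : ∃ n : ℕ, 0 < n ∧ A * (((n : ℝ) + 1) * (n + 2) / n ^ 2) ≤ B := by
    have hpos : 0 < B - A := by linarith
    obtain ⟨n, hn⟩ := exists_nat_gt (5 * A / (B - A) + 1)
    have hn0 : (0 : ℝ) < n := by
      have : 0 ≤ 5 * A / (B - A) := by positivity
      linarith
    have hn1 : (1 : ℝ) ≤ n := by
      have : 0 ≤ 5 * A / (B - A) := by positivity
      linarith
    refine ⟨n, by exact_mod_cast hn0, ?_⟩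
    have h5 : 5 * A ≤ n * (B - A) := by
      have : 5 * A / (B - A) ≤ n := by linarith
      rwa [div_le_iff₀ hpos] at this
    have h6 : A * (((n : ℝ) + 1) * (n + 2) / n ^ 2) = A + A * (3 * n + 2) / n ^ 2 := by
      field_simp; ring
    rw [h6]
    have h7 : A * (3 * n + 2) / n ^ 2 ≤ B - A := by
      rw [div_le_iff₀ (by positivity)]
      have : A * (3 * n + 2) ≤ 5 * A * n := by nlinarith
      nlinarith
    linarith
  obtain ⟨hn0, hnB⟩ := hn
  have hnr : (0 : ℝ) < n := by exact_mod_cast hn0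
  set J := Σ i : Fin (n + 1), Fin (n + 1 - i) with hJ
  let e := (Fintype.equivFin (ι × J)).symm
  refine ⟨Fintype.card (ι × J), fun k => u (e k).1,
    fun k => p (e k).1 + ((((e k).2.1 : ℕ) : ℝ) / n) • (q (e k).1 - p (e k).1) +
      ((((e k).2.2 : ℕ) : ℝ) / n) • (r (e k).1 - p (e k).1),
    fun k => (1 / (n : ℝ)) • (q (e k).1 - p (e k).1),
    fun k => (1 / (n : ℝ)) • (r (e k).1 - p (e k).1), ?_, ?_, ?_, ?_⟩
  · intro k; exact h1 _
  · intro k
    obtain ⟨a1, a2, a3⟩ := h2 (e k).1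
    simp only [inner_add_left, real_inner_smul_left, inner_sub_left, a1, a2, a3]
    simp
  · intro x hx
    obtain ⟨i, b, hb, t, rfl⟩ := Set.mem_iUnion.mp (h3 hx)
    rw [convexHull_triple_eq_image] at hb
    obtain ⟨y, ⟨hy0, hy1, hy2⟩, rfl⟩ := hb
    set k0 := ⌊y 0 * n⌋₊ with hk0
    set k1 := ⌊y 1 * n⌋₊ with hk1
    have g0 : (k0 : ℝ) ≤ y 0 * n := Nat.floor_le (by positivity)
    have g0' : y 0 * n < k0 + 1 := Nat.lt_floor_add_one _
    have g1 : (k1 : ℝ) ≤ y 1 * n := Nat.floor_le (by positivity)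
    have g1' : y 1 * n < k1 + 1 := Nat.lt_floor_add_one _
    have hk : k0 + k1 ≤ n := by
      have : (k0 : ℝ) + k1 ≤ n := by nlinarith
      exact_mod_cast this
    have hk0n : k0 < n + 1 := by omega
    have hk1n : k1 < n + 1 - ((⟨k0, hk0n⟩ : Fin (n + 1)) : ℕ) := by simp; omega
    refine Set.mem_iUnion.mpr ⟨e.symm (i, ⟨⟨k0, hk0n⟩, ⟨k1, hk1n⟩⟩), ?_⟩
    have hz : e (e.symm (i, ⟨⟨k0, hk0n⟩, ⟨k1, hk1n⟩⟩)) = (i, ⟨⟨k0, hk0n⟩, ⟨k1, hk1n⟩⟩) :=
      e.apply_symm_apply _
    beta_reduce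
    rw [hz]
    simp only [Set.mem_ofPred_eq]
    refine ⟨y 0 * n - k0, ⟨by linarith, by linarith⟩, y 1 * n - k1, ⟨by linarith, by linarith⟩, t, ?_⟩
    have e0 : y 0 = (k0 : ℝ) / n + (y 0 * n - k0) * (1 / n) := by field_simp; ring
    have e1 : y 1 = (k1 : ℝ) / n + (y 1 * n - k1) * (1 / n) := by field_simp; ring
    rw [smul_smul, smul_smul]
    conv_lhs => rw [e0, e1]
    module
  · simp only [muHE_parallelogram]
    rw [Equiv.sum_comp e (fun z : ι × J => (ENNReal.ofReal (gramArea ((1 / (n : ℝ)) • (q z.1 - p z.1))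
      ((1 / (n : ℝ)) • (r z.1 - p z.1)))).toReal)]
    rw [Fintype.sum_prod_type]
    simp only [Finset.sum_const, Finset.card_univ, nsmul_eq_mul]
    have hcard : (Fintype.card J : ℝ) = (n + 1) * (n + 2) / 2 := card_tri n
    rw [hcard]
    have hg : ∀ i : ι, (ENNReal.ofReal (gramArea ((1 / (n : ℝ)) • (q i - p i))
      ((1 / (n : ℝ)) • (r i - p i)))).toReal =
        (2 / n ^ 2) * (μHE[2] (convexHull ℝ ({p i, q i, r i} : Set E3))).toReal := by
      intro i
      rw [muHE_triangle, ENNReal.toReal_ofReal, ENNReal.toReal_ofReal]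
      · have := gramArea_smul_isometry (LinearIsometryEquiv.refl ℝ E3) (1 / (n : ℝ)) (q i - p i) (r i - p i)
        simp only [LinearIsometryEquiv.coe_refl, id] at this
        rw [this]
        field_simp
      · rw [gramArea]; positivity
      · rw [gramArea]; positivity
    simp only [hg]
    have : ∀ i : ι, ((n : ℝ) + 1) * (n + 2) / 2 *
        (2 / n ^ 2 * (μHE[2] (convexHull ℝ ({p i, q i, r i} : Set E3))).toReal) =
        (((n : ℝ) + 1) * (n + 2) / n ^ 2) * (μHE[2] (convexHull ℝ ({p i, q i, r i} : Set E3))).toReal := by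
      intro i; field_simp
    simp only [this]
    rw [← Finset.mul_sum, h4, mul_comm]
    exact hnB

theorem TriCover.open {ι : Type} [Fintype ι] {K : Set E3} {A : ℝ} (h : TriCover ι K A) (B : ℝ)
    (hB : A < B) :
    ∃ (k : ℕ) (u : Fin k → E3) (D : Fin k → Set E3),
      (∀ i, ‖u i‖ = 1) ∧
      (∀ i, Bornology.IsBounded (D i) ∧ ∃ O : Set E3, IsOpen O ∧
        D i = O ∩ {x | inner ℝ x (u i) = 0}) ∧
      K ⊆ ⋃ i, {x : E3 | ∃ y ∈ D i, ∃ τ : ℝ, x = y + τ • u i} ∧
      ∑ i, (μHE[2] (D i)).toReal ≤ B := by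
  obtain ⟨u, p, q, r, h1, h2, h3, h4⟩ := h
  set η : ℝ := (B - A) / (Fintype.card ι + 1) with hη
  have hηpos : 0 < η := by rw [hη]; apply div_pos (by linarith); positivity
  have hplane : ∀ i, convexHull ℝ ({p i, q i, r i} : Set E3) ⊆ {x : E3 | inner ℝ x (u i) = 0} := by
    intro i
    have hconv : Convex ℝ {x : E3 | inner ℝ x (u i) = 0} := by
      intro x hx y hy a b _ _ _
      simp only [Set.mem_ofPred_eq] at hx hy ⊢
      rw [inner_add_left, real_inner_smul_left, real_inner_smul_left, hx, hy]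
      simp
    apply convexHull_min _ hconv
    obtain ⟨a1, a2, a3⟩ := h2 i
    rintro x (rfl | rfl | rfl)
    · exact a1
    · exact a2
    · exact a3
  have hbdd : ∀ i, Bornology.IsBounded (convexHull ℝ ({p i, q i, r i} : Set E3)) := by
    intro i
    rw [isBounded_convexHull]
    exact (Set.toFinite _).isBounded
  have hcomp : ∀ i, IsClosed (convexHull ℝ ({p i, q i, r i} : Set E3)) := by
    intro i
    exact ((Set.toFinite ({p i, q i, r i} : Set E3)).isCompact_convexHull ℝ).isClosed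
  have hchoose : ∀ i, ∃ δ : ℝ, 0 < δ ∧
      (μHE[2] (Metric.thickening δ (convexHull ℝ ({p i, q i, r i} : Set E3)) ∩
        {x : E3 | inner ℝ x (u i) = 0})).toReal ≤
      (μHE[2] (convexHull ℝ ({p i, q i, r i} : Set E3))).toReal + η := by
    intro i
    set C := convexHull ℝ ({p i, q i, r i} : Set E3) with hC
    set P := {x : E3 | inner ℝ x (u i) = 0} with hP
    have hPc : IsClosed P := isClosed_eq (by fun_prop) continuous_const
    set μ := (μHE[2] : Measure E3).restrict P with hμ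
    have hfin : ∀ δ : ℝ, μHE[2] (Metric.thickening δ C ∩ P) < ⊤ := by
      intro δ
      apply finite_area_orth (u i) (h1 i)
      · exact ((hbdd i).thickening).subset Set.inter_subset_left
      · intro x hx; exact hx.2
    have happ : ∀ δ : ℝ, μ (Metric.thickening δ C) = μHE[2] (Metric.thickening δ C ∩ P) := by
      intro δ
      rw [hμ, Measure.restrict_apply' hPc.measurableSet]
    have happC : μ C = μHE[2] C := by
      rw [hμ, Measure.restrict_apply' hPc.measurableSet, Set.inter_eq_left.mpr (hplane i)]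
    have ht := tendsto_measure_thickening_of_isClosed (μ := μ) (s := C)
      ⟨1, one_pos, by rw [happ]; exact (hfin 1).ne⟩ (hcomp i)
    have hCfin : μ C < ⊤ := by
      rw [happC]
      exact finite_area_orth (u i) (h1 i) C (hbdd i) (hplane i)
    have hlt : μ C < μ C + ENNReal.ofReal η :=
      ENNReal.lt_add_right hCfin.ne (by simpa using hηpos)
    have hev := ht.eventually (gt_mem_nhds hlt)
    have hev2 := hev.and self_mem_nhdsWithin
    obtain ⟨δ, hδ1, hδ2⟩ := hev2.exists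
    refine ⟨δ, hδ2, ?_⟩
    rw [← happ δ, ← happC]
    have := ENNReal.toReal_mono (ENNReal.add_lt_top.mpr ⟨hCfin, ENNReal.ofReal_lt_top⟩).ne hδ1.le
    rwa [ENNReal.toReal_add hCfin.ne ENNReal.ofReal_ne_top, ENNReal.toReal_ofReal hηpos.le] at this
  choose δ hδ hδη using hchoose
  let e := (Fintype.equivFin ι).symm
  refine ⟨Fintype.card ι, fun k => u (e k), fun k => Metric.thickening (δ (e k))
    (convexHull ℝ ({p (e k), q (e k), r (e k)} : Set E3)) ∩ {x : E3 | inner ℝ x (u (e k)) = 0},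
    fun k => h1 _, ?_, ?_, ?_⟩
  · intro k
    refine ⟨((hbdd _).thickening).subset Set.inter_subset_left, _, Metric.isOpen_thickening, rfl⟩
  · intro x hx
    obtain ⟨i, b, hb, t, hxe⟩ := Set.mem_iUnion.mp (h3 hx)
    refine Set.mem_iUnion.mpr ⟨e.symm i, b, ?_, t, ?_⟩
    · simp only [Equiv.apply_symm_apply]
      exact ⟨Metric.self_subset_thickening (hδ i) _ hb, hplane i hb⟩
    · simp only [Equiv.apply_symm_apply]
      exact hxe
  · rw [Equiv.sum_comp e (fun i => (μHE[2] (Metric.thickening (δ i)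
      (convexHull ℝ ({p i, q i, r i} : Set E3)) ∩ {x : E3 | inner ℝ x (u i) = 0})).toReal)]
    refine le_trans (Finset.sum_le_sum (fun i _ => hδη i)) ?_
    rw [Finset.sum_add_distrib, h4, Finset.sum_const, Finset.card_univ, nsmul_eq_mul, hη]
    have : (Fintype.card ι : ℝ) * ((B - A) / (Fintype.card ι + 1)) ≤ B - A := by
      rw [mul_div_assoc', div_le_iff₀ (by positivity)]
      nlinarith
    linarith

end Crest.Agent.H16
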