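import Mathlib
import Crest.Prelude.Def_FinProb

/-!
Biased Fourier-Walsh analysis on the finite cube `ι → Bool`.
-/

set_option autoImplicit false
set_option linter.unusedSectionVars false

open Finset

namespace Crest.Agent.H16.Sharp

variable {ι : Type*} [Fintype ι] [DecidableEq ι]

/-- one-coordinate weight -/
noncomputable def mu (p : ℝ) (b : Bool) : ℝ := if b then p else 1 - p

/-- normalised coordinate function -/
noncomputable def phi (p : ℝ) (b : Bool) : ℝ :=
  (if b then 1 - p else -p) / Real.sqrt (p * (1 - p))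

/-- product weight -/
noncomputable def wt (p : ℝ) (x : ι → Bool) : ℝ := ∏ i, mu p (x i)

/-- expectation -/
noncomputable def ex (p : ℝ) (g : (ι → Bool) → ℝ) : ℝ := ∑ x, wt p x * g x

/-- Walsh function -/
noncomputable def chi (p : ℝ) (S : Finset ι) (x : ι → Bool) : ℝ := ∏ i ∈ S, phi p (x i)

/-- Fourier coefficient -/
noncomputable def hat (p : ℝ) (g : (ι → Bool) → ℝ) (S : Finset ι) : ℝ :=
  ex p (fun x => g x * chi p S x)

theorem wt_eq (p : ℝ) (x : ι → Bool) : wt p x = Crest.FinProb.bernoulliWeight p x := rfl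

theorem sum_prod (F : ι → Bool → ℝ) :
    ∑ x : ι → Bool, ∏ i, F i (x i) = ∏ i, (F i true + F i false) := by
  have h := Finset.prod_univ_sum (fun _ : ι => (Finset.univ : Finset Bool)) F
  rw [Fintype.piFinset_univ] at h
  rw [← h]
  simp [Fintype.sum_bool]

section basic
variable {p : ℝ} (hp0 : 0 < p) (hp1 : p < 1)
include hp0 hp1

theorem mu_pos (b : Bool) : 0 < mu p b := by
  cases b <;> simp [mu] <;> linarith

theorem lam_pos : 0 < p * (1 - p) := mul_pos hp0 (by linarith)

theorem wt_pos (x : ι → Bool) : 0 < wt p x := Finset.prod_pos fun i _ => mu_pos hp0 hp1 _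

theorem mu_phi_sum : mu p true * phi p true + mu p false * phi p false = 0 := by
  simp only [mu, phi, if_true, Bool.false_eq_true, if_false]
  ring

theorem mu_phi_sq_sum :
    mu p true * (phi p true * phi p true) + mu p false * (phi p false * phi p false) = 1 := by
  have h := lam_pos hp0 hp1
  have hs : Real.sqrt (p * (1 - p)) * Real.sqrt (p * (1 - p)) = p * (1 - p) :=
    Real.mul_self_sqrt h.le
  have hs0 : Real.sqrt (p * (1 - p)) ≠ 0 := (Real.sqrt_pos.2 h).ne'
  simp only [mu, phi, if_true, Bool.false_eq_true, if_false]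
  have h1 : (1 - p) ≠ 0 := by linarith
  have h2 : p ≠ 0 := hp0.ne'
  rw [div_mul_div_comm, div_mul_div_comm, hs]
  field_simp
  ring

theorem one_add_phi_mul (a b : Bool) :
    1 + phi p a * phi p b = if a = b then 1 / mu p a else 0 := by
  have h := lam_pos hp0 hp1
  have hs : Real.sqrt (p * (1 - p)) * Real.sqrt (p * (1 - p)) = p * (1 - p) :=
    Real.mul_self_sqrt h.le
  have h1 : (1 - p) ≠ 0 := by linarith
  cases a <;> cases b <;>
    simp only [mu, phi, if_true, Bool.false_eq_true, if_false, Bool.true_eq_false] <;>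
    rw [div_mul_div_comm, hs] <;> field_simp <;> ring

omit hp0 hp1 in
theorem wt_chi_chi (S T : Finset ι) (x : ι → Bool) :
    wt p x * (chi p S x * chi p T x) =
      ∏ i, mu p (x i) * ((if i ∈ S then phi p (x i) else 1) * (if i ∈ T then phi p (x i) else 1)) := by
  unfold wt chi
  rw [Finset.prod_mul_distrib, Finset.prod_mul_distrib]
  congr 2
  · rw [Finset.prod_ite_mem]; simp
  · rw [Finset.prod_ite_mem]; simp

theorem ex_chi_chi (S T : Finset ι) :
    ex p (fun x => chi p S x * chi p T x) = if S = T then 1 else 0 := by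
  unfold ex
  simp_rw [wt_chi_chi]
  rw [sum_prod (fun i b => mu p b * ((if i ∈ S then phi p b else 1) * (if i ∈ T then phi p b else 1)))]
  split_ifs with h
  · subst h
    apply Finset.prod_eq_one
    intro i _
    by_cases hi : i ∈ S
    · simp only [hi, if_true]; exact mu_phi_sq_sum hp0 hp1
    · simp only [hi, if_false]; simp [mu]
  · have : ∃ i, ¬ (i ∈ S ↔ i ∈ T) := by
      by_contra hcon
      push Not at hcon
      exact h (Finset.ext hcon)
    obtain ⟨i, hi⟩ := this
    apply Finset.prod_eq_zero (Finset.mem_univ i)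
    by_cases hS : i ∈ S
    · have hT : i ∉ T := fun hT => hi ⟨fun _ => hT, fun _ => hS⟩
      simp only [hS, hT, if_true, if_false, mul_one]
      exact mu_phi_sum hp0 hp1
    · have hT : i ∈ T := by
        by_contra hT
        exact hi ⟨fun h => absurd h hS, fun h => absurd h hT⟩
      simp only [hS, hT, if_true, if_false, one_mul]
      exact mu_phi_sum hp0 hp1

/-- the kernel of the conditional expectation on the coordinates in `T` -/
theorem sum_chi_mul_chi (T : Finset ι) (x y : ι → Bool) :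
    ∑ S ∈ T.powerset, chi p S x * chi p S y = ∏ i ∈ T, (if x i = y i then 1 / mu p (x i) else 0) := by
  have : ∏ i ∈ T, (1 + phi p (x i) * phi p (y i)) = ∑ S ∈ T.powerset, ∏ i ∈ S, (phi p (x i) * phi p (y i)) :=
    Finset.prod_one_add _
  rw [← Finset.prod_congr rfl (fun i _ => one_add_phi_mul hp0 hp1 (x i) (y i)), this]
  apply Finset.sum_congr rfl
  intro S _
  rw [Finset.prod_mul_distrib]
  rfl

/-- Fourier expansion -/
theorem expansion (g : (ι → Bool) → ℝ) (x : ι → Bool) :
    ∑ S : Finset ι, hat p g S * chi p S x = g x := by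
  unfold hat ex
  simp_rw [Finset.sum_mul]
  rw [Finset.sum_comm]
  have h1 : ∀ y : ι → Bool, ∑ S : Finset ι, wt p y * (g y * chi p S y) * chi p S x
      = wt p y * g y * ∏ i, (if y i = x i then 1 / mu p (y i) else 0) := by
    intro y
    rw [← sum_chi_mul_chi hp0 hp1 Finset.univ y x, Finset.mul_sum, Finset.powerset_univ]
    apply Finset.sum_congr rfl
    intro S _
    ring
  simp_rw [h1]
  rw [Finset.sum_eq_single x]
  · have : ∏ i, (if x i = x i then 1 / mu p (x i) else 0) = 1 / wt p x := by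
      simp only [if_true, wt, one_div, Finset.prod_inv_distrib]
    rw [this]
    have := (wt_pos hp0 hp1 x).ne'
    field_simp
  · intro y _ hy
    have : ∃ i, y i ≠ x i := Function.ne_iff.1 hy
    obtain ⟨i, hi⟩ := this
    rw [Finset.prod_eq_zero (Finset.mem_univ i) (by simp [hi]), mul_zero]
  · intro h; exact absurd (Finset.mem_univ _) h

end basic

section linear
variable (p : ℝ)

theorem ex_add (g h : (ι → Bool) → ℝ) : ex p (fun x => g x + h x) = ex p g + ex p h := by
  simp [ex, mul_add, Finset.sum_add_distrib]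

theorem ex_sub (g h : (ι → Bool) → ℝ) : ex p (fun x => g x - h x) = ex p g - ex p h := by
  simp [ex, mul_sub, Finset.sum_sub_distrib]

theorem ex_smul (c : ℝ) (g : (ι → Bool) → ℝ) : ex p (fun x => c * g x) = c * ex p g := by
  simp only [ex, Finset.mul_sum]
  exact Finset.sum_congr rfl fun x _ => by ring

theorem ex_sum {κ : Type*} (s : Finset κ) (g : κ → (ι → Bool) → ℝ) :
    ex p (fun x => ∑ k ∈ s, g k x) = ∑ k ∈ s, ex p (g k) := by
  simp only [ex, Finset.mul_sum]
  exact Finset.sum_comm

end linear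

section basic2
variable {p : ℝ} (hp0 : 0 < p) (hp1 : p < 1)
include hp0 hp1

theorem ex_mono {g h : (ι → Bool) → ℝ} (H : ∀ x, g x ≤ h x) : ex p g ≤ ex p h :=
  Finset.sum_le_sum fun x _ => mul_le_mul_of_nonneg_left (H x) (wt_pos hp0 hp1 x).le

theorem ex_nonneg {g : (ι → Bool) → ℝ} (H : ∀ x, 0 ≤ g x) : 0 ≤ ex p g :=
  Finset.sum_nonneg fun x _ => mul_nonneg (wt_pos hp0 hp1 x).le (H x)

/-- Coefficients of an explicit combination. -/
theorem hat_sum_chi (c : Finset ι → ℝ) (T : Finset ι) :
    hat p (fun x => ∑ S : Finset ι, c S * chi p S x) T = c T := by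
  unfold hat
  have : (fun x : ι → Bool => (∑ S : Finset ι, c S * chi p S x) * chi p T x)
      = fun x => ∑ S : Finset ι, c S * (chi p S x * chi p T x) := by
    funext x; rw [Finset.sum_mul]; exact Finset.sum_congr rfl fun S _ => by ring
  rw [this, ex_sum]
  simp_rw [ex_smul, ex_chi_chi hp0 hp1]
  simp

/-- Parseval / Plancherel. -/
theorem plancherel (g h : (ι → Bool) → ℝ) :
    ex p (fun x => g x * h x) = ∑ S : Finset ι, hat p g S * hat p h S := by
  have : (fun x : ι → Bool => g x * h x) = fun x => ∑ S : Finset ι, hat p g S * (h x * chi p S x) := by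
    funext x
    conv_lhs => rw [← expansion hp0 hp1 g x]
    rw [Finset.sum_mul]; exact Finset.sum_congr rfl fun S _ => by ring
  rw [this, ex_sum]
  simp_rw [ex_smul]
  rfl

theorem parseval (g : (ι → Bool) → ℝ) :
    ex p (fun x => g x ^ 2) = ∑ S : Finset ι, hat p g S ^ 2 := by
  simp_rw [pow_two]; exact plancherel hp0 hp1 g g

omit hp0 hp1 in
theorem chi_empty (x : ι → Bool) : chi p (∅ : Finset ι) x = 1 := by simp [chi]

omit hp0 hp1 in
theorem hat_empty (g : (ι → Bool) → ℝ) : hat p g ∅ = ex p g := by simp [hat, chi_empty]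

theorem ex_one : ex p (fun _ : ι → Bool => (1 : ℝ)) = 1 := by
  have := ex_chi_chi (ι := ι) hp0 hp1 ∅ ∅
  simpa [chi_empty] using this

theorem ex_const (c : ℝ) : ex p (fun _ : ι → Bool => c) = c := by
  have := ex_smul (ι := ι) p c (fun _ => (1:ℝ))
  simpa [ex_one hp0 hp1] using this

end basic2

/-- projection to the functions of the coordinates in `T` (conditional expectation) -/
noncomputable def cond (p : ℝ) (T : Finset ι) (g : (ι → Bool) → ℝ) (x : ι → Bool) : ℝ :=
  ∑ S : Finset ι, (if S ⊆ T then hat p g S else 0) * chi p S x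

/-- the kernel -/
noncomputable def ker (p : ℝ) (T : Finset ι) (x y : ι → Bool) : ℝ :=
  ∏ i ∈ T, (if x i = y i then 1 / mu p (x i) else 0)

section cond
variable {p : ℝ} (hp0 : 0 < p) (hp1 : p < 1)
include hp0 hp1

theorem ker_nonneg (T : Finset ι) (x y : ι → Bool) : 0 ≤ ker p T x y := by
  unfold ker
  apply Finset.prod_nonneg
  intro i _
  split_ifs
  · exact one_div_nonneg.2 (mu_pos hp0 hp1 _).le
  · exact le_rfl

theorem cond_eq_ker (T : Finset ι) (g : (ι → Bool) → ℝ) (x : ι → Bool) :
    cond p T g x = ex p (fun y => ker p T x y * g y) := by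
  unfold cond ker
  simp_rw [← sum_chi_mul_chi hp0 hp1 T x]
  have h1 : ∀ y : ι → Bool, (∑ S ∈ T.powerset, chi p S x * chi p S y) * g y
      = ∑ S ∈ T.powerset, chi p S x * (g y * chi p S y) := by
    intro y; rw [Finset.sum_mul]; exact Finset.sum_congr rfl fun S _ => by ring
  simp_rw [h1]
  rw [ex_sum]
  simp_rw [ex_smul]
  have h2 : ∀ S : Finset ι, (if S ⊆ T then hat p g S else 0) * chi p S x
      = if S ∈ T.powerset then chi p S x * hat p g S else 0 := by
    intro S
    by_cases h : S ⊆ T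
    · simp [h, mul_comm]
    · simp [h]
  simp_rw [h2]
  rw [Finset.sum_ite_mem]
  simp [hat]

theorem hat_cond (T : Finset ι) (g : (ι → Bool) → ℝ) (S : Finset ι) :
    hat p (cond p T g) S = if S ⊆ T then hat p g S else 0 :=
  hat_sum_chi hp0 hp1 _ S

theorem ex_cond (T : Finset ι) (g : (ι → Bool) → ℝ) : ex p (cond p T g) = ex p g := by
  rw [← hat_empty, hat_cond hp0 hp1, if_pos (Finset.empty_subset _), hat_empty]

theorem cond_mono (T : Finset ι) {g h : (ι → Bool) → ℝ} (H : ∀ x, g x ≤ h x) (x : ι → Bool) :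
    cond p T g x ≤ cond p T h x := by
  rw [cond_eq_ker hp0 hp1, cond_eq_ker hp0 hp1]
  exact ex_mono hp0 hp1 fun y => mul_le_mul_of_nonneg_left (H y) (ker_nonneg hp0 hp1 T x y)

theorem hat_one (S : Finset ι) : hat p (fun _ : ι → Bool => (1:ℝ)) S = if S = ∅ then 1 else 0 := by
  have := ex_chi_chi (ι := ι) hp0 hp1 ∅ S
  simp only [chi_empty] at this
  unfold hat
  rw [this]
  by_cases h : S = ∅
  · simp [h]
  · simp [h, Ne.symm h]

theorem cond_one (T : Finset ι) (x : ι → Bool) : cond p T (fun _ => (1:ℝ)) x = 1 := by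
  unfold cond
  rw [Finset.sum_eq_single ∅]
  · rw [hat_one hp0 hp1]; simp [chi_empty]
  · intro S _ hS
    rw [hat_one hp0 hp1]; simp [hS]
  · intro h; exact absurd (Finset.mem_univ _) h

omit hp0 hp1 in
theorem hat_smul (c : ℝ) (g : (ι → Bool) → ℝ) (S : Finset ι) :
    hat p (fun x => c * g x) S = c * hat p g S := by
  unfold hat
  rw [← ex_smul]
  congr 1; funext x; ring

omit hp0 hp1 in
theorem hat_sub (g h : (ι → Bool) → ℝ) (S : Finset ι) :
    hat p (fun x => g x - h x) S = hat p g S - hat p h S := by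
  unfold hat
  rw [← ex_sub]
  congr 1; funext x; ring

theorem cond_nonneg (T : Finset ι) {g : (ι → Bool) → ℝ} (H : ∀ x, 0 ≤ g x) (x : ι → Bool) :
    0 ≤ cond p T g x := by
  rw [cond_eq_ker hp0 hp1]
  exact ex_nonneg hp0 hp1 fun y => mul_nonneg (ker_nonneg hp0 hp1 T x y) (H y)

theorem abs_cond_le (T : Finset ι) (g : (ι → Bool) → ℝ) (x : ι → Bool) :
    |cond p T g x| ≤ cond p T (fun y => |g y|) x := by
  rw [cond_eq_ker hp0 hp1, cond_eq_ker hp0 hp1]
  unfold ex
  refine (Finset.abs_sum_le_sum_abs _ _).trans (le_of_eq ?_)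
  apply Finset.sum_congr rfl
  intro y _
  rw [abs_mul, abs_mul, abs_of_pos (wt_pos hp0 hp1 y), abs_of_nonneg (ker_nonneg hp0 hp1 T x y)]

/-- `L¹` contraction -/
theorem ex_abs_cond_le (T : Finset ι) (g : (ι → Bool) → ℝ) :
    ex p (fun x => |cond p T g x|) ≤ ex p (fun x => |g x|) := by
  calc ex p (fun x => |cond p T g x|) ≤ ex p (cond p T (fun y => |g y|)) :=
        ex_mono hp0 hp1 (abs_cond_le hp0 hp1 T g)
    _ = _ := ex_cond hp0 hp1 T _

theorem ext_hat {g h : (ι → Bool) → ℝ} (H : ∀ S, hat p g S = hat p h S) : g = h := by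
  funext x
  rw [← expansion hp0 hp1 g x, ← expansion hp0 hp1 h x]
  exact Finset.sum_congr rfl fun S _ => by rw [H]

end cond

end Crest.Agent.H16.Sharp
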