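import Mathlib
import Crest.Agent.H16.Sharp1

/-!
A logarithmic Sobolev inequality on the biased cube, and its `L¹`-`L²` consequence.
-/

set_option autoImplicit false
set_option linter.unusedSectionVars false

open Finset

namespace Crest.Agent.H16.Sharp

/-- Two-point inequality, ordered case. -/
theorem two_point_aux {p a b κ : ℝ} (hp0 : 0 < p) (hp1 : p < 1) (hκ0 : 0 < κ)
    (hκ : 1 ≤ κ ^ 2 * p) (hb : 0 ≤ b) (hab : b ≤ a) :
    p * (a ^ 2 * Real.log (a ^ 2)) + (1 - p) * (b ^ 2 * Real.log (b ^ 2))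
      - (p * a ^ 2 + (1 - p) * b ^ 2) * Real.log (p * a ^ 2 + (1 - p) * b ^ 2)
      ≤ 10 * κ * (p * (1 - p)) * (a - b) ^ 2 := by
  have hq : 0 < 1 - p := by linarith
  rcases eq_or_lt_of_le (hb.trans hab) with ha | ha
  · have hb0 : b = 0 := le_antisymm (by linarith) hb
    subst hb0; rw [← ha]; simp
  set N : ℝ := p * a ^ 2 + (1 - p) * b ^ 2 with hN
  have hN0 : 0 < N := by positivity
  set s : ℝ := Real.sqrt N with hs
  have hs0 : 0 < s := Real.sqrt_pos.2 hN0
  have hs2 : s ^ 2 = N := Real.sq_sqrt hN0.le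
  have hbs : b ≤ s := by
    apply Real.le_sqrt_of_sq_le
    rw [hN]; nlinarith [mul_nonneg hp0.le (sub_nonneg.2 (pow_le_pow_left₀ hb hab 2))]
  have hpa : p * a ^ 2 ≤ s ^ 2 := by
    rw [hs2, hN]; nlinarith [mul_nonneg hq.le (sq_nonneg b)]
  have haκ : a ≤ κ * s := by
    have h1 : a ^ 2 ≤ (κ * s) ^ 2 := by
      rw [mul_pow]
      calc a ^ 2 ≤ (κ ^ 2 * p) * a ^ 2 := by nlinarith [sq_nonneg a]
        _ = κ ^ 2 * (p * a ^ 2) := by ring
        _ ≤ κ ^ 2 * s ^ 2 := mul_le_mul_of_nonneg_left hpa (by positivity)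
    exact (pow_le_pow_iff_left₀ ha.le (by positivity) two_ne_zero).1 h1
  -- logarithm bounds
  have hla : a ^ 2 * Real.log (a ^ 2) - a ^ 2 * Real.log N ≤ a ^ 2 * (2 * (a / s - 1)) := by
    have : Real.log (a ^ 2) - Real.log N = 2 * Real.log (a / s) := by
      rw [← hs2, Real.log_pow, Real.log_pow, Real.log_div ha.ne' hs0.ne']; push_cast; ring
    rw [← mul_sub, this]
    apply mul_le_mul_of_nonneg_left _ (by positivity)
    have := Real.log_le_sub_one_of_pos (div_pos ha hs0)
    linarith
  have hlb : b ^ 2 * Real.log (b ^ 2) - b ^ 2 * Real.log N ≤ b ^ 2 * (b ^ 2 / N - 1) := by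
    rcases eq_or_lt_of_le hb with hb0 | hb0
    · rw [← hb0]; simp
    · rw [← mul_sub, ← Real.log_div (by positivity) hN0.ne']
      apply mul_le_mul_of_nonneg_left _ (by positivity)
      exact Real.log_le_sub_one_of_pos (by positivity)
  have hmain : p * (a ^ 2 * (2 * (a / s - 1))) + (1 - p) * (b ^ 2 * (b ^ 2 / N - 1))
      ≤ 10 * κ * (p * (1 - p)) * (a - b) ^ 2 := by
    -- rewrite both fractions
    have hD : 0 ≤ a - b := by linarith
    have has : 0 < a + s := by linarith
    have e1 : a / s - 1 = (1 - p) * ((a - b) * (a + b)) / (s * (a + s)) := by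
      rw [div_sub_one hs0.ne', div_eq_div_iff hs0.ne' (by positivity)]
      have : (a - s) * (a + s) = (1 - p) * ((a - b) * (a + b)) := by
        have : (a - s) * (a + s) = a ^ 2 - s ^ 2 := by ring
        rw [this, hs2, hN]; ring
      calc (a - s) * (s * (a + s)) = ((a - s) * (a + s)) * s := by ring
        _ = _ := by rw [this]
    have e2 : b ^ 2 / N - 1 = - (p * ((a - b) * (a + b)) / s ^ 2) := by
      rw [← hs2, div_sub_one (by positivity), ← neg_div]
      congr 1
      rw [hs2, hN]; ring
    rw [e1, e2]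
    set Q : ℝ := s * (a + b) + a * b + p * a ^ 2 * (a + b) / (s + b) with hQ
    have hsb : 0 < s + b := by linarith
    have key : (a + b) * Q ≤ 10 * κ * s ^ 2 * (a + s) := by
      have hab2 : a + b ≤ 2 * a := by linarith
      have hab0 : 0 ≤ a + b := by linarith
      have t0 : a ^ 2 * s ≤ κ * (a * s ^ 2) := by
        have := mul_le_mul_of_nonneg_left haκ (by positivity : 0 ≤ a * s)
        nlinarith
      have t1 : (a + b) * (s * (a + b)) ≤ 4 * (a ^ 2 * s) := by
        have : (a + b) * (a + b) ≤ (2 * a) * (2 * a) := mul_le_mul hab2 hab2 hab0 (by linarith)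
        nlinarith
      have t2 : (a + b) * (a * b) ≤ 2 * (a ^ 2 * s) := by
        have h1 : (a + b) * (a * b) ≤ (2 * a) * (a * s) :=
          mul_le_mul hab2 (mul_le_mul_of_nonneg_left hbs ha.le) (by positivity) (by positivity)
        nlinarith
      have t3 : (a + b) * (p * a ^ 2 * (a + b) / (s + b)) ≤ 4 * (a ^ 2 * s) := by
        rw [mul_div_assoc', div_le_iff₀ hsb]
        have h1 : (a + b) * (p * a ^ 2 * (a + b)) ≤ 4 * (a ^ 2 * s ^ 2) := by
          have h2 : (a + b) * (a + b) ≤ 4 * a ^ 2 := by nlinarith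
          calc (a + b) * (p * a ^ 2 * (a + b)) = (p * a ^ 2) * ((a + b) * (a + b)) := by ring
            _ ≤ s ^ 2 * (4 * a ^ 2) := mul_le_mul hpa h2 (by positivity) (by positivity)
            _ = _ := by ring
        have h3 : 4 * (a ^ 2 * s ^ 2) ≤ 4 * (a ^ 2 * s) * (s + b) := by
          have : 0 ≤ a ^ 2 * s * b := by positivity
          nlinarith
        linarith
      calc (a + b) * Q = (a + b) * (s * (a + b)) + (a + b) * (a * b)
            + (a + b) * (p * a ^ 2 * (a + b) / (s + b)) := by rw [hQ]; ring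
        _ ≤ 10 * (κ * (a * s ^ 2)) := by linarith
        _ ≤ 10 * κ * s ^ 2 * (a + s) := by
            have : 0 ≤ κ * s ^ 2 * s := by positivity
            nlinarith
    have e3 : 2 * a ^ 2 * s - b ^ 2 * (a + s) = (a - b) * Q := by
      have h1 : s - b = p * (a - b) * (a + b) / (s + b) := by
        rw [eq_div_iff hsb.ne']
        have : (s - b) * (s + b) = s ^ 2 - b ^ 2 := by ring
        rw [this, hs2, hN]; ring
      have h2 : (a - b) * (p * a ^ 2 * (a + b) / (s + b)) = a ^ 2 * (s - b) := by
        rw [h1]; ring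
      have h3 : (a - b) * (s * (a + b) + a * b + p * a ^ 2 * (a + b) / (s + b))
          = (a - b) * (s * (a + b) + a * b) + (a - b) * (p * a ^ 2 * (a + b) / (s + b)) := by ring
      rw [hQ, h3, h2]; ring
    have e4 : p * (a ^ 2 * (2 * ((1 - p) * ((a - b) * (a + b)) / (s * (a + s)))))
        + (1 - p) * (b ^ 2 * (-(p * ((a - b) * (a + b)) / s ^ 2)))
        = (p * (1 - p)) * (a - b) ^ 2 * (((a + b) * Q) / (s ^ 2 * (a + s))) := by
      have : (a - b) ^ 2 * ((a + b) * Q) = (a - b) * (a + b) * (2 * a ^ 2 * s - b ^ 2 * (a + s)) := by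
        rw [e3]; ring
      have h8 : p * (1 - p) * (a - b) ^ 2 * (((a + b) * Q) / (s ^ 2 * (a + s)))
          = p * (1 - p) * (((a - b) ^ 2 * ((a + b) * Q)) / (s ^ 2 * (a + s))) := by ring
      rw [h8, this]
      field_simp
      ring
    rw [e4]
    have h5 : ((a + b) * Q) / (s ^ 2 * (a + s)) ≤ 10 * κ := by
      rw [div_le_iff₀ (by positivity)]
      calc (a + b) * Q ≤ _ := key
        _ = _ := by ring
    have h6 : 0 ≤ (p * (1 - p)) * (a - b) ^ 2 := by positivity
    calc _ ≤ (p * (1 - p)) * (a - b) ^ 2 * (10 * κ) := mul_le_mul_of_nonneg_left h5 h6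
      _ = _ := by ring
  have h7 := mul_le_mul_of_nonneg_left hla hp0.le
  have h8 := mul_le_mul_of_nonneg_left hlb hq.le
  have h9 : p * (a ^ 2 * Real.log (a ^ 2)) + (1 - p) * (b ^ 2 * Real.log (b ^ 2)) - N * Real.log N
      = p * (a ^ 2 * Real.log (a ^ 2) - a ^ 2 * Real.log N)
        + (1 - p) * (b ^ 2 * Real.log (b ^ 2) - b ^ 2 * Real.log N) := by
    have : N * Real.log N = (p * a ^ 2 + (1 - p) * b ^ 2) * Real.log N := by rw [← hN]
    rw [this]; ring
  rw [h9]
  linarith

/-- Two-point logarithmic Sobolev inequality. -/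
theorem two_point {p a b κ : ℝ} (hp0 : 0 < p) (hp1 : p < 1) (hκ0 : 0 < κ)
    (hκ : 1 ≤ κ ^ 2 * p) (hκ' : 1 ≤ κ ^ 2 * (1 - p)) (ha : 0 ≤ a) (hb : 0 ≤ b) :
    p * (a ^ 2 * Real.log (a ^ 2)) + (1 - p) * (b ^ 2 * Real.log (b ^ 2))
      - (p * a ^ 2 + (1 - p) * b ^ 2) * Real.log (p * a ^ 2 + (1 - p) * b ^ 2)
      ≤ 10 * κ * (p * (1 - p)) * (a - b) ^ 2 := by
  rcases le_total b a with h | h
  · exact two_point_aux hp0 hp1 hκ0 hκ hb h
  · have := two_point_aux (p := 1 - p) (a := b) (b := a) (κ := κ) (by linarith) (by linarith) hκ0 hκ'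
      ha h
    have e1 : (1 - p) * b ^ 2 + (1 - (1 - p)) * a ^ 2 = p * a ^ 2 + (1 - p) * b ^ 2 := by ring
    rw [e1] at this
    have e2 : 10 * κ * ((1 - p) * (1 - (1 - p))) * (b - a) ^ 2
        = 10 * κ * (p * (1 - p)) * (a - b) ^ 2 := by ring
    rw [e2] at this
    have e3 : (1 - p) * (b ^ 2 * Real.log (b ^ 2)) + (1 - (1 - p)) * (a ^ 2 * Real.log (a ^ 2))
        = p * (a ^ 2 * Real.log (a ^ 2)) + (1 - p) * (b ^ 2 * Real.log (b ^ 2)) := by ring
    rw [e3] at this
    exact this

/-- entropy of `h²` -/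
noncomputable def ent {ι : Type*} [Fintype ι] [DecidableEq ι] (p : ℝ) (h : (ι → Bool) → ℝ) : ℝ :=
  ex p (fun x => h x ^ 2 * Real.log (h x ^ 2))
    - ex p (fun x => h x ^ 2) * Real.log (ex p (fun x => h x ^ 2))

/-- Dirichlet form (without the factor `p (1-p)`) -/
noncomputable def dir {ι : Type*} [Fintype ι] [DecidableEq ι] (p : ℝ) (h : (ι → Bool) → ℝ) : ℝ :=
  ∑ i, ex p (fun x => (h (Function.update x i true) - h (Function.update x i false)) ^ 2)

theorem ex_cons (p : ℝ) {n : ℕ} (g : (Fin (n + 1) → Bool) → ℝ) :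
    ex p g = p * ex p (fun y : Fin n → Bool => g (Fin.cons true y))
      + (1 - p) * ex p (fun y : Fin n → Bool => g (Fin.cons false y)) := by
  unfold ex
  rw [← (Fin.consEquiv (fun _ : Fin (n + 1) => Bool)).sum_comp, Fintype.sum_prod_type]
  simp only [Fintype.sum_bool, Finset.mul_sum]
  congr 1 <;>
  · apply Finset.sum_congr rfl
    intro y _
    simp only [Fin.consEquiv, Equiv.coe_fn_mk, wt, Fin.prod_univ_succ, Fin.cons_zero, Fin.cons_succ,
      mu, if_true, Bool.false_eq_true, if_false]
    ring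

/-- Cauchy-Schwarz: difference of the norms. -/
theorem sq_sqrt_sub_le {ι : Type*} [Fintype ι] [DecidableEq ι] {p : ℝ} (hp0 : 0 < p) (hp1 : p < 1)
    (g h : (ι → Bool) → ℝ) :
    (Real.sqrt (ex p (fun x => g x ^ 2)) - Real.sqrt (ex p (fun x => h x ^ 2))) ^ 2
      ≤ ex p (fun x => (g x - h x) ^ 2) := by
  have hg : 0 ≤ ex p (fun x => g x ^ 2) := ex_nonneg hp0 hp1 fun x => sq_nonneg _
  have hh : 0 ≤ ex p (fun x => h x ^ 2) := ex_nonneg hp0 hp1 fun x => sq_nonneg _
  have hcs : ex p (fun x => g x * h x) ≤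
      Real.sqrt (ex p (fun x => g x ^ 2)) * Real.sqrt (ex p (fun x => h x ^ 2)) := by
    rw [← Real.sqrt_mul hg]
    apply Real.le_sqrt_of_sq_le
    have := Finset.sum_mul_sq_le_sq_mul_sq (Finset.univ : Finset (ι → Bool))
      (fun x => Real.sqrt (wt p x) * g x) (fun x => Real.sqrt (wt p x) * h x)
    have hw : ∀ x : ι → Bool, Real.sqrt (wt p x) * Real.sqrt (wt p x) = wt p x :=
      fun x => Real.mul_self_sqrt (wt_pos hp0 hp1 x).le
    have e2 : ∀ (k : (ι → Bool) → ℝ) (x : ι → Bool), (Real.sqrt (wt p x) * k x) ^ 2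
        = wt p x * k x ^ 2 := by
      intro k x; rw [mul_pow, Real.sq_sqrt (wt_pos hp0 hp1 x).le]
    have e1' : ∀ x : ι → Bool, (Real.sqrt (wt p x) * g x) * (Real.sqrt (wt p x) * h x)
        = wt p x * (g x * h x) := by
      intro x
      calc (Real.sqrt (wt p x) * g x) * (Real.sqrt (wt p x) * h x)
          = (Real.sqrt (wt p x) * Real.sqrt (wt p x)) * (g x * h x) := by ring
        _ = _ := by rw [hw x]
    simp_rw [e1', e2] at this
    exact this
  have e : ex p (fun x => (g x - h x) ^ 2) =
      ex p (fun x => g x ^ 2) + ex p (fun x => h x ^ 2) - 2 * ex p (fun x => g x * h x) := by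
    rw [← ex_smul, ← ex_add, ← ex_sub]
    congr 1; funext x; ring
  rw [e]
  have s1 := Real.sq_sqrt hg
  have s2 := Real.sq_sqrt hh
  nlinarith

theorem log_sobolev_fin {p κ : ℝ} (hp0 : 0 < p) (hp1 : p < 1) (hκ0 : 0 < κ)
    (hκ : 1 ≤ κ ^ 2 * p) (hκ' : 1 ≤ κ ^ 2 * (1 - p)) (n : ℕ) :
    ∀ h : (Fin n → Bool) → ℝ, ent p h ≤ 10 * κ * (p * (1 - p)) * dir p h := by
  induction n with
  | zero =>
    intro h
    have hex : ∀ g : (Fin 0 → Bool) → ℝ, ex p g = g default := by
      intro g
      unfold ex wt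
      rw [Fintype.sum_unique]
      simp
      exact congrArg g (Subsingleton.elim _ _)
    simp only [ent, dir, hex, Finset.univ_eq_empty, Finset.sum_empty, mul_zero]
    linarith
  | succ n ih =>
    intro h
    set h1 : (Fin n → Bool) → ℝ := fun y => h (Fin.cons true y) with hh1
    set h0 : (Fin n → Bool) → ℝ := fun y => h (Fin.cons false y) with hh0
    have hm1 : 0 ≤ ex p (fun x => h1 x ^ 2) := ex_nonneg hp0 hp1 fun x => sq_nonneg _
    have hm0 : 0 ≤ ex p (fun x => h0 x ^ 2) := ex_nonneg hp0 hp1 fun x => sq_nonneg _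
    set m1 := ex p (fun x => h1 x ^ 2) with hm1d
    set m0 := ex p (fun x => h0 x ^ 2) with hm0d
    have hent : ent p h = p * ent p h1 + (1 - p) * ent p h0
        + (p * (m1 * Real.log m1) + (1 - p) * (m0 * Real.log m0)
          - (p * m1 + (1 - p) * m0) * Real.log (p * m1 + (1 - p) * m0)) := by
      unfold ent
      rw [ex_cons p (fun x => h x ^ 2 * Real.log (h x ^ 2)), ex_cons p (fun x => h x ^ 2)]
      change p * ex p (fun x => h1 x ^ 2 * Real.log (h1 x ^ 2))
        + (1 - p) * ex p (fun x => h0 x ^ 2 * Real.log (h0 x ^ 2))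
        - (p * m1 + (1 - p) * m0) * Real.log (p * m1 + (1 - p) * m0) = _
      rw [← hm1d, ← hm0d]; ring
    have hdir : dir p h = ex p (fun x => (h1 x - h0 x) ^ 2)
        + (p * dir p h1 + (1 - p) * dir p h0) := by
      unfold dir
      rw [Fin.sum_univ_succ]
      congr 1
      · rw [ex_cons]
        simp only [Fin.update_cons_zero]
        change p * ex p (fun x => (h1 x - h0 x) ^ 2) + (1 - p) * ex p (fun x => (h1 x - h0 x) ^ 2) = _
        ring
      · rw [Finset.mul_sum, Finset.mul_sum, ← Finset.sum_add_distrib]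
        apply Finset.sum_congr rfl
        intro i _
        rw [ex_cons]
        simp only [← Fin.cons_update]
        rfl
    have htp := two_point hp0 hp1 hκ0 hκ hκ' (Real.sqrt_nonneg m1) (Real.sqrt_nonneg m0)
    rw [Real.sq_sqrt hm1, Real.sq_sqrt hm0] at htp
    have hcs := sq_sqrt_sub_le hp0 hp1 h1 h0
    rw [← hm1d, ← hm0d] at hcs
    have i1 := ih h1
    have i0 := ih h0
    have hc : 0 ≤ 10 * κ * (p * (1 - p)) := by
      have := lam_pos hp0 hp1; positivity
    rw [hent, hdir]
    have j1 := mul_le_mul_of_nonneg_left i1 hp0.le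
    have j0 := mul_le_mul_of_nonneg_left i0 (by linarith : 0 ≤ 1 - p)
    have j2 := mul_le_mul_of_nonneg_left hcs hc
    nlinarith

/-- Transport along an equivalence. -/
theorem ex_equiv {ι κ : Type*} [Fintype ι] [DecidableEq ι] [Fintype κ] [DecidableEq κ]
    (p : ℝ) (e : ι ≃ κ) (g : (ι → Bool) → ℝ) :
    ex p g = ex p (fun y : κ → Bool => g (y ∘ e)) := by
  unfold ex
  rw [← (Equiv.arrowCongr e (Equiv.refl Bool)).symm.sum_comp]
  apply Finset.sum_congr rfl
  intro y _
  have : (Equiv.arrowCongr e (Equiv.refl Bool)).symm y = y ∘ e := by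
    funext i; simp
  rw [this]
  congr 1
  unfold wt
  rw [← e.prod_comp]
  rfl

theorem log_sobolev {ι : Type*} [Fintype ι] [DecidableEq ι] {p κ : ℝ} (hp0 : 0 < p) (hp1 : p < 1)
    (hκ0 : 0 < κ) (hκ : 1 ≤ κ ^ 2 * p) (hκ' : 1 ≤ κ ^ 2 * (1 - p)) (h : (ι → Bool) → ℝ) :
    ent p h ≤ 10 * κ * (p * (1 - p)) * dir p h := by
  let e := Fintype.equivFin ι
  have := log_sobolev_fin hp0 hp1 hκ0 hκ hκ' (Fintype.card ι) (fun y => h (y ∘ e))
  have h1 : ent p h = ent p (fun y : Fin (Fintype.card ι) → Bool => h (y ∘ e)) := by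
    unfold ent
    rw [ex_equiv p e, ex_equiv p e (fun x => h x ^ 2)]
  have h2 : dir p h = dir p (fun y : Fin (Fintype.card ι) → Bool => h (y ∘ e)) := by
    unfold dir
    rw [← e.symm.sum_comp]
    apply Finset.sum_congr rfl
    intro i _
    rw [ex_equiv p e]
    congr 1
    funext y
    have hu : ∀ b : Bool, Function.update (y ∘ e) (e.symm i) b = (Function.update y i b) ∘ e := by
      intro b
      funext j
      by_cases hj : j = e.symm i
      · subst hj; simp
      · have : e j ≠ i := fun hcon => hj (by rw [← hcon]; simp)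
        simp [Function.update_of_ne hj, Function.update_of_ne this]
    rw [hu, hu]
  rw [h1, h2]
  exact this

/-- Fourier form of the Dirichlet form. -/
theorem lam_mul_dir {ι : Type*} [Fintype ι] [DecidableEq ι] {p : ℝ} (hp0 : 0 < p) (hp1 : p < 1)
    (h : (ι → Bool) → ℝ) :
    p * (1 - p) * dir p h = ∑ S : Finset ι, (S.card : ℝ) * hat p h S ^ 2 := by
  have hl := lam_pos hp0 hp1
  have hsq0 : Real.sqrt (p * (1 - p)) ≠ 0 := (Real.sqrt_pos.2 hl).ne'
  have hchi : ∀ (i : ι) (S : Finset ι) (x : ι → Bool),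
      chi p S (Function.update x i true) - chi p S (Function.update x i false)
      = if i ∈ S then (1 / Real.sqrt (p * (1 - p))) * chi p (S.erase i) x else 0 := by
    intro i S x
    by_cases hi : i ∈ S
    · rw [if_pos hi]
      have : ∀ b : Bool, chi p S (Function.update x i b) = phi p b * chi p (S.erase i) x := by
        intro b
        unfold chi
        rw [← Finset.mul_prod_erase S _ hi]
        simp only [Function.update_self]
        congr 1
        apply Finset.prod_congr rfl
        intro j hj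
        rw [Function.update_of_ne (Finset.ne_of_mem_erase hj)]
      rw [this, this, ← sub_mul]
      congr 1
      simp only [phi, if_true, Bool.false_eq_true, if_false]
      rw [← sub_div]; congr 1; ring
    · rw [if_neg hi]
      have : ∀ b : Bool, chi p S (Function.update x i b) = chi p S x := by
        intro b
        unfold chi
        apply Finset.prod_congr rfl
        intro j hj
        rw [Function.update_of_ne (fun hcon => hi (by rw [← hcon]; exact hj))]
      rw [this, this, sub_self]
  have hone : ∀ i : ι, p * (1 - p) * ex p (fun x =>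
      (h (Function.update x i true) - h (Function.update x i false)) ^ 2)
      = ∑ S : Finset ι, (if i ∈ S then hat p h S ^ 2 else 0) := by
    intro i
    -- the derivative as an explicit combination
    have hD : (fun x : ι → Bool => h (Function.update x i true) - h (Function.update x i false))
        = fun x => ∑ T : Finset ι, (if i ∈ T then 0 else
            (1 / Real.sqrt (p * (1 - p))) * hat p h (insert i T)) * chi p T x := by
      funext x
      rw [← expansion hp0 hp1 h (Function.update x i true),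
        ← expansion hp0 hp1 h (Function.update x i false), ← Finset.sum_sub_distrib]
      have : ∀ S : Finset ι, hat p h S * chi p S (Function.update x i true)
          - hat p h S * chi p S (Function.update x i false)
          = if i ∈ S then (1 / Real.sqrt (p * (1 - p))) * hat p h S * chi p (S.erase i) x else 0 := by
        intro S
        rw [← mul_sub, hchi]
        split_ifs <;> ring
      simp_rw [this]
      rw [← Finset.sum_filter]
      have e2 : ∀ T : Finset ι, (if i ∈ T then 0 else
            (1 / Real.sqrt (p * (1 - p))) * hat p h (insert i T)) * chi p T x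
          = if i ∉ T then (1 / Real.sqrt (p * (1 - p))) * hat p h (insert i T) * chi p T x else 0 := by
        intro T; split_ifs <;> simp_all
      simp_rw [e2]
      rw [← Finset.sum_filter]
      refine Finset.sum_bij' (fun S _ => S.erase i) (fun T _ => insert i T) ?_ ?_ ?_ ?_ ?_
      · intro S hS
        simp
      · intro T hT
        simp
      · intro S hS
        simp only [Finset.mem_filter, Finset.mem_univ, true_and] at hS
        exact Finset.insert_erase hS
      · intro T hT
        simp only [Finset.mem_filter, Finset.mem_univ, true_and] at hT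
        exact Finset.erase_insert hT
      · intro S hS
        simp only [Finset.mem_filter, Finset.mem_univ, true_and] at hS
        rw [Finset.insert_erase hS]
    have hP := parseval hp0 hp1 (fun x : ι → Bool =>
      h (Function.update x i true) - h (Function.update x i false))
    rw [hP, hD]
    simp_rw [hat_sum_chi hp0 hp1]
    rw [Finset.mul_sum]
    have e3 : ∀ T : Finset ι, p * (1 - p) * (if i ∈ T then 0 else
            (1 / Real.sqrt (p * (1 - p))) * hat p h (insert i T)) ^ 2
          = if i ∉ T then hat p h (insert i T) ^ 2 else 0 := by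
      intro T
      by_cases hT : i ∈ T
      · simp [hT]
      · simp only [hT, if_false, not_false_eq_true, if_true, mul_pow, div_pow, one_pow,
          Real.sq_sqrt hl.le]
        rw [← mul_assoc, mul_one_div_cancel hl.ne', one_mul]
    simp_rw [e3]
    rw [← Finset.sum_filter, ← Finset.sum_filter]
    symm
    refine Finset.sum_bij' (fun S _ => S.erase i) (fun T _ => insert i T) ?_ ?_ ?_ ?_ ?_
    · intro S hS
      simp
    · intro T hT
      simp
    · intro S hS
      simp only [Finset.mem_filter, Finset.mem_univ, true_and] at hS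
      exact Finset.insert_erase hS
    · intro T hT
      simp only [Finset.mem_filter, Finset.mem_univ, true_and] at hT
      exact Finset.erase_insert hT
    · intro S hS
      simp only [Finset.mem_filter, Finset.mem_univ, true_and] at hS
      rw [Finset.insert_erase hS]
  unfold dir
  rw [Finset.mul_sum]
  simp_rw [hone]
  rw [Finset.sum_comm]
  apply Finset.sum_congr rfl
  intro S _
  rw [Finset.sum_ite_mem]
  simp

/-- The `L¹`-`L²` logarithmic inequality. -/
theorem l1_l2 {ι : Type*} [Fintype ι] [DecidableEq ι] {p κ : ℝ} (hp0 : 0 < p) (hp1 : p < 1)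
    (hκ0 : 0 < κ) (hκ : 1 ≤ κ ^ 2 * p) (hκ' : 1 ≤ κ ^ 2 * (1 - p)) (h : (ι → Bool) → ℝ)
    {M1 t : ℝ} (ht : 0 < t) (hM1 : ex p (fun x => |h x|) ≤ M1)
    (hrat : t * M1 ^ 2 ≤ ex p (fun x => h x ^ 2)) :
    ex p (fun x => h x ^ 2) * Real.log t ≤ 10 * κ * ∑ S : Finset ι, (S.card : ℝ) * hat p h S ^ 2 := by
  have hLS := log_sobolev hp0 hp1 hκ0 hκ hκ' h
  rw [mul_assoc, lam_mul_dir hp0 hp1] at hLS
  refine le_trans ?_ hLS
  set M2 := ex p (fun x => h x ^ 2) with hM2
  have hM20 : 0 ≤ M2 := ex_nonneg hp0 hp1 fun x => sq_nonneg _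
  have hm0 : 0 ≤ ex p (fun x => |h x|) := ex_nonneg hp0 hp1 fun x => abs_nonneg _
  set m1 := ex p (fun x => |h x|) with hm1
  rcases eq_or_lt_of_le hM20 with hz | hpos
  · unfold ent
    rw [← hM2, ← hz]
    simp only [zero_mul, sub_zero]
    have hall : ∀ x, h x ^ 2 = 0 := by
      intro x
      have h1 : ∀ x ∈ (Finset.univ : Finset (ι → Bool)), 0 ≤ wt p x * h x ^ 2 :=
        fun x _ => mul_nonneg (wt_pos hp0 hp1 x).le (sq_nonneg _)
      have h2 : ∑ x : ι → Bool, wt p x * h x ^ 2 = 0 := hz.symm
      have h3 := (Finset.sum_eq_zero_iff_of_nonneg h1).1 h2 x (Finset.mem_univ x)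
      rcases mul_eq_zero.1 h3 with h4 | h4
      · exact absurd h4 (wt_pos hp0 hp1 x).ne'
      · exact h4
    simp [hall, ex]
  -- m1 > 0
  have hm1pos : 0 < m1 := by
    rcases eq_or_lt_of_le hm0 with hz | h'
    · exfalso
      have hall : ∀ x, |h x| = 0 := by
        intro x
        have h1 : ∀ x ∈ (Finset.univ : Finset (ι → Bool)), 0 ≤ wt p x * |h x| :=
          fun x _ => mul_nonneg (wt_pos hp0 hp1 x).le (abs_nonneg _)
        have h2 : ∑ x : ι → Bool, wt p x * |h x| = 0 := hz.symm
        have h3 := (Finset.sum_eq_zero_iff_of_nonneg h1).1 h2 x (Finset.mem_univ x)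
        rcases mul_eq_zero.1 h3 with h4 | h4
        · exact absurd h4 (wt_pos hp0 hp1 x).ne'
        · exact h4
      have : M2 = 0 := by
        rw [hM2]; unfold ex
        apply Finset.sum_eq_zero
        intro x _
        simp [abs_eq_zero.1 (hall x)]
      linarith
    · exact h'
  have hent : M2 * Real.log (M2 / m1 ^ 2) ≤ ent p h := by
    -- pointwise inequality
    have hpt : ∀ x, h x ^ 2 - |h x| * (M2 / m1) + h x ^ 2 * Real.log (M2 / m1)
        ≤ h x ^ 2 * Real.log |h x| := by
      intro x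
      rcases eq_or_ne (h x) 0 with h0 | h0
      · simp [h0]
      · have habs : 0 < |h x| := abs_pos.2 h0
        have h1 := Real.one_sub_inv_le_log_of_pos (show 0 < |h x| * (m1 / M2) by positivity)
        have h2 : Real.log (|h x| * (m1 / M2)) = Real.log |h x| - Real.log (M2 / m1) := by
          rw [Real.log_mul habs.ne' (by positivity), Real.log_div hm1pos.ne' hpos.ne',
            Real.log_div hpos.ne' hm1pos.ne']; ring
        rw [h2] at h1
        have h3 := mul_le_mul_of_nonneg_left h1 (sq_nonneg (h x))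
        have h4 : h x ^ 2 * (1 - (|h x| * (m1 / M2))⁻¹) = h x ^ 2 - |h x| * (M2 / m1) := by
          rw [← sq_abs]; field_simp
        rw [h4] at h3
        linarith
    have hsum := ex_mono hp0 hp1 hpt
    have e1 : ex p (fun x => h x ^ 2 - |h x| * (M2 / m1) + h x ^ 2 * Real.log (M2 / m1))
        = M2 * Real.log (M2 / m1) := by
      have : (fun x => h x ^ 2 - |h x| * (M2 / m1) + h x ^ 2 * Real.log (M2 / m1))
          = fun x => ((fun x => h x ^ 2 - (M2 / m1) * |h x|) x
            + (fun x => Real.log (M2 / m1) * h x ^ 2) x) := by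
        funext x; simp only []; ring
      rw [this, ex_add, ex_sub, ex_smul, ex_smul, ← hM2, ← hm1]
      field_simp
      ring
    rw [e1] at hsum
    unfold ent
    have e2 : ex p (fun x => h x ^ 2 * Real.log (h x ^ 2)) = 2 * ex p (fun x => h x ^ 2 * Real.log |h x|) := by
      rw [← ex_smul]
      congr 1; funext x
      rw [← sq_abs, Real.log_pow]; push_cast; ring
    rw [e2, ← hM2, Real.log_div hpos.ne' (by positivity), Real.log_pow]
    rw [Real.log_div hpos.ne' hm1pos.ne'] at hsum
    push_cast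
    nlinarith
  refine le_trans ?_ hent
  apply mul_le_mul_of_nonneg_left _ hM20
  apply Real.log_le_log ht
  rw [le_div_iff₀ (by positivity)]
  refine le_trans ?_ hrat
  apply mul_le_mul_of_nonneg_left _ ht.le
  exact pow_le_pow_left₀ hm0 hM1 2

end Crest.Agent.H16.Sharp
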