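import Mathlib
import Crest.Agent.H16.Sharp2

/-!
The exchangeable-block inequality and the random restriction to the edges touching a vertex set.
-/

set_option autoImplicit false
set_option linter.unusedSectionVars false

open Finset

namespace Crest.Agent.H16.Sharp

variable {ι : Type*} [Fintype ι] [DecidableEq ι]

section
variable {p : ℝ} (hp0 : 0 < p) (hp1 : p < 1)
include hp0 hp1

theorem ex_bool (g : (ι → Bool) → ℝ) (hg : ∀ x, g x = 0 ∨ g x = 1) :
    ex p g = ∑ S : Finset ι, hat p g S ^ 2 := by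
  rw [← parseval hp0 hp1]
  congr 1; funext x
  rcases hg x with h | h <;> simp [h]

theorem l1_bool (g : (ι → Bool) → ℝ) (hg : ∀ x, g x = 0 ∨ g x = 1) (T : Finset ι) :
    ex p (fun x => |g x - cond p T g x|) ≤ 2 * ∑ S : Finset ι, (if S ⊆ T then 0 else hat p g S ^ 2) := by
  have hq0 : ∀ x, 0 ≤ cond p T g x := cond_nonneg hp0 hp1 T (fun x => by rcases hg x with h | h <;> simp [h])
  have hq1 : ∀ x, cond p T g x ≤ 1 := fun x => by
    calc cond p T g x ≤ cond p T (fun _ => (1:ℝ)) x :=
          cond_mono hp0 hp1 T (fun x => by rcases hg x with h | h <;> simp [h]) x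
      _ = 1 := cond_one hp0 hp1 T x
  calc ex p (fun x => |g x - cond p T g x|)
      ≤ ex p (fun x => ((fun x => g x - 2 * (g x * cond p T g x)) x + cond p T g x)) := by
        apply ex_mono hp0 hp1
        intro x
        simp only []
        rcases hg x with h | h
        · rw [h, zero_sub, abs_neg, abs_of_nonneg (hq0 x)]; linarith
        · rw [h, abs_of_nonneg (by linarith [hq1 x])]; linarith
    _ = 2 * ∑ S : Finset ι, (if S ⊆ T then 0 else hat p g S ^ 2) := by
        rw [ex_add, ex_sub, ex_smul, ex_cond hp0 hp1, plancherel hp0 hp1, ex_bool hp0 hp1 g hg]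
        simp_rw [hat_cond hp0 hp1]
        have : ∀ S : Finset ι, (if S ⊆ T then 0 else hat p g S ^ 2)
            = hat p g S ^ 2 - hat p g S * (if S ⊆ T then hat p g S else 0) := by
          intro S; split_ifs <;> ring
        simp_rw [this]
        rw [Finset.sum_sub_distrib]
        ring

theorem var_bool (g : (ι → Bool) → ℝ) (hg : ∀ x, g x = 0 ∨ g x = 1) :
    ∑ S : Finset ι, (if S.Nonempty then hat p g S ^ 2 else 0) = ex p g * (1 - ex p g) := by
  have h1 := ex_bool hp0 hp1 g hg
  have h2 : ∑ S : Finset ι, hat p g S ^ 2 = hat p g ∅ ^ 2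
      + ∑ S : Finset ι, (if S.Nonempty then hat p g S ^ 2 else 0) := by
    have : ∀ S : Finset ι, hat p g S ^ 2 = (if S = ∅ then hat p g S ^ 2 else 0)
        + (if S.Nonempty then hat p g S ^ 2 else 0) := by
      intro S
      rcases S.eq_empty_or_nonempty with h | h
      · simp [h]
      · simp [h, h.ne_empty]
    rw [Finset.sum_congr rfl (fun S _ => this S), Finset.sum_add_distrib]
    simp
  rw [hat_empty] at h2
  linarith

/-- The exchangeable-block inequality. -/
theorem block_ineq {V : Type*} [DecidableEq V] (A : Finset V) (Star Touch : V → Finset ι)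
    (hST : ∀ u ∈ A, Star u ⊆ Touch u)
    (hdisj : ∀ u ∈ A, ∀ v ∈ A, u ≠ v → Disjoint (Star u) (Star v))
    (g : (ι → Bool) → ℝ) (hg : ∀ x, g x = 0 ∨ g x = 1)
    {κ : ℝ} (hκ0 : 0 < κ) (hκ : 1 ≤ κ ^ 2 * p) (hκ' : 1 ≤ κ ^ 2 * (1 - p))
    (hW : ∀ u ∈ A, ∀ v ∈ A,
      ∑ S : Finset ι, (if S.Nonempty ∧ S ⊆ Star u then hat p g S ^ 2 else 0)
        = ∑ S : Finset ι, (if S.Nonempty ∧ S ⊆ Star v then hat p g S ^ 2 else 0))
    (hT : ∀ u ∈ A, ∀ v ∈ A,
      ∑ S : Finset ι, (if Disjoint S (Touch u) then 0 else hat p g S ^ 2)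
        = ∑ S : Finset ι, (if Disjoint S (Touch v) then 0 else hat p g S ^ 2))
    {a : ℝ} (ha : 0 < a) (hm : 1 < a ^ 2 * A.card) :
    ∑ u ∈ A, ∑ S : Finset ι, (if S.Nonempty ∧ S ⊆ Star u then hat p g S ^ 2 else 0)
      ≤ 10 * κ / Real.log (a ^ 2 * A.card) *
          ∑ u ∈ A, ∑ S : Finset ι, (if S.Nonempty ∧ S ⊆ Star u then (S.card : ℝ) * hat p g S ^ 2 else 0)
        + a * ∑ u ∈ A, ∑ S : Finset ι, (if Disjoint S (Touch u) then 0 else hat p g S ^ 2) := by
  rcases A.eq_empty_or_nonempty with hA | hA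
  · subst hA; simp
  obtain ⟨u0, hu0⟩ := hA
  set W0 := ∑ S : Finset ι, (if S.Nonempty ∧ S ⊆ Star u0 then hat p g S ^ 2 else 0) with hW0
  set T0 := ∑ S : Finset ι, (if Disjoint S (Touch u0) then 0 else hat p g S ^ 2) with hT0
  have hWs : ∀ u ∈ A, ∑ S : Finset ι, (if S.Nonempty ∧ S ⊆ Star u then hat p g S ^ 2 else 0) = W0 :=
    fun u hu => hW u hu u0 hu0
  have hTs : ∀ u ∈ A, ∑ S : Finset ι, (if Disjoint S (Touch u) then 0 else hat p g S ^ 2) = T0 :=
    fun u hu => hT u hu u0 hu0
  have hmpos : 0 < (A.card : ℝ) := by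
    have : 0 < A.card := Finset.card_pos.2 ⟨u0, hu0⟩
    exact_mod_cast this
  have hlog : 0 < Real.log (a ^ 2 * A.card) := Real.log_pos hm
  have hT0n : 0 ≤ T0 := Finset.sum_nonneg fun S _ => by split_ifs <;> positivity
  have hEn : 0 ≤ ∑ u ∈ A, ∑ S : Finset ι,
      (if S.Nonempty ∧ S ⊆ Star u then (S.card : ℝ) * hat p g S ^ 2 else 0) :=
    Finset.sum_nonneg fun u _ => Finset.sum_nonneg fun S _ => by split_ifs <;> positivity
  have hsumW : ∑ u ∈ A, ∑ S : Finset ι, (if S.Nonempty ∧ S ⊆ Star u then hat p g S ^ 2 else 0)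
      = A.card * W0 := by
    rw [Finset.sum_congr rfl hWs]; simp
  have hsumT : ∑ u ∈ A, ∑ S : Finset ι, (if Disjoint S (Touch u) then 0 else hat p g S ^ 2)
      = A.card * T0 := by
    rw [Finset.sum_congr rfl hTs]; simp
  have hquarter : (A.card : ℝ) * W0 ≤ 1 / 4 := by
    rw [← hsumW, Finset.sum_comm]
    have h1 : ∀ S : Finset ι, ∑ u ∈ A, (if S.Nonempty ∧ S ⊆ Star u then hat p g S ^ 2 else 0)
        ≤ if S.Nonempty then hat p g S ^ 2 else 0 := by
      intro S
      by_cases hS : S.Nonempty
      · simp only [hS, true_and, if_true]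
        by_cases hex : ∃ u ∈ A, S ⊆ Star u
        · obtain ⟨u, hu, hSu⟩ := hex
          rw [Finset.sum_eq_single_of_mem u hu]
          · simp [hSu]
          · intro v hv hvu
            rw [if_neg]
            intro hSv
            obtain ⟨i, hi⟩ := hS
            exact Finset.disjoint_left.1 (hdisj v hv u hu hvu) (hSv hi) (hSu hi)
        · push Not at hex
          rw [Finset.sum_eq_zero]
          · positivity
          · intro u hu; rw [if_neg (hex u hu)]
      · simp [hS]
    calc ∑ S : Finset ι, ∑ u ∈ A, (if S.Nonempty ∧ S ⊆ Star u then hat p g S ^ 2 else 0)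
        ≤ ∑ S : Finset ι, (if S.Nonempty then hat p g S ^ 2 else 0) := Finset.sum_le_sum fun S _ => h1 S
      _ = ex p g * (1 - ex p g) := var_bool hp0 hp1 g hg
      _ ≤ 1 / 4 := by nlinarith [sq_nonneg (ex p g - 1 / 2)]
  have hpos1 : 0 ≤ 10 * κ / Real.log (a ^ 2 * A.card) *
          ∑ u ∈ A, ∑ S : Finset ι, (if S.Nonempty ∧ S ⊆ Star u then (S.card : ℝ) * hat p g S ^ 2 else 0) :=
    mul_nonneg (div_nonneg (by linarith) hlog.le) hEn
  rw [hsumW, hsumT]
  by_cases hc1 : W0 ≤ a * T0
  · have := mul_le_mul_of_nonneg_left hc1 hmpos.le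
    nlinarith
  by_cases hc2 : 1 / 4 ≤ a * (A.card * T0)
  · linarith
  push Not at hc1 hc2
  -- main case
  have hT0pos : 0 < T0 := by
    rcases eq_or_lt_of_le hT0n with hz | h'
    · exfalso
      -- then the function h_u0 vanishes
      rw [← hz, mul_zero] at hc1
      have : W0 ≤ T0 := by
        rw [hW0, hT0]
        apply Finset.sum_le_sum
        intro S _
        by_cases h : S.Nonempty ∧ S ⊆ Star u0
        · rw [if_pos h, if_neg]
          intro hd
          obtain ⟨i, hi⟩ := h.1
          exact Finset.disjoint_left.1 hd hi (hST u0 hu0 (h.2 hi))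
        · rw [if_neg h]; split_ifs <;> positivity
      linarith
    · exact h'
  have hone : ∀ u ∈ A, W0 * Real.log (a ^ 2 * A.card) ≤ 10 * κ * ∑ S : Finset ι,
      (if S.Nonempty ∧ S ⊆ Star u then (S.card : ℝ) * hat p g S ^ 2 else 0) := by
    intro u hu
    set h : (ι → Bool) → ℝ := fun x => ∑ S : Finset ι,
      (if S.Nonempty ∧ S ⊆ Star u then hat p g S else 0) * chi p S x with hh
    have hhat : ∀ S, hat p h S = if S.Nonempty ∧ S ⊆ Star u then hat p g S else 0 :=
      fun S => hat_sum_chi hp0 hp1 _ S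
    have hh2 : ex p (fun x => h x ^ 2) = W0 := by
      rw [parseval hp0 hp1, ← hWs u hu]
      apply Finset.sum_congr rfl
      intro S _
      rw [hhat]; split_ifs <;> simp
    have hheq : h = cond p (Star u) (fun x => g x - cond p (Touch u)ᶜ g x) := by
      apply ext_hat hp0 hp1
      intro S
      rw [hhat, hat_cond hp0 hp1, hat_sub, hat_cond hp0 hp1]
      by_cases hS : S ⊆ Star u
      · rcases S.eq_empty_or_nonempty with h0 | h0
        · subst h0; simp
        · rw [if_pos ⟨h0, hS⟩, if_pos hS, if_neg, sub_zero]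
          intro hcon
          obtain ⟨i, hi⟩ := h0
          exact (Finset.mem_compl.1 (hcon hi)) (hST u hu (hS hi))
      · rw [if_neg (fun h => hS h.2), if_neg hS]
    have hL1 : ex p (fun x => |h x|) ≤ 2 * T0 := by
      rw [hheq]
      refine (ex_abs_cond_le hp0 hp1 _ _).trans ?_
      refine (l1_bool hp0 hp1 g hg _).trans (le_of_eq ?_)
      rw [← hTs u hu]
      congr 1
      apply Finset.sum_congr rfl
      intro S _
      have : S ⊆ (Touch u)ᶜ ↔ Disjoint S (Touch u) := by
        rw [Finset.subset_compl_iff_disjoint_right]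
      simp [this]
    have hrat : (a ^ 2 * A.card) * (2 * T0) ^ 2 ≤ ex p (fun x => h x ^ 2) := by
      rw [hh2]
      have h1 : a * (A.card * T0) * (4 * T0) ≤ (1 / 4) * (4 * T0) :=
        mul_le_mul_of_nonneg_right hc2.le (by positivity)
      have h2 : a * (a * (A.card * T0) * (4 * T0)) ≤ a * T0 := by
        have := mul_le_mul_of_nonneg_left h1 ha.le
        linarith
      calc (a ^ 2 * A.card) * (2 * T0) ^ 2 = a * (a * (A.card * T0) * (4 * T0)) := by ring
        _ ≤ a * T0 := h2
        _ ≤ W0 := hc1.le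
    have := l1_l2 hp0 hp1 hκ0 hκ hκ' h (M1 := 2 * T0) (by positivity : 0 < a ^ 2 * (A.card : ℝ)) hL1 hrat
    rw [hh2] at this
    refine this.trans (le_of_eq ?_)
    congr 1
    apply Finset.sum_congr rfl
    intro S _
    rw [hhat]; split_ifs <;> simp
  have hsum := Finset.sum_le_sum hone
  rw [Finset.sum_const, ← Finset.mul_sum, nsmul_eq_mul] at hsum
  have h3 : (A.card : ℝ) * W0 ≤ 10 * κ / Real.log (a ^ 2 * A.card) *
          ∑ u ∈ A, ∑ S : Finset ι, (if S.Nonempty ∧ S ⊆ Star u then (S.card : ℝ) * hat p g S ^ 2 else 0) := by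
    rw [div_mul_eq_mul_div, le_div_iff₀ hlog]
    linarith
  have : 0 ≤ a * (A.card * T0) := mul_nonneg ha.le (mul_nonneg hmpos.le hT0n)
  linarith

/-- restriction of the coordinates in `B` to the values of `z` -/
noncomputable def res (B : Finset ι) (z : ι → Bool) (g : (ι → Bool) → ℝ) (x : ι → Bool) : ℝ :=
  g (fun i => if i ∈ B then z i else x i)

omit hp0 hp1 in
theorem chi_split (B S : Finset ι) (z x : ι → Bool) :
    chi p S (fun i => if i ∈ B then z i else x i) = chi p (S ∩ B) z * chi p (S \ B) x := by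
  unfold chi
  rw [← Finset.prod_inter_mul_prod_diff S B]
  congr 1
  · apply Finset.prod_congr rfl
    intro i hi
    simp only [if_pos (Finset.mem_inter.1 hi).2]
  · apply Finset.prod_congr rfl
    intro i hi
    simp only [if_neg (Finset.mem_sdiff.1 hi).2]

theorem hat_res (B : Finset ι) (z : ι → Bool) (g : (ι → Bool) → ℝ) (R : Finset ι) :
    hat p (res B z g) R = ∑ S : Finset ι, (if S \ B = R then hat p g S * chi p (S ∩ B) z else 0) := by
  have : res B z g = fun x => ∑ R : Finset ι,
      (∑ S : Finset ι, (if S \ B = R then hat p g S * chi p (S ∩ B) z else 0)) * chi p R x := by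
    funext x
    unfold res
    rw [← expansion hp0 hp1 g]
    simp_rw [chi_split, Finset.sum_mul]
    rw [Finset.sum_comm]
    apply Finset.sum_congr rfl
    intro S _
    rw [Finset.sum_eq_single (S \ B)]
    · simp; ring
    · intro R _ hR
      rw [if_neg (Ne.symm hR), zero_mul]
    · intro h; exact absurd (Finset.mem_univ _) h
  rw [this, hat_sum_chi hp0 hp1]

/-- averaged energy identity for random restrictions -/
theorem ex_res (B : Finset ι) (g : (ι → Bool) → ℝ) (φ : Finset ι → ℝ) :
    ex p (fun z => ∑ R : Finset ι, φ R * hat p (res B z g) R ^ 2)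
      = ∑ S : Finset ι, φ (S \ B) * hat p g S ^ 2 := by
  rw [ex_sum]
  simp_rw [ex_smul]
  have hR : ∀ R : Finset ι, ex p (fun z => hat p (res B z g) R ^ 2)
      = ∑ S : Finset ι, (if S \ B = R then hat p g S ^ 2 else 0) := by
    intro R
    simp_rw [hat_res hp0 hp1, pow_two, Finset.sum_mul_sum]
    rw [ex_sum]
    apply Finset.sum_congr rfl
    intro S _
    rw [ex_sum]
    by_cases hS : S \ B = R
    · simp only [hS, if_true]
      rw [Finset.sum_eq_single S]
      · simp only [hS, if_true]
        have : (fun x : ι → Bool => hat p g S * chi p (S ∩ B) x * (hat p g S * chi p (S ∩ B) x))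
            = fun x => (hat p g S * hat p g S) * (chi p (S ∩ B) x * chi p (S ∩ B) x) := by
          funext x; ring
        rw [this, ex_smul, ex_chi_chi hp0 hp1]; simp
      · intro S' _ hS'
        by_cases h' : S' \ B = R
        · simp only [h', if_true]
          have : (fun x : ι → Bool => hat p g S * chi p (S ∩ B) x * (hat p g S' * chi p (S' ∩ B) x))
              = fun x => (hat p g S * hat p g S') * (chi p (S ∩ B) x * chi p (S' ∩ B) x) := by
            funext x; ring
          rw [this, ex_smul, ex_chi_chi hp0 hp1, if_neg, mul_zero]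
          intro heq
          apply hS'
          rw [← Finset.sdiff_union_inter S' B, ← Finset.sdiff_union_inter S B, heq, hS, h']
        · simp only [h', if_false, mul_zero]
          simp [ex]
      · intro h; exact absurd (Finset.mem_univ _) h
    · simp only [hS, if_false, zero_mul]
      simp [ex]
  simp_rw [hR, Finset.mul_sum]
  rw [Finset.sum_comm]
  apply Finset.sum_congr rfl
  intro S _
  rw [Finset.sum_eq_single (S \ B)]
  · simp
  · intro R _ hR
    rw [if_neg (Ne.symm hR), mul_zero]
  · intro h; exact absurd (Finset.mem_univ _) h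

end

end Crest.Agent.H16.Sharp
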