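import Mathlib
import Crest.Agent.H16.Sharp3

/-!
Vertex random restriction for functions of uniform hypergraphs: the inequality for a fixed
vertex set `A`, and its average over all `A` of a given size.
-/

set_option autoImplicit false
set_option linter.unusedSectionVars false

open Finset

namespace Crest.Agent.H16.Sharp

variable {ι : Type*} [Fintype ι] [DecidableEq ι] {V : Type*} [Fintype V] [DecidableEq V]

/-- slots at a vertex -/
def touch (supp : ι → Finset V) (u : V) : Finset ι := Finset.univ.filter (fun e => u ∈ supp e)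

/-- slots avoiding `A` -/
def inner (supp : ι → Finset V) (A : Finset V) : Finset ι :=
  Finset.univ.filter (fun e => Disjoint (supp e) A)

/-- slots meeting `A` exactly in `u` -/
def star (supp : ι → Finset V) (A : Finset V) (u : V) : Finset ι :=
  Finset.univ.filter (fun e => supp e ∩ A = {u})

/-- vertex support of a set of slots -/
def vs (supp : ι → Finset V) (S : Finset ι) : Finset V := S.biUnion supp

/-- degree of `u` in `S` -/
def deg (supp : ι → Finset V) (S : Finset ι) (u : V) : ℕ := (S.filter (fun e => u ∈ supp e)).card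

/-- invariance under renaming of the vertices -/
def Sym (supp : ι → Finset V) (f : (ι → Bool) → ℝ) : Prop :=
  ∀ σ : Equiv.Perm V, ∃ τ : Equiv.Perm ι,
    (∀ e, supp (τ e) = (supp e).map σ.toEmbedding) ∧ ∀ x : ι → Bool, f (x ∘ τ) = f x

theorem hat_perm (p : ℝ) (g : (ι → Bool) → ℝ) (τ : Equiv.Perm ι) (hg : ∀ x : ι → Bool, g (x ∘ τ) = g x)
    (R : Finset ι) : hat p g (R.map τ.toEmbedding) = hat p g R := by
  unfold hat
  rw [ex_equiv p τ (fun x => g x * chi p R x)]
  congr 1; funext x
  rw [hg]
  congr 1
  unfold chi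
  rw [Finset.prod_map]
  rfl

/-- the permutation of the slots coming from the transposition of two vertices of `A` -/
theorem exists_tau {supp : ι → Finset V} (hinj : Function.Injective supp)
    {f : (ι → Bool) → ℝ} (hsym : Sym supp f) (A : Finset V) {u v : V} (hu : u ∈ A) (hv : v ∈ A)
    (z : ι → Bool) :
    ∃ τ : Equiv.Perm ι, (∀ x, res (inner supp A) z f (x ∘ τ) = res (inner supp A) z f x) ∧
      (∀ e, τ e ∈ star supp A v ↔ e ∈ star supp A u) ∧
      (∀ e, τ e ∈ touch supp v ↔ e ∈ touch supp u) := by
  obtain ⟨τ, hτ, hf⟩ := hsym (Equiv.swap u v)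
  have hA : A.map (Equiv.swap u v).toEmbedding = A := by
    ext w
    simp only [Finset.mem_map_equiv, Equiv.symm_swap]
    by_cases h1 : w = u
    · subst h1; simp [hu, hv]
    by_cases h2 : w = v
    · subst h2; simp [hu, hv]
    rw [Equiv.swap_apply_of_ne_of_ne h1 h2]
  have hint : ∀ e, supp (τ e) ∩ A = (supp e ∩ A).map (Equiv.swap u v).toEmbedding := by
    intro e
    rw [hτ, Finset.map_inter, hA]
  have hinner : ∀ e, τ e ∈ inner supp A ↔ e ∈ inner supp A := by
    intro e
    simp only [inner, Finset.mem_filter, Finset.mem_univ, true_and, Finset.disjoint_iff_inter_eq_empty]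
    rw [hint, Finset.map_eq_empty]
  have hfix : ∀ e, e ∈ inner supp A → τ e = e := by
    intro e he
    apply hinj
    rw [hτ]
    simp only [inner, Finset.mem_filter, Finset.mem_univ, true_and] at he
    ext w
    simp only [Finset.mem_map_equiv, Equiv.symm_swap]
    by_cases h1 : w = u
    · subst h1
      rw [Equiv.swap_apply_left]
      exact ⟨fun h => absurd hv (Finset.disjoint_left.1 he h), fun h => absurd hu (Finset.disjoint_left.1 he h)⟩
    by_cases h2 : w = v
    · subst h2
      rw [Equiv.swap_apply_right]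
      exact ⟨fun h => absurd hu (Finset.disjoint_left.1 he h), fun h => absurd hv (Finset.disjoint_left.1 he h)⟩
    rw [Equiv.swap_apply_of_ne_of_ne h1 h2]
  refine ⟨τ, ?_, ?_, ?_⟩
  · intro x
    unfold res
    rw [← hf (fun i => if i ∈ inner supp A then z i else x i)]
    congr 1
    funext i
    simp only [Function.comp_apply]
    by_cases hi : i ∈ inner supp A
    · rw [if_pos hi, if_pos ((hinner i).2 hi), hfix i hi]
    · rw [if_neg hi, if_neg (fun h => hi ((hinner i).1 h))]
  · intro e
    simp only [star, Finset.mem_filter, Finset.mem_univ, true_and]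
    rw [hint]
    have : ({v} : Finset V) = ({u} : Finset V).map (Equiv.swap u v).toEmbedding := by
      simp
    rw [this]
    exact (Finset.map_injective _).eq_iff
  · intro e
    simp only [touch, Finset.mem_filter, Finset.mem_univ, true_and]
    rw [hτ, Finset.mem_map_equiv, Equiv.symm_swap, Equiv.swap_apply_right]

section
variable {p : ℝ} (hp0 : 0 < p) (hp1 : p < 1)
include hp0 hp1

theorem fixed_ineq {supp : ι → Finset V} (hinj : Function.Injective supp)
    {f : (ι → Bool) → ℝ} (hf : ∀ x, f x = 0 ∨ f x = 1) (hsym : Sym supp f) (A : Finset V)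
    {κ : ℝ} (hκ0 : 0 < κ) (hκ : 1 ≤ κ ^ 2 * p) (hκ' : 1 ≤ κ ^ 2 * (1 - p))
    {a : ℝ} (ha : 0 < a) (hm : 1 < a ^ 2 * A.card) :
    ∑ S : Finset ι, (∑ u ∈ A, if vs supp S ∩ A = {u} then (1:ℝ) else 0) * hat p f S ^ 2
      ≤ 10 * κ / Real.log (a ^ 2 * A.card) *
          ∑ S : Finset ι, (∑ u ∈ A, if vs supp S ∩ A = {u} then (deg supp S u : ℝ) else 0) * hat p f S ^ 2
        + a * ∑ S : Finset ι, (∑ u ∈ A, if u ∈ vs supp S then (1:ℝ) else 0) * hat p f S ^ 2 := by
  set B := inner supp A with hB
  -- the inequality for each z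
  have hz : ∀ z : ι → Bool,
      ∑ R : Finset ι, (∑ u ∈ A, if R.Nonempty ∧ R ⊆ star supp A u then (1:ℝ) else 0) * hat p (res B z f) R ^ 2
      ≤ 10 * κ / Real.log (a ^ 2 * A.card) *
          ∑ R : Finset ι, (∑ u ∈ A, if R.Nonempty ∧ R ⊆ star supp A u then (R.card : ℝ) else 0) * hat p (res B z f) R ^ 2
        + a * ∑ R : Finset ι, (∑ u ∈ A, if Disjoint R (touch supp u) then (0:ℝ) else 1) * hat p (res B z f) R ^ 2 := by
    intro z
    have hg : ∀ x, res B z f x = 0 ∨ res B z f x = 1 := fun x => hf _
    have hsw : ∀ u ∈ A, ∀ v ∈ A, ∃ τ : Equiv.Perm ι,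
        (∀ R, hat p (res B z f) (R.map τ.toEmbedding) = hat p (res B z f) R) ∧
        (∀ R, R.map τ.toEmbedding ⊆ star supp A v ↔ R ⊆ star supp A u) ∧
        (∀ R, Disjoint (R.map τ.toEmbedding) (touch supp v) ↔ Disjoint R (touch supp u)) := by
      intro u hu v hv
      obtain ⟨τ, h1, h2, h3⟩ := exists_tau hinj hsym A hu hv z
      refine ⟨τ, fun R => hat_perm p _ τ h1 R, fun R => ?_, fun R => ?_⟩
      · constructor
        · intro h e he
          exact (h2 e).1 (h (Finset.mem_map_of_mem _ he))
        · intro h e he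
          obtain ⟨e', he', rfl⟩ := Finset.mem_map.1 he
          exact (h2 e').2 (h he')
      · rw [Finset.disjoint_left, Finset.disjoint_left]
        constructor
        · intro h e he hcon
          exact h (Finset.mem_map_of_mem _ he) ((h3 e).2 hcon)
        · intro h e he hcon
          obtain ⟨e', he', rfl⟩ := Finset.mem_map.1 he
          exact h he' ((h3 e').1 hcon)
    have key := block_ineq hp0 hp1 A (star supp A) (touch supp)
      (by
        intro u hu e he
        simp only [star, touch, Finset.mem_filter, Finset.mem_univ, true_and] at he ⊢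
        have : u ∈ supp e ∩ A := by rw [he]; exact Finset.mem_singleton_self u
        exact (Finset.mem_inter.1 this).1)
      (by
        intro u hu v hv huv
        rw [Finset.disjoint_left]
        intro e he he'
        simp only [star, Finset.mem_filter, Finset.mem_univ, true_and] at he he'
        rw [he] at he'
        exact huv (Finset.singleton_injective he'))
      (res B z f) hg hκ0 hκ hκ'
      (by
        intro u hu v hv
        obtain ⟨τ, h1, h2, h3⟩ := hsw u hu v hv
        rw [← (Equiv.finsetCongr τ).sum_comp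
          (fun S => if S.Nonempty ∧ S ⊆ star supp A v then hat p (res B z f) S ^ 2 else 0)]
        apply Finset.sum_congr rfl
        intro S _
        simp only [Equiv.finsetCongr_apply, Finset.map_nonempty, h1, h2])
      (by
        intro u hu v hv
        obtain ⟨τ, h1, h2, h3⟩ := hsw u hu v hv
        rw [← (Equiv.finsetCongr τ).sum_comp
          (fun S => if Disjoint S (touch supp v) then 0 else hat p (res B z f) S ^ 2)]
        apply Finset.sum_congr rfl
        intro S _
        simp only [Equiv.finsetCongr_apply, h1, h3])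
      ha hm
    have e1 : ∀ (c : V → Finset ι → ℝ) (P : V → Finset ι → Prop) [∀ u S, Decidable (P u S)],
        ∑ u ∈ A, ∑ S : Finset ι, (if P u S then c u S * hat p (res B z f) S ^ 2 else 0)
        = ∑ S : Finset ι, (∑ u ∈ A, if P u S then c u S else 0) * hat p (res B z f) S ^ 2 := by
      intro c P _
      rw [Finset.sum_comm]
      apply Finset.sum_congr rfl
      intro S _
      rw [Finset.sum_mul]
      apply Finset.sum_congr rfl
      intro u _
      split_ifs <;> ring
    have t1 := e1 (fun _ _ => 1) (fun u S => S.Nonempty ∧ S ⊆ star supp A u)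
    have t2 := e1 (fun _ S => (S.card : ℝ)) (fun u S => S.Nonempty ∧ S ⊆ star supp A u)
    have t3 : ∑ u ∈ A, ∑ S : Finset ι, (if Disjoint S (touch supp u) then 0 else hat p (res B z f) S ^ 2)
        = ∑ R : Finset ι, (∑ u ∈ A, if Disjoint R (touch supp u) then (0:ℝ) else 1) * hat p (res B z f) R ^ 2 := by
      rw [Finset.sum_comm]
      apply Finset.sum_congr rfl
      intro S _
      rw [Finset.sum_mul]
      apply Finset.sum_congr rfl
      intro u _
      split_ifs <;> ring
    simp only [one_mul] at t1
    rw [t1, t2, t3] at key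
    exact key
  -- average over z
  have hav := ex_mono hp0 hp1 hz
  rw [ex_res hp0 hp1] at hav
  have e2 : ex p (fun z => 10 * κ / Real.log (a ^ 2 * A.card) *
          ∑ R : Finset ι, (∑ u ∈ A, if R.Nonempty ∧ R ⊆ star supp A u then (R.card : ℝ) else 0) * hat p (res B z f) R ^ 2
        + a * ∑ R : Finset ι, (∑ u ∈ A, if Disjoint R (touch supp u) then (0:ℝ) else 1) * hat p (res B z f) R ^ 2)
      = 10 * κ / Real.log (a ^ 2 * A.card) *
          ∑ S : Finset ι, (∑ u ∈ A, if (S \ B).Nonempty ∧ S \ B ⊆ star supp A u then ((S \ B).card : ℝ) else 0) * hat p f S ^ 2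
        + a * ∑ S : Finset ι, (∑ u ∈ A, if Disjoint (S \ B) (touch supp u) then (0:ℝ) else 1) * hat p f S ^ 2 := by
    rw [ex_add p (fun z => 10 * κ / Real.log (a ^ 2 * A.card) *
          ∑ R : Finset ι, (∑ u ∈ A, if R.Nonempty ∧ R ⊆ star supp A u then (R.card : ℝ) else 0) * hat p (res B z f) R ^ 2)
        (fun z => a * ∑ R : Finset ι, (∑ u ∈ A, if Disjoint R (touch supp u) then (0:ℝ) else 1) * hat p (res B z f) R ^ 2),
      ex_smul, ex_smul, ex_res hp0 hp1 B f (fun R => ∑ u ∈ A, if R.Nonempty ∧ R ⊆ star supp A u then (R.card : ℝ) else 0),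
      ex_res hp0 hp1 B f (fun R => ∑ u ∈ A, if Disjoint R (touch supp u) then (0:ℝ) else 1)]
  rw [e2] at hav
  -- identify the conditions
  have hmemB : ∀ e, e ∈ B ↔ Disjoint (supp e) A := by
    intro e; simp [hB, inner]
  have c1 : ∀ (S : Finset ι) (u : V), u ∈ A →
      (((S \ B).Nonempty ∧ S \ B ⊆ star supp A u) ↔ vs supp S ∩ A = {u}) := by
    intro S u hu
    constructor
    · rintro ⟨⟨e, he⟩, hsub⟩
      have hst : ∀ e' ∈ S \ B, supp e' ∩ A = {u} := by
        intro e' he'
        have := hsub he'
        simpa [star] using this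
      ext w
      simp only [Finset.mem_inter, vs, Finset.mem_biUnion, Finset.mem_singleton]
      constructor
      · rintro ⟨⟨e', he', hw⟩, hwA⟩
        have : e' ∈ S \ B := by
          rw [Finset.mem_sdiff, hmemB]
          exact ⟨he', fun hd => Finset.disjoint_left.1 hd hw hwA⟩
        have h2 := hst e' this
        have : w ∈ supp e' ∩ A := Finset.mem_inter.2 ⟨hw, hwA⟩
        rw [h2] at this
        exact Finset.mem_singleton.1 this
      · rintro rfl
        have h2 := hst e he
        have : w ∈ supp e ∩ A := by rw [h2]; exact Finset.mem_singleton_self w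
        exact ⟨⟨e, (Finset.mem_sdiff.1 he).1, (Finset.mem_inter.1 this).1⟩, hu⟩
    · intro h
      have hu' : u ∈ vs supp S ∩ A := by rw [h]; exact Finset.mem_singleton_self u
      rw [Finset.mem_inter, vs, Finset.mem_biUnion] at hu'
      obtain ⟨⟨e, he, hue⟩, huA⟩ := hu'
      refine ⟨⟨e, ?_⟩, ?_⟩
      · rw [Finset.mem_sdiff, hmemB]
        exact ⟨he, fun hd => Finset.disjoint_left.1 hd hue huA⟩
      · intro e' he'
        rw [Finset.mem_sdiff, hmemB] at he'
        simp only [star, Finset.mem_filter, Finset.mem_univ, true_and]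
        have hsub : supp e' ∩ A ⊆ {u} := by
          rw [← h]
          apply Finset.inter_subset_inter_right
          exact Finset.subset_biUnion_of_mem supp he'.1
        have hne : (supp e' ∩ A).Nonempty := Finset.not_disjoint_iff_nonempty_inter.1 he'.2
        exact (Finset.Nonempty.subset_singleton_iff hne).1 hsub
  have c2 : ∀ (S : Finset ι) (u : V), u ∈ A → vs supp S ∩ A = {u} → (S \ B).card = deg supp S u := by
    intro S u hu h
    unfold deg
    congr 1
    ext e
    rw [Finset.mem_sdiff, hmemB, Finset.mem_filter]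
    constructor
    · rintro ⟨he, hd⟩
      refine ⟨he, ?_⟩
      obtain ⟨w, hw⟩ := Finset.not_disjoint_iff_nonempty_inter.1 hd
      have : w ∈ vs supp S ∩ A := by
        rw [Finset.mem_inter] at hw ⊢
        exact ⟨Finset.mem_biUnion.2 ⟨e, he, hw.1⟩, hw.2⟩
      rw [h, Finset.mem_singleton] at this
      rw [← this]; exact (Finset.mem_inter.1 hw).1
    · rintro ⟨he, hue⟩
      exact ⟨he, fun hd => Finset.disjoint_left.1 hd hue hu⟩
  have c3 : ∀ (S : Finset ι) (u : V), u ∈ A → (Disjoint (S \ B) (touch supp u) ↔ u ∉ vs supp S) := by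
    intro S u hu
    rw [Finset.disjoint_left]
    constructor
    · intro h hcon
      rw [vs, Finset.mem_biUnion] at hcon
      obtain ⟨e, he, hue⟩ := hcon
      refine h (a := e) ?_ (by simp [touch, hue])
      rw [Finset.mem_sdiff, hmemB]
      exact ⟨he, fun hd => Finset.disjoint_left.1 hd hue hu⟩
    · intro h e he hcon
      apply h
      rw [vs, Finset.mem_biUnion]
      exact ⟨e, (Finset.mem_sdiff.1 he).1, by simpa [touch] using hcon⟩
  have r1 : ∀ S : Finset ι, (∑ u ∈ A, if (S \ B).Nonempty ∧ S \ B ⊆ star supp A u then (1:ℝ) else 0)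
      = ∑ u ∈ A, if vs supp S ∩ A = {u} then (1:ℝ) else 0 := by
    intro S
    apply Finset.sum_congr rfl
    intro u hu
    simp only [c1 S u hu]
  have r2 : ∀ S : Finset ι, (∑ u ∈ A, if (S \ B).Nonempty ∧ S \ B ⊆ star supp A u then ((S \ B).card : ℝ) else 0)
      = ∑ u ∈ A, if vs supp S ∩ A = {u} then (deg supp S u : ℝ) else 0 := by
    intro S
    apply Finset.sum_congr rfl
    intro u hu
    simp only [c1 S u hu]
    by_cases h : vs supp S ∩ A = {u}
    · rw [if_pos h, if_pos h, c2 S u hu h]
    · rw [if_neg h, if_neg h]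
  have r3 : ∀ S : Finset ι, (∑ u ∈ A, if Disjoint (S \ B) (touch supp u) then (0:ℝ) else 1)
      = ∑ u ∈ A, if u ∈ vs supp S then (1:ℝ) else 0 := by
    intro S
    apply Finset.sum_congr rfl
    intro u hu
    simp only [c3 S u hu]
    by_cases h : u ∈ vs supp S <;> simp [h]
  simp_rw [r1, r2, r3] at hav
  exact hav

end

end Crest.Agent.H16.Sharp
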