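import Mathlib
import Crest.Agent.H16.Sharp4

/-!
Averaging over the vertex set and the final influence inequality.
-/

set_option autoImplicit false
set_option linter.unusedSectionVars false

open Finset

namespace Crest.Agent.H16.Sharp

section counting
variable {V : Type*} [Fintype V] [DecidableEq V]

theorem card_filter_inter (U : Finset V) {u : V} (hu : u ∈ U) (j : ℕ) :
    ((Finset.powersetCard (j + 1) (Finset.univ : Finset V)).filter (fun A => U ∩ A = {u})).card
      = (Fintype.card V - U.card).choose j := by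
  have himg : (Finset.powersetCard (j + 1) (Finset.univ : Finset V)).filter (fun A => U ∩ A = {u})
      = (Finset.powersetCard j Uᶜ).image (insert u) := by
    ext A
    simp only [Finset.mem_filter, Finset.mem_powersetCard, Finset.subset_univ, true_and,
      Finset.mem_image]
    constructor
    · rintro ⟨hc, hA⟩
      have huA : u ∈ A := by
        have : u ∈ U ∩ A := by rw [hA]; exact Finset.mem_singleton_self u
        exact (Finset.mem_inter.1 this).2
      refine ⟨A.erase u, ⟨?_, ?_⟩, Finset.insert_erase huA⟩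
      · intro w hw
        rw [Finset.mem_compl]
        intro hwU
        have : w ∈ U ∩ A := Finset.mem_inter.2 ⟨hwU, Finset.mem_of_mem_erase hw⟩
        rw [hA, Finset.mem_singleton] at this
        exact (Finset.ne_of_mem_erase hw) this
      · rw [Finset.card_erase_of_mem huA, hc]; rfl
    · rintro ⟨B, ⟨hB, hc⟩, rfl⟩
      have huB : u ∉ B := fun h => (Finset.mem_compl.1 (hB h)) hu
      refine ⟨by rw [Finset.card_insert_of_notMem huB, hc], ?_⟩
      ext w
      simp only [Finset.mem_inter, Finset.mem_insert, Finset.mem_singleton]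
      constructor
      · rintro ⟨hwU, rfl | hw⟩
        · rfl
        · exact absurd hwU (Finset.mem_compl.1 (hB hw))
      · rintro rfl; exact ⟨hu, Or.inl rfl⟩
  rw [himg, Finset.card_image_of_injOn, Finset.card_powersetCard, Finset.card_compl]
  intro B hB B' hB' h
  have hB1 : u ∉ B := fun h => (Finset.mem_compl.1 ((Finset.mem_powersetCard.1 hB).1 h)) hu
  have hB2 : u ∉ B' := fun h => (Finset.mem_compl.1 ((Finset.mem_powersetCard.1 hB').1 h)) hu
  have h' : insert u B = insert u B' := h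
  rw [← Finset.erase_insert hB1, h', Finset.erase_insert hB2]

theorem sum_powersetCard_inter (U : Finset V) (c : V → ℝ) (j : ℕ) :
    ∑ A ∈ Finset.powersetCard (j + 1) (Finset.univ : Finset V),
        ∑ u ∈ A, (if U ∩ A = {u} then c u else 0)
      = (∑ u ∈ U, c u) * ((Fintype.card V - U.card).choose j : ℝ) := by
  have h1 : ∀ A : Finset V, ∑ u ∈ A, (if U ∩ A = {u} then c u else 0)
      = ∑ u ∈ U, (if U ∩ A = {u} then c u else 0) := by
    intro A
    have e1 : ∑ u ∈ A, (if U ∩ A = {u} then c u else 0) = ∑ u ∈ U ∩ A, (if U ∩ A = {u} then c u else 0) := by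
      symm
      apply Finset.sum_subset Finset.inter_subset_right
      intro u hu hnu
      rw [if_neg]
      intro h; apply hnu; rw [h]; exact Finset.mem_singleton_self u
    have e2 : ∑ u ∈ U, (if U ∩ A = {u} then c u else 0) = ∑ u ∈ U ∩ A, (if U ∩ A = {u} then c u else 0) := by
      symm
      apply Finset.sum_subset Finset.inter_subset_left
      intro u hu hnu
      rw [if_neg]
      intro h; apply hnu; rw [h]; exact Finset.mem_singleton_self u
    rw [e1, e2]
  simp_rw [h1]
  rw [Finset.sum_comm, Finset.sum_mul]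
  apply Finset.sum_congr rfl
  intro u hu
  rw [← Finset.sum_filter, Finset.sum_const, card_filter_inter U hu, nsmul_eq_mul, mul_comm]

theorem sum_powersetCard_mem (U : Finset V) (j : ℕ) :
    ∑ A ∈ Finset.powersetCard (j + 1) (Finset.univ : Finset V),
        ∑ u ∈ A, (if u ∈ U then (1:ℝ) else 0)
      = (U.card : ℝ) * ((Fintype.card V - 1).choose j : ℝ) := by
  have h1 : ∀ A : Finset V, ∑ u ∈ A, (if u ∈ U then (1:ℝ) else 0)
      = ∑ u ∈ U, (if {u} ∩ A = {u} then (1:ℝ) else 0) := by
    intro A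
    have : ∀ u, (if {u} ∩ A = {u} then (1:ℝ) else 0) = if u ∈ A then (1:ℝ) else 0 := by
      intro u
      have : ({u} ∩ A = {u}) ↔ u ∈ A := by
        rw [Finset.inter_eq_left, Finset.singleton_subset_iff]
      simp only [this]
    simp_rw [this]
    rw [Finset.sum_ite_mem, Finset.sum_ite_mem, Finset.inter_comm]
  simp_rw [h1]
  rw [Finset.sum_comm]
  have h2 : ∀ u ∈ U, ∑ A ∈ Finset.powersetCard (j + 1) (Finset.univ : Finset V),
      (if {u} ∩ A = {u} then (1:ℝ) else 0) = ((Fintype.card V - 1).choose j : ℝ) := by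
    intro u _
    rw [← Finset.sum_filter, Finset.sum_const, card_filter_inter {u} (Finset.mem_singleton_self u),
      nsmul_eq_mul, mul_one, Finset.card_singleton]
  rw [Finset.sum_congr rfl h2]
  simp

end counting

/-- ratio of binomial coefficients -/
noncomputable def rho (n v j : ℕ) : ℝ := ((n - v).choose j : ℝ) / ((n - 1).choose j : ℝ)

theorem rho_nonneg (n v j : ℕ) : 0 ≤ rho n v j := by unfold rho; positivity

theorem rho_le_one {n v j : ℕ} (hv : 1 ≤ v) (hj : j < n) : rho n v j ≤ 1 := by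
  unfold rho
  have h0 : 0 < ((n - 1).choose j : ℝ) := by
    have : 0 < (n - 1).choose j := Nat.choose_pos (by omega)
    exact_mod_cast this
  rw [div_le_one h0]
  exact_mod_cast Nat.choose_le_choose j (by omega)

theorem rho_rec {n v j : ℕ} (hv : 1 ≤ v) (hvn : v ≤ n) (hj : j + 1 < n) :
    ((n:ℝ) - 1 - j) * rho n v (j + 1) = ((n:ℝ) - v - j) * rho n v j := by
  unfold rho
  have h0 : 0 < ((n - 1).choose j : ℝ) := by
    have : 0 < (n - 1).choose j := Nat.choose_pos (by omega)
    exact_mod_cast this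
  have h1 : 0 < ((n - 1).choose (j + 1) : ℝ) := by
    have : 0 < (n - 1).choose (j + 1) := Nat.choose_pos (by omega)
    exact_mod_cast this
  have a1 : ((n - 1).choose (j + 1) : ℝ) * (j + 1) = ((n - 1).choose j : ℝ) * ((n:ℝ) - 1 - j) := by
    have := Nat.choose_succ_right_eq (n - 1) j
    have h2 : (((n - 1).choose (j + 1) * (j + 1) : ℕ) : ℝ) = (((n - 1).choose j * (n - 1 - j) : ℕ) : ℝ) := by
      rw [this]
    push_cast [Nat.cast_sub (show j ≤ n - 1 by omega), Nat.cast_sub (show 1 ≤ n by omega)] at h2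
    linarith
  have a2 : ((n - v).choose (j + 1) : ℝ) * (j + 1) = ((n - v).choose j : ℝ) * ((n:ℝ) - v - j) := by
    by_cases hjv : j ≤ n - v
    · have := Nat.choose_succ_right_eq (n - v) j
      have h2 : (((n - v).choose (j + 1) * (j + 1) : ℕ) : ℝ) = (((n - v).choose j * (n - v - j) : ℕ) : ℝ) := by
        rw [this]
      push_cast [Nat.cast_sub hjv, Nat.cast_sub hvn] at h2
      linarith
    · rw [Nat.choose_eq_zero_of_lt (by omega : n - v < j), Nat.choose_eq_zero_of_lt (by omega : n - v < j + 1)]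
      simp
  rw [mul_div_assoc', mul_div_assoc', div_eq_div_iff h1.ne' h0.ne']
  have hj1 : ((j:ℝ) + 1) ≠ 0 := by positivity
  apply mul_right_cancel₀ hj1
  calc ((n:ℝ) - 1 - j) * ((n - v).choose (j + 1) : ℝ) * ((n - 1).choose j : ℝ) * (j + 1)
      = (((n - v).choose (j + 1) : ℝ) * (j + 1)) * (((n - 1).choose j : ℝ) * ((n:ℝ) - 1 - j)) := by ring
    _ = (((n - v).choose j : ℝ) * ((n:ℝ) - v - j)) * (((n - 1).choose (j + 1) : ℝ) * (j + 1)) := by
        rw [a1, a2]
    _ = _ := by ring

theorem sum_rho_partial {n v : ℕ} (hv : 1 ≤ v) (hvn : v ≤ n) (j : ℕ) (hj : j < n) :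
    ∑ i ∈ Finset.range j, rho n v i = (n:ℝ) / v - (((n:ℝ) - j) / v) * rho n v j := by
  induction j with
  | zero =>
    simp [rho]
  | succ j ih =>
    rw [Finset.sum_range_succ, ih (by omega)]
    have hv0 : (v:ℝ) ≠ 0 := by positivity
    have := rho_rec hv hvn hj
    push_cast
    field_simp
    linarith

theorem sum_rho {n v : ℕ} (hv : 1 ≤ v) (hvn : v ≤ n) :
    ∑ i ∈ Finset.range n, rho n v i = (n:ℝ) / v := by
  obtain ⟨m, rfl⟩ : ∃ m, n = m + 1 := ⟨n - 1, by omega⟩
  rw [Finset.sum_range_succ, sum_rho_partial hv hvn m (by omega)]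
  have hv0 : (v:ℝ) ≠ 0 := by positivity
  have : ((((m + 1 : ℕ) : ℝ) - m) / v) * rho (m + 1) v m = rho (m + 1) v m := by
    rcases eq_or_lt_of_le hv with h | h
    · subst h; push_cast; field_simp; ring
    · have : rho (m + 1) v m = 0 := by
        unfold rho
        rw [Nat.choose_eq_zero_of_lt (by omega)]; simp
      rw [this]; simp
  rw [this]; ring

/-- tail average of `rho` -/
noncomputable def Rr (n j0 v : ℕ) : ℝ := (1 / (n:ℝ)) * ∑ j ∈ Finset.Ico j0 n, rho n v j

theorem Rr_nonneg (n j0 v : ℕ) : 0 ≤ Rr n j0 v := by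
  unfold Rr
  exact mul_nonneg (by positivity) (Finset.sum_nonneg fun j _ => rho_nonneg _ _ _)

theorem Rr_le {n j0 v : ℕ} (hv : 1 ≤ v) (hvn : v ≤ n) : Rr n j0 v ≤ 1 / v := by
  unfold Rr
  have hn : (0:ℝ) < n := by
    have : 0 < n := by omega
    exact_mod_cast this
  have h1 : ∑ j ∈ Finset.Ico j0 n, rho n v j ≤ ∑ i ∈ Finset.range n, rho n v i := by
    apply Finset.sum_le_sum_of_subset_of_nonneg
    · intro j hj
      rw [Finset.mem_Ico] at hj
      rw [Finset.mem_range]; exact hj.2
    · intro i _ _; exact rho_nonneg _ _ _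
  rw [sum_rho hv hvn] at h1
  calc (1 / (n:ℝ)) * ∑ j ∈ Finset.Ico j0 n, rho n v j ≤ (1 / (n:ℝ)) * (n / v) :=
        mul_le_mul_of_nonneg_left h1 (by positivity)
    _ = 1 / v := by field_simp

theorem le_Rr {n j0 v : ℕ} (hv : 1 ≤ v) (hvn : v ≤ n) : 1 / (v:ℝ) - (j0:ℝ) / n ≤ Rr n j0 v := by
  unfold Rr
  have hn : (0:ℝ) < n := by
    have : 0 < n := by omega
    exact_mod_cast this
  by_cases hj : j0 ≤ n
  · have h1 : ∑ j ∈ Finset.Ico j0 n, rho n v j = ∑ i ∈ Finset.range n, rho n v i
        - ∑ i ∈ Finset.range j0, rho n v i := by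
      rw [eq_sub_iff_add_eq, add_comm, Finset.sum_range_add_sum_Ico _ hj]
    have h2 : ∑ i ∈ Finset.range j0, rho n v i ≤ j0 := by
      calc ∑ i ∈ Finset.range j0, rho n v i ≤ ∑ i ∈ Finset.range j0, (1:ℝ) := by
            apply Finset.sum_le_sum
            intro i hi
            exact rho_le_one hv (by rw [Finset.mem_range] at hi; omega)
        _ = j0 := by simp
    rw [h1, sum_rho hv hvn]
    have : (1 / (n:ℝ)) * ((n:ℝ) / v - j0) ≤ (1 / (n:ℝ)) * ((n:ℝ) / v - ∑ i ∈ Finset.range j0, rho n v i) :=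
      mul_le_mul_of_nonneg_left (by linarith) (by positivity)
    refine le_trans (le_of_eq ?_) this
    field_simp
  · push Not at hj
    have h1 : (1:ℝ) / v - (j0:ℝ) / n ≤ 0 := by
      have h2 : (1:ℝ) ≤ (j0:ℝ) / n := by
        rw [le_div_iff₀ hn, one_mul]; exact_mod_cast hj.le
      have h3 : (1:ℝ) / v ≤ 1 := by
        rw [div_le_one (by positivity)]; exact_mod_cast hv
      linarith
    exact h1.trans (mul_nonneg (by positivity) (Finset.sum_nonneg fun j _ => rho_nonneg _ _ _))

variable {ι : Type*} [Fintype ι] [DecidableEq ι] {V : Type*} [Fintype V] [DecidableEq V]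

theorem sum_deg (supp : ι → Finset V) (S : Finset ι) {r : ℕ} (hr : ∀ e, (supp e).card = r) :
    ∑ u ∈ vs supp S, (deg supp S u : ℝ) = r * S.card := by
  have : ∑ u ∈ vs supp S, deg supp S u = r * S.card := by
    unfold deg
    simp_rw [Finset.card_filter]
    rw [Finset.sum_comm]
    have h1 : ∀ e ∈ S, ∑ u ∈ vs supp S, (if u ∈ supp e then 1 else 0) = r := by
      intro e he
      rw [Finset.sum_ite_mem, Finset.sum_const, smul_eq_mul, mul_one]
      have : vs supp S ∩ supp e = supp e := by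
        rw [Finset.inter_eq_right]
        exact Finset.subset_biUnion_of_mem supp he
      rw [this, hr]
    rw [Finset.sum_congr rfl h1]
    simp [mul_comm]
  exact_mod_cast this

section
variable {p : ℝ} (hp0 : 0 < p) (hp1 : p < 1)
include hp0 hp1

/-- The inequality averaged over all vertex sets of size `j + 1`. -/
theorem averaged {supp : ι → Finset V} (hinj : Function.Injective supp) {r : ℕ}
    (hr : ∀ e, (supp e).card = r)
    {f : (ι → Bool) → ℝ} (hf : ∀ x, f x = 0 ∨ f x = 1) (hsym : Sym supp f)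
    {κ : ℝ} (hκ0 : 0 < κ) (hκ : 1 ≤ κ ^ 2 * p) (hκ' : 1 ≤ κ ^ 2 * (1 - p))
    {a l : ℝ} (ha : 0 < a) (hl : 0 < l) (j : ℕ) (hj : j < Fintype.card V)
    (hm : l ≤ Real.log (a ^ 2 * (j + 1))) (hm1 : 1 < a ^ 2 * (j + 1)) :
    ∑ S : Finset ι, ((vs supp S).card : ℝ) * rho (Fintype.card V) (vs supp S).card j * hat p f S ^ 2
      ≤ 10 * κ / l * ∑ S : Finset ι,
          (r * S.card : ℝ) * rho (Fintype.card V) (vs supp S).card j * hat p f S ^ 2
        + a * ∑ S : Finset ι, ((vs supp S).card : ℝ) * hat p f S ^ 2 := by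
  set n := Fintype.card V with hn
  have hC : 0 < ((n - 1).choose j : ℝ) := by
    have : 0 < (n - 1).choose j := Nat.choose_pos (by omega)
    exact_mod_cast this
  have hfix : ∀ A ∈ Finset.powersetCard (j + 1) (Finset.univ : Finset V),
      ∑ S : Finset ι, (∑ u ∈ A, if vs supp S ∩ A = {u} then (1:ℝ) else 0) * hat p f S ^ 2
      ≤ 10 * κ / l *
          ∑ S : Finset ι, (∑ u ∈ A, if vs supp S ∩ A = {u} then (deg supp S u : ℝ) else 0) * hat p f S ^ 2
        + a * ∑ S : Finset ι, (∑ u ∈ A, if u ∈ vs supp S then (1:ℝ) else 0) * hat p f S ^ 2 := by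
    intro A hA
    have hc : (A.card : ℝ) = j + 1 := by
      rw [(Finset.mem_powersetCard.1 hA).2]; push_cast; ring
    have h := fixed_ineq hp0 hp1 hinj hf hsym A hκ0 hκ hκ' ha (by rw [hc]; exact hm1)
    rw [hc] at h
    have hE : 0 ≤ ∑ S : Finset ι, (∑ u ∈ A, if vs supp S ∩ A = {u} then (deg supp S u : ℝ) else 0) * hat p f S ^ 2 :=
      Finset.sum_nonneg fun S _ => mul_nonneg (Finset.sum_nonneg fun u _ => by split_ifs <;> positivity) (sq_nonneg _)
    have h2 : 10 * κ / Real.log (a ^ 2 * (j + 1)) ≤ 10 * κ / l :=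
      div_le_div_of_nonneg_left (by positivity) hl hm
    have := mul_le_mul_of_nonneg_right h2 hE
    linarith
  have hsum := Finset.sum_le_sum hfix
  rw [Finset.sum_add_distrib, ← Finset.mul_sum, ← Finset.mul_sum] at hsum
  have s1 : ∑ A ∈ Finset.powersetCard (j + 1) (Finset.univ : Finset V),
      ∑ S : Finset ι, (∑ u ∈ A, if vs supp S ∩ A = {u} then (1:ℝ) else 0) * hat p f S ^ 2
      = ∑ S : Finset ι, ((vs supp S).card : ℝ) * ((n - (vs supp S).card).choose j : ℝ) * hat p f S ^ 2 := by
    rw [Finset.sum_comm]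
    apply Finset.sum_congr rfl
    intro S _
    rw [← Finset.sum_mul, sum_powersetCard_inter]
    simp [hn]
  have s2 : ∑ A ∈ Finset.powersetCard (j + 1) (Finset.univ : Finset V),
      ∑ S : Finset ι, (∑ u ∈ A, if vs supp S ∩ A = {u} then (deg supp S u : ℝ) else 0) * hat p f S ^ 2
      = ∑ S : Finset ι, (r * S.card : ℝ) * ((n - (vs supp S).card).choose j : ℝ) * hat p f S ^ 2 := by
    rw [Finset.sum_comm]
    apply Finset.sum_congr rfl
    intro S _
    rw [← Finset.sum_mul, sum_powersetCard_inter, sum_deg supp S hr]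
  have s3 : ∑ A ∈ Finset.powersetCard (j + 1) (Finset.univ : Finset V),
      ∑ S : Finset ι, (∑ u ∈ A, if u ∈ vs supp S then (1:ℝ) else 0) * hat p f S ^ 2
      = ((n - 1).choose j : ℝ) * ∑ S : Finset ι, ((vs supp S).card : ℝ) * hat p f S ^ 2 := by
    rw [Finset.sum_comm, Finset.mul_sum]
    apply Finset.sum_congr rfl
    intro S _
    rw [← Finset.sum_mul, sum_powersetCard_mem]
    ring
  rw [s1, s2, s3] at hsum
  have q : ∀ (c : Finset ι → ℝ), ∑ S : Finset ι, c S * rho n (vs supp S).card j * hat p f S ^ 2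
      = (∑ S : Finset ι, c S * ((n - (vs supp S).card).choose j : ℝ) * hat p f S ^ 2) / ((n - 1).choose j : ℝ) := by
    intro c
    rw [Finset.sum_div]
    apply Finset.sum_congr rfl
    intro S _
    unfold rho
    ring
  rw [q, q, div_le_iff₀ hC, add_mul, mul_assoc (10 * κ / l), div_mul_cancel₀ _ hC.ne']
  refine hsum.trans (le_of_eq ?_)
  rw [mul_assoc a, mul_comm (∑ S : Finset ι, ((vs supp S).card : ℝ) * hat p f S ^ 2)]

/-- **Main inequality.** -/
theorem main_ineq {supp : ι → Finset V} (hinj : Function.Injective supp) {r : ℕ} (hr1 : 1 ≤ r)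
    (hr : ∀ e, (supp e).card = r)
    {f : (ι → Bool) → ℝ} (hf : ∀ x, f x = 0 ∨ f x = 1) (hsym : Sym supp f)
    {κ : ℝ} (hκ0 : 0 < κ) (hκ : 1 ≤ κ ^ 2 * p) (hκ' : 1 ≤ κ ^ 2 * (1 - p))
    {a l γ D : ℝ} (ha : 0 < a) (hl : 0 < l) (hγ : γ = 10 * κ / l * r) (j0 : ℕ)
    (hm : l ≤ Real.log (a ^ 2 * (j0 + 1))) (hm1 : 1 < a ^ 2 * (j0 + 1))
    (hD0 : 0 ≤ D) (hD : ∀ v : ℕ, 1 ≤ v → 1 / 2 < γ * (v:ℝ) ^ (r - 1) → γ ≤ D * v) :
    ex p f * (1 - ex p f) ≤
      (6 * D + r * (4 * a + 2 * j0 / Fintype.card V)) * (p * (1 - p) * dir p f) := by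
  obtain ⟨n, hn⟩ : ∃ n, n = Fintype.card V := ⟨_, rfl⟩
  rw [← hn]
  have hγ0 : 0 < γ := by
    rw [hγ]; have : (0:ℝ) < r := by exact_mod_cast hr1
    positivity
  rcases Nat.eq_zero_or_pos n with hn0 | hnpos
  · -- no vertices: no slots
    have hV : IsEmpty V := Fintype.card_eq_zero_iff.1 (hn.symm.trans hn0)
    have hι : IsEmpty ι := ⟨fun e => by
      have h1 := hr e
      have h2 : supp e = ∅ := Finset.eq_empty_of_isEmpty _
      rw [h2] at h1; simp at h1; omega⟩
    have hvar := var_bool hp0 hp1 f hf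
    have h0 : ∑ S : Finset ι, (if S.Nonempty then hat p f S ^ 2 else 0) = 0 := by
      apply Finset.sum_eq_zero
      intro S _
      rw [if_neg]
      rintro ⟨e, _⟩
      exact hι.elim e
    rw [← hvar, h0]
    have hdir : 0 ≤ p * (1 - p) * dir p f := by
      rw [lam_mul_dir hp0 hp1]
      exact Finset.sum_nonneg fun S _ => mul_nonneg (Nat.cast_nonneg _) (sq_nonneg _)
    refine mul_nonneg ?_ hdir
    positivity
  have hnR : (0:ℝ) < n := by exact_mod_cast hnpos
  -- averaged inequality summed over j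
  have hjs : ∀ j ∈ Finset.Ico j0 n,
      ∑ S : Finset ι, ((vs supp S).card : ℝ) * rho n (vs supp S).card j * hat p f S ^ 2
      ≤ 10 * κ / l * ∑ S : Finset ι,
          (r * S.card : ℝ) * rho n (vs supp S).card j * hat p f S ^ 2
        + a * ∑ S : Finset ι, ((vs supp S).card : ℝ) * hat p f S ^ 2 := by
    intro j hj
    rw [Finset.mem_Ico] at hj
    have h1 : a ^ 2 * ((j0:ℝ) + 1) ≤ a ^ 2 * ((j:ℝ) + 1) := by
      apply mul_le_mul_of_nonneg_left _ (by positivity)
      have : (j0:ℝ) ≤ j := by exact_mod_cast hj.1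
      linarith
    have := averaged hp0 hp1 hinj hr hf hsym hκ0 hκ hκ' ha hl j (by rw [← hn]; exact hj.2)
      (hm.trans (Real.log_le_log (by linarith) h1)) (lt_of_lt_of_le hm1 h1)
    rw [← hn] at this
    exact this
  have hsum := Finset.sum_le_sum hjs
  rw [Finset.sum_add_distrib, ← Finset.mul_sum, Finset.sum_const, nsmul_eq_mul] at hsum
  have q : ∀ (c : Finset ι → ℝ), ∑ j ∈ Finset.Ico j0 n, ∑ S : Finset ι, c S * rho n (vs supp S).card j * hat p f S ^ 2
      = n * ∑ S : Finset ι, c S * Rr n j0 (vs supp S).card * hat p f S ^ 2 := by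
    intro c
    rw [Finset.sum_comm, Finset.mul_sum]
    apply Finset.sum_congr rfl
    intro S _
    unfold Rr
    rw [← Finset.sum_mul, ← Finset.mul_sum]
    have : (n:ℝ) * (c S * (1 / (n:ℝ) * ∑ j ∈ Finset.Ico j0 n, rho n (vs supp S).card j) * hat p f S ^ 2)
        = ((n:ℝ) * (1 / (n:ℝ))) * (c S * (∑ j ∈ Finset.Ico j0 n, rho n (vs supp S).card j) * hat p f S ^ 2) := by
      ring
    rw [this, mul_one_div_cancel hnR.ne', one_mul]
  rw [q, q] at hsum
  have hVV0' : 0 ≤ ∑ S : Finset ι, ((vs supp S).card : ℝ) * hat p f S ^ 2 :=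
    Finset.sum_nonneg fun S _ => mul_nonneg (Nat.cast_nonneg _) (sq_nonneg _)
  obtain ⟨VV, hVV⟩ : ∃ VV, VV = ∑ S : Finset ι, ((vs supp S).card : ℝ) * hat p f S ^ 2 := ⟨_, rfl⟩
  rw [← hVV] at hVV0' hsum
  have hVV0 : 0 ≤ VV := hVV0'
  have hcard : (((Finset.Ico j0 n).card : ℕ) : ℝ) ≤ n := by
    rw [Nat.card_Ico]
    exact_mod_cast Nat.sub_le n j0
  have hsum2 : ∑ S : Finset ι, ((vs supp S).card : ℝ) * Rr n j0 (vs supp S).card * hat p f S ^ 2
      ≤ 10 * κ / l * ∑ S : Finset ι, (r * S.card : ℝ) * Rr n j0 (vs supp S).card * hat p f S ^ 2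
        + a * VV := by
    have h3 : (((Finset.Ico j0 n).card : ℕ) : ℝ) * (a * VV) ≤ n * (a * VV) :=
      mul_le_mul_of_nonneg_right hcard (by positivity)
    have h4 : (n:ℝ) * ∑ S : Finset ι, ((vs supp S).card : ℝ) * Rr n j0 (vs supp S).card * hat p f S ^ 2
        ≤ n * (10 * κ / l * ∑ S : Finset ι, (r * S.card : ℝ) * Rr n j0 (vs supp S).card * hat p f S ^ 2
        + a * VV) := by
      calc _ ≤ _ := hsum
        _ ≤ 10 * κ / l * (n * ∑ S : Finset ι, (r * S.card : ℝ) * Rr n j0 (vs supp S).card * hat p f S ^ 2)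
            + n * (a * VV) := by linarith
        _ = _ := by ring
    exact le_of_mul_le_mul_left h4 hnR
  have hmain : ∑ S : Finset ι, (Rr n j0 (vs supp S).card * ((vs supp S).card - γ * S.card)) * hat p f S ^ 2
      ≤ a * VV := by
    have : ∑ S : Finset ι, (Rr n j0 (vs supp S).card * ((vs supp S).card - γ * S.card)) * hat p f S ^ 2
        = ∑ S : Finset ι, ((vs supp S).card : ℝ) * Rr n j0 (vs supp S).card * hat p f S ^ 2
          - 10 * κ / l * ∑ S : Finset ι, (r * S.card : ℝ) * Rr n j0 (vs supp S).card * hat p f S ^ 2 := by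
      rw [Finset.mul_sum, ← Finset.sum_sub_distrib]
      apply Finset.sum_congr rfl
      intro S _
      rw [hγ]; ring
    rw [this]; linarith
  -- pointwise
  have hpt : ∀ S : Finset ι, (if S.Nonempty then hat p f S ^ 2 else 0) ≤
      4 * ((Rr n j0 (vs supp S).card * ((vs supp S).card - γ * S.card)) * hat p f S ^ 2)
      + 6 * D * (S.card * hat p f S ^ 2) + (2 * j0 / n) * ((vs supp S).card * hat p f S ^ 2) := by
    intro S
    rcases S.eq_empty_or_nonempty with hS | hS
    · subst hS; simp [vs]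
    rw [if_pos hS]
    obtain ⟨v, hv⟩ : ∃ v, v = (vs supp S).card := ⟨_, rfl⟩
    rw [← hv]
    have hv1 : 1 ≤ v := by
      obtain ⟨e, he⟩ := hS
      have h1 : supp e ⊆ vs supp S := Finset.subset_biUnion_of_mem supp he
      have h2 := Finset.card_le_card h1
      rw [hr, ← hv] at h2; omega
    have hvn : v ≤ n := by rw [hv, hn]; exact Finset.card_le_univ (vs supp S)
    have hv1R : (1:ℝ) ≤ v := by exact_mod_cast hv1
    have hN : (S.card : ℝ) ≤ (v:ℝ) ^ r := by
      have h1 : S.card ≤ v.choose r := by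
        rw [hv, ← Finset.card_powersetCard]
        rw [← Finset.card_image_of_injective S hinj]
        refine Finset.card_le_card ?_
        intro T hT
        obtain ⟨e, he, rfl⟩ := Finset.mem_image.1 hT
        rw [Finset.mem_powersetCard]
        exact ⟨Finset.subset_biUnion_of_mem supp he, hr e⟩
      have h2 : v.choose r ≤ v ^ r := Nat.choose_le_pow v r
      exact_mod_cast h1.trans h2
    have hN1 : (1:ℝ) ≤ S.card := by
      have := Finset.card_pos.2 hS
      exact_mod_cast this
    have hR0 := Rr_nonneg n j0 v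
    have hR1 := Rr_le (n := n) (j0 := j0) hv1 hvn
    have hR2 := le_Rr (n := n) (j0 := j0) hv1 hvn
    have hc : 1 ≤ 4 * (Rr n j0 v * (v - γ * S.card)) + 6 * D * S.card + (2 * j0 / n) * v := by
      have hterm : 0 ≤ (2 * (j0:ℝ) / n) * v := by positivity
      have hterm2 : 0 ≤ 6 * D * (S.card:ℝ) := by positivity
      by_cases hlight : γ * S.card ≤ v / 2
      · by_cases hsmall : (2 * (j0:ℝ) / n) * v ≤ 1
        · have h5 : 1 / (2 * (v:ℝ)) ≤ Rr n j0 v := by
            have : (j0:ℝ) / n ≤ 1 / (2 * v) := by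
              rw [le_div_iff₀ (by positivity)]
              calc (j0:ℝ) / n * (2 * v) = (2 * (j0:ℝ) / n) * v := by ring
                _ ≤ 1 := hsmall
            have e1 : 1 / (v:ℝ) = 1 / (2 * v) + 1 / (2 * v) := by field_simp; norm_num
            linarith
          have h6 : (1 / (2 * (v:ℝ))) * (v / 2) ≤ Rr n j0 v * (v - γ * S.card) :=
            mul_le_mul h5 (by linarith) (by positivity) hR0
          have h7 : (1 / (2 * (v:ℝ))) * (v / 2) = 1 / 4 := by field_simp; norm_num
          rw [h7] at h6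
          linarith
        · push Not at hsmall
          have : 0 ≤ Rr n j0 v * (v - γ * S.card) := mul_nonneg hR0 (by linarith)
          linarith
      · push Not at hlight
        have hheavy : 1 / 2 < γ * (v:ℝ) ^ (r - 1) := by
          have h5 : (v:ℝ) / 2 < γ * (v:ℝ) ^ r := lt_of_lt_of_le hlight (mul_le_mul_of_nonneg_left hN hγ0.le)
          have h6 : (v:ℝ) ^ r = v * (v:ℝ) ^ (r - 1) := by
            rw [← pow_succ']; congr 1; omega
          rw [h6] at h5
          have : (v:ℝ) * (1 / 2) < v * (γ * (v:ℝ) ^ (r - 1)) := by linarith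
          exact lt_of_mul_lt_mul_left this (by linarith)
        have hDv := hD v hv1 hheavy
        have h7 : Rr n j0 v * (γ * S.card) ≤ D * S.card := by
          calc Rr n j0 v * (γ * S.card) ≤ (1 / v) * (D * v * S.card) := by
                apply mul_le_mul hR1 _ (by positivity) (by positivity)
                exact mul_le_mul_of_nonneg_right hDv (by linarith)
            _ = D * S.card := by field_simp
        have h8 : 1 / 2 ≤ D * S.card := by
          have h9 : (v:ℝ) / 2 < D * v * S.card :=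
            lt_of_lt_of_le hlight (mul_le_mul_of_nonneg_right hDv (by linarith))
          have : (v:ℝ) * (1 / 2) < v * (D * S.card) := by linarith
          exact (lt_of_mul_lt_mul_left this (by linarith)).le
        have h10 : 0 ≤ Rr n j0 v * v := by positivity
        have h11 : Rr n j0 v * (v - γ * S.card) = Rr n j0 v * v - Rr n j0 v * (γ * S.card) := by ring
        rw [h11]
        linarith
    have := mul_le_mul_of_nonneg_right hc (sq_nonneg (hat p f S))
    linarith
  have hfin := Finset.sum_le_sum (fun S (_ : S ∈ (Finset.univ : Finset (Finset ι))) => hpt S)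
  rw [var_bool hp0 hp1 f hf, Finset.sum_add_distrib, Finset.sum_add_distrib, ← Finset.mul_sum,
    ← Finset.mul_sum, ← Finset.mul_sum, ← lam_mul_dir hp0 hp1, ← hVV] at hfin
  have hVN : VV ≤ r * (p * (1 - p) * dir p f) := by
    rw [hVV, lam_mul_dir hp0 hp1, Finset.mul_sum]
    apply Finset.sum_le_sum
    intro S _
    have : ((vs supp S).card : ℝ) ≤ r * S.card := by
      have h1 : (vs supp S).card ≤ S.card * r := Finset.card_biUnion_le_card_mul S supp r (fun e _ => (hr e).le)
      have h2 : ((vs supp S).card : ℝ) ≤ ((S.card * r : ℕ) : ℝ) := by exact_mod_cast h1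
      push_cast at h2; linarith
    have := mul_le_mul_of_nonneg_right this (sq_nonneg (hat p f S))
    linarith
  have h12 : (4 * a + 2 * j0 / n) * VV ≤ (4 * a + 2 * j0 / n) * (r * (p * (1 - p) * dir p f)) :=
    mul_le_mul_of_nonneg_left hVN (by positivity)
  calc ex p f * (1 - ex p f) ≤ _ := hfin
    _ ≤ 4 * (a * VV) + 6 * D * (p * (1 - p) * dir p f) + 2 * j0 / n * VV := by linarith
    _ = 6 * D * (p * (1 - p) * dir p f) + (4 * a + 2 * j0 / n) * VV := by ring
    _ ≤ 6 * D * (p * (1 - p) * dir p f) + (4 * a + 2 * j0 / n) * (r * (p * (1 - p) * dir p f)) := by linarith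
    _ = _ := by ring

end

end Crest.Agent.H16.Sharp
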