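import Mathlib
import Crest.Agent.H16.Sharp5

/-!
Choice of the parameters, and Russo's formula.
-/

set_option autoImplicit false
set_option linter.unusedSectionVars false

open Finset

namespace Crest.Agent.H16.Sharp

theorem sq_le_exp {L : ℝ} (hL : 0 ≤ L) : L ^ 2 ≤ 128 * Real.exp (L / 8) := by
  have h := Real.quadratic_le_exp_of_nonneg (show 0 ≤ L / 8 by positivity)
  nlinarith

variable {ι : Type*} [Fintype ι] [DecidableEq ι] {V : Type*} [Fintype V] [DecidableEq V]

theorem dir_nonneg {p : ℝ} (hp0 : 0 < p) (hp1 : p < 1) (f : (ι → Bool) → ℝ) : 0 ≤ dir p f :=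
  Finset.sum_nonneg fun i _ => ex_nonneg hp0 hp1 fun x => sq_nonneg _

theorem influence_ineq {p : ℝ} (hp0 : 0 < p) (hp1 : p < 1)
    {supp : ι → Finset V} (hinj : Function.Injective supp) {r : ℕ} (hr2 : 2 ≤ r)
    (hr : ∀ e, (supp e).card = r) (hn : 2 ≤ Fintype.card V)
    {f : (ι → Bool) → ℝ} (hf : ∀ x, f x = 0 ∨ f x = 1) (hsym : Sym supp f) :
    ex p f * (1 - ex p f) ≤
      (12 * (40 * (r:ℝ)) ^ ((r:ℝ) / ((r:ℝ) - 1)) + 192 * r) /
        (Real.log (Fintype.card V)) ^ ((r:ℝ) / ((r:ℝ) - 1)) * dir p f := by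
  obtain ⟨n, hnn⟩ : ∃ n, n = Fintype.card V := ⟨_, rfl⟩
  rw [← hnn] at hn ⊢
  set L := Real.log n with hL
  have hnR : (2:ℝ) ≤ n := by exact_mod_cast hn
  have hn0 : (0:ℝ) < n := by linarith
  have hLpos : 0 < L := Real.log_pos (by linarith)
  set π := min p (1 - p) with hπ
  have hπ0 : 0 < π := lt_min hp0 (by linarith)
  have hπ1 : π ≤ 1 := (min_le_left _ _).trans hp1.le
  set κ := 1 / Real.sqrt π with hκd
  have hsπ : 0 < Real.sqrt π := Real.sqrt_pos.2 hπ0
  have hκ0 : 0 < κ := by positivity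
  have hκ2 : κ ^ 2 = 1 / π := by rw [hκd, div_pow, Real.sq_sqrt hπ0.le, one_pow]
  have hκp : 1 ≤ κ ^ 2 * p := by
    rw [hκ2, div_mul_eq_mul_div, one_mul, le_div_iff₀ hπ0, one_mul]; exact min_le_left _ _
  have hκp' : 1 ≤ κ ^ 2 * (1 - p) := by
    rw [hκ2, div_mul_eq_mul_div, one_mul, le_div_iff₀ hπ0, one_mul]; exact min_le_right _ _
  have hκ1 : 1 ≤ κ := by
    rw [hκd, le_div_iff₀ hsπ, one_mul]
    calc Real.sqrt π ≤ Real.sqrt 1 := Real.sqrt_le_sqrt hπ1
      _ = 1 := Real.sqrt_one
  have hlam : p * (1 - p) ≤ π := by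
    rw [hπ]
    apply le_min
    · nlinarith
    · nlinarith
  have hlam0 := lam_pos hp0 hp1
  have hlam4 : p * (1 - p) ≤ 1 / 4 := by nlinarith [sq_nonneg (p - 1/2)]
  set j0 := Nat.sqrt n with hj0
  set a := Real.exp (-(L / 8)) with ha
  have ha0 : 0 < a := Real.exp_pos _
  have hexpL : Real.exp L = n := Real.exp_log hn0
  have hsq : Real.exp (L / 2) = Real.sqrt n := by
    rw [← hexpL, ← Real.exp_half]
  have hjup : (j0:ℝ) ≤ Real.exp (L / 2) := by
    rw [hsq]; exact Real.nat_sqrt_le_real_sqrt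
  have hjlow : Real.exp (L / 2) ≤ (j0:ℝ) + 1 := by
    rw [hsq]; exact Real.real_sqrt_le_nat_sqrt_succ
  have hamul : Real.exp (L / 4) ≤ a ^ 2 * ((j0:ℝ) + 1) := by
    have : Real.exp (L / 4) = a ^ 2 * Real.exp (L / 2) := by
      rw [ha, ← Real.exp_nat_mul, ← Real.exp_add]; congr 1; push_cast; ring
    rw [this]
    exact mul_le_mul_of_nonneg_left hjlow (by positivity)
  have hlogge : L / 4 ≤ Real.log (a ^ 2 * ((j0:ℝ) + 1)) := by
    rw [Real.le_log_iff_exp_le (by positivity)]; exact hamul
  have hgt : 1 < a ^ 2 * ((j0:ℝ) + 1) :=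
    lt_of_lt_of_le (Real.one_lt_exp_iff.2 (by positivity)) hamul
  have hrR : (2:ℝ) ≤ r := by exact_mod_cast hr2
  have hr1pos : (0:ℝ) < (r:ℝ) - 1 := by linarith
  set γ := 10 * κ / (L / 4) * r with hγ
  have hγ0 : 0 < γ := by positivity
  have hγe : γ = (40 * r) * κ / L := by rw [hγ]; field_simp; ring
  set t : ℝ := 1 / ((r:ℝ) - 1) with ht
  have ht0 : 0 < t := by positivity
  have ht1 : t ≤ 1 := by rw [ht, div_le_one hr1pos]; linarith
  set s : ℝ := (r:ℝ) / ((r:ℝ) - 1) with hs
  have hst : s = 1 + t := by rw [hs, ht]; field_simp; ring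
  set D := γ * (2 * γ) ^ t with hD
  have hD0 : 0 ≤ D := by positivity
  have hDprop : ∀ v : ℕ, 1 ≤ v → 1 / 2 < γ * (v:ℝ) ^ (r - 1) → γ ≤ D * v := by
    intro v hv1 hv
    have hvR : (0:ℝ) < v := by exact_mod_cast hv1
    have h1 : 1 ≤ (2 * γ * (v:ℝ) ^ (r - 1)) ^ t := Real.one_le_rpow (by linarith) ht0.le
    have h2 : (2 * γ * (v:ℝ) ^ (r - 1)) ^ t = (2 * γ) ^ t * v := by
      rw [Real.mul_rpow (by positivity) (by positivity)]
      congr 1
      rw [← Real.rpow_natCast, ← Real.rpow_mul hvR.le]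
      have : ((r - 1 : ℕ) : ℝ) * t = 1 := by
        rw [Nat.cast_sub (by omega), ht]; push_cast; field_simp
      rw [this, Real.rpow_one]
    rw [h2] at h1
    calc γ = γ * 1 := by ring
      _ ≤ γ * ((2 * γ) ^ t * v) := mul_le_mul_of_nonneg_left h1 hγ0.le
      _ = D * v := by rw [hD]; ring
  have hmain := main_ineq hp0 hp1 hinj (by omega) hr hf hsym hκ0 hκp hκp' (a := a) (l := L / 4)
    (γ := γ) (D := D) ha0 (by positivity) hγ j0 hlogge hgt hD0 hDprop
  refine hmain.trans ?_
  have hdir := dir_nonneg hp0 hp1 f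
  rw [← hnn]
  have hLs : 0 < L ^ s := Real.rpow_pos_of_pos hLpos s
  have hs2 : s ≤ 2 := by rw [hst]; linarith
  have hs0 : 0 < s := by rw [hst]; linarith
  -- the D part
  have hDpart : 6 * D * (p * (1 - p)) ≤ 12 * (40 * (r:ℝ)) ^ s / L ^ s := by
    have e1 : D = 2 ^ t * γ ^ s := by
      rw [hD, Real.mul_rpow (by norm_num) hγ0.le, hst, Real.rpow_add hγ0, Real.rpow_one]; ring
    have e2 : (2:ℝ) ^ t ≤ 2 := by
      calc (2:ℝ) ^ t ≤ 2 ^ (1:ℝ) := Real.rpow_le_rpow_of_exponent_le (by norm_num) ht1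
        _ = 2 := Real.rpow_one 2
    have e3 : γ ^ s = (40 * (r:ℝ)) ^ s * κ ^ s / L ^ s := by
      rw [hγe, Real.div_rpow (by positivity) hLpos.le, Real.mul_rpow (by positivity) hκ0.le]
    have e4 : κ ^ s * (p * (1 - p)) ≤ 1 := by
      have : κ ^ s ≤ 1 / π := by
        rw [← hκ2]
        calc κ ^ s ≤ κ ^ (2:ℝ) := Real.rpow_le_rpow_of_exponent_le hκ1 hs2
          _ = κ ^ 2 := by norm_num
      calc κ ^ s * (p * (1 - p)) ≤ (1 / π) * π := mul_le_mul this hlam hlam0.le (by positivity)
        _ = 1 := by field_simp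
    have e5 : 0 ≤ (40 * (r:ℝ)) ^ s / L ^ s := by positivity
    calc 6 * D * (p * (1 - p)) = 6 * 2 ^ t * ((40 * (r:ℝ)) ^ s / L ^ s) * (κ ^ s * (p * (1 - p))) := by
          rw [e1, e3]; ring
      _ ≤ 6 * 2 * ((40 * (r:ℝ)) ^ s / L ^ s) * 1 := by
          apply mul_le_mul _ e4 (by positivity) (by positivity)
          apply mul_le_mul_of_nonneg_right _ e5
          linarith
      _ = _ := by ring
  have herr : r * (4 * a + 2 * j0 / n) * (p * (1 - p)) ≤ 192 * r / L ^ s := by
    have h1 : (2:ℝ) * j0 / n ≤ 2 * a := by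
      have : (j0:ℝ) / n ≤ a := by
        rw [div_le_iff₀ hn0]
        calc (j0:ℝ) ≤ Real.exp (L / 2) := hjup
          _ ≤ Real.exp (-(L / 8) + L) := Real.exp_le_exp.2 (by linarith)
          _ = a * n := by rw [Real.exp_add, hexpL]
      calc (2:ℝ) * j0 / n = 2 * (j0 / n) := by ring
        _ ≤ _ := by linarith
    have h2 : a * L ^ s ≤ 128 := by
      have h3 : L ^ s ≤ 128 * Real.exp (L / 8) := by
        rcases le_total L 1 with h | h
        · have : L ^ s ≤ 1 := Real.rpow_le_one hLpos.le h hs0.le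
          have : 1 ≤ Real.exp (L / 8) := Real.one_le_exp (by positivity)
          linarith
        · calc L ^ s ≤ L ^ (2:ℝ) := Real.rpow_le_rpow_of_exponent_le h hs2
            _ = L ^ 2 := by norm_num
            _ ≤ _ := sq_le_exp hLpos.le
      calc a * L ^ s ≤ a * (128 * Real.exp (L / 8)) := mul_le_mul_of_nonneg_left h3 ha0.le
        _ = 128 := by
          rw [ha]
          have : Real.exp (-(L / 8)) * Real.exp (L / 8) = 1 := by
            rw [← Real.exp_add]; simp
          calc _ = 128 * (Real.exp (-(L / 8)) * Real.exp (L / 8)) := by ring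
            _ = 128 := by rw [this]; ring
    rw [le_div_iff₀ hLs]
    have h4 : 4 * a + 2 * (j0:ℝ) / n ≤ 6 * a := by linarith
    have h5 : 0 ≤ 4 * a + 2 * (j0:ℝ) / n := by positivity
    calc r * (4 * a + 2 * (j0:ℝ) / n) * (p * (1 - p)) * L ^ s
        ≤ r * (6 * a) * (1 / 4) * L ^ s := by
          apply mul_le_mul_of_nonneg_right _ hLs.le
          apply mul_le_mul _ hlam4 hlam0.le (by positivity)
          exact mul_le_mul_of_nonneg_left h4 (by positivity)
      _ = (3 / 2) * r * (a * L ^ s) := by ring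
      _ ≤ (3 / 2) * r * 128 := mul_le_mul_of_nonneg_left h2 (by positivity)
      _ = 192 * r := by ring
  calc (6 * D + r * (4 * a + 2 * j0 / n)) * (p * (1 - p) * dir p f)
      = (6 * D * (p * (1 - p)) + r * (4 * a + 2 * j0 / n) * (p * (1 - p))) * dir p f := by ring
    _ ≤ (12 * (40 * (r:ℝ)) ^ s / L ^ s + 192 * r / L ^ s) * dir p f :=
        mul_le_mul_of_nonneg_right (add_le_add hDpart herr) hdir
    _ = _ := by ring

/-- signed influence -/
noncomputable def infl (p : ℝ) (g : (ι → Bool) → ℝ) : ℝ :=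
  ∑ i, ex p (fun x => g (Function.update x i true) - g (Function.update x i false))

theorem russo_fin (n : ℕ) : ∀ (g : (Fin n → Bool) → ℝ) (p : ℝ),
    HasDerivAt (fun t => ex t g) (infl p g) p := by
  induction n with
  | zero =>
    intro g p
    have hex : ∀ t : ℝ, ex t g = g default := by
      intro t
      unfold ex wt
      rw [Fintype.sum_unique]
      simp
      exact congrArg g (Subsingleton.elim _ _)
    have : (fun t => ex t g) = fun _ => g default := by funext t; exact hex t
    rw [this]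
    simp only [infl, Finset.univ_eq_empty, Finset.sum_empty]
    exact hasDerivAt_const p _
  | succ n ih =>
    intro g p
    have hfun : (fun t => ex t g) = fun t => t * ex t (fun y : Fin n → Bool => g (Fin.cons true y))
        + (1 - t) * ex t (fun y : Fin n → Bool => g (Fin.cons false y)) := by
      funext t; exact ex_cons t g
    rw [hfun]
    have h1 := ih (fun y : Fin n → Bool => g (Fin.cons true y)) p
    have h0 := ih (fun y : Fin n → Bool => g (Fin.cons false y)) p
    have hd := ((hasDerivAt_id p).mul h1).add (((hasDerivAt_id p).const_sub 1).mul h0)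
    refine HasDerivAt.congr_deriv hd ?_
    symm
    unfold infl
    rw [Fin.sum_univ_succ]
    have e0 : ex p (fun x : Fin (n+1) → Bool => g (Function.update x 0 true) - g (Function.update x 0 false))
        = ex p (fun y : Fin n → Bool => g (Fin.cons true y)) - ex p (fun y : Fin n → Bool => g (Fin.cons false y)) := by
      rw [ex_cons]
      simp only [Fin.update_cons_zero]
      rw [ex_sub]; ring
    have e1 : ∀ i : Fin n, ex p (fun x : Fin (n+1) → Bool => g (Function.update x i.succ true) - g (Function.update x i.succ false))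
        = p * ex p (fun x : Fin n → Bool => g (Fin.cons true (Function.update x i true)) - g (Fin.cons true (Function.update x i false)))
          + (1 - p) * ex p (fun x : Fin n → Bool => g (Fin.cons false (Function.update x i true)) - g (Fin.cons false (Function.update x i false))) := by
      intro i
      rw [ex_cons]
      simp only [← Fin.cons_update]
    simp_rw [e0, e1]
    rw [Finset.sum_add_distrib, ← Finset.mul_sum, ← Finset.mul_sum]
    simp only [id_eq]
    ring

theorem russo (g : (ι → Bool) → ℝ) (p : ℝ) :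
    HasDerivAt (fun t => ex t g) (infl p g) p := by
  let e := Fintype.equivFin ι
  have h := russo_fin (Fintype.card ι) (fun y => g (y ∘ e)) p
  have h1 : (fun t => ex t g) = fun t => ex t (fun y : Fin (Fintype.card ι) → Bool => g (y ∘ e)) := by
    funext t; exact ex_equiv t e g
  have h2 : infl p g = infl p (fun y : Fin (Fintype.card ι) → Bool => g (y ∘ e)) := by
    unfold infl
    rw [← e.symm.sum_comp]
    apply Finset.sum_congr rfl
    intro i _
    rw [ex_equiv p e]
    congr 1
    funext y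
    have hu : ∀ b : Bool, Function.update (y ∘ e) (e.symm i) b = (Function.update y i b) ∘ e := by
      intro b
      funext j
      by_cases hj : j = e.symm i
      · subst hj; simp
      · have : e j ≠ i := fun hcon => hj (by rw [← hcon]; simp)
        simp [Function.update_of_ne hj, Function.update_of_ne this]
    rw [hu, hu]
  rw [h1, h2]
  exact h

end Crest.Agent.H16.Sharp
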