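import Mathlib
import Crest.Prelude.Def_FinProb
import Crest.Prelude.Def_RandomGraph
import Crest.Prelude.Def_HypergraphCube
import Crest.Agent.H16.Sharp6

/-!
Transfer of the influence inequality to symmetric functions of a uniform hypergraph and to
monotone symmetric graph properties.
-/

set_option autoImplicit false
set_option linter.unusedSectionVars false

open Finset

namespace Crest.Agent.H16.Sharp

open Crest.CombinatoricsR

/-- the 0/1 valued indicator of an event -/
noncomputable def ind {Ω : Type*} (E : Set Ω) (x : Ω) : ℝ := by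
  classical exact if x ∈ E then 1 else 0

theorem ind_mem {Ω : Type*} {E : Set Ω} {x : Ω} (h : x ∈ E) : ind E x = 1 := by
  classical
  unfold ind; rw [if_pos h]

theorem ind_not_mem {Ω : Type*} {E : Set Ω} {x : Ω} (h : x ∉ E) : ind E x = 0 := by
  classical
  unfold ind; rw [if_neg h]

theorem ind_bool {Ω : Type*} (E : Set Ω) (x : Ω) : ind E x = 0 ∨ ind E x = 1 := by
  by_cases h : x ∈ E
  · right; exact ind_mem h
  · left; exact ind_not_mem h

theorem prob_eq_ex {ι : Type*} [Fintype ι] [DecidableEq ι] (p : ℝ) (E : Set (ι → Bool)) :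
    Crest.FinProb.bernoulliProb p E = ex p (ind E) := by
  classical
  unfold Crest.FinProb.bernoulliProb ex
  rw [Finset.sum_filter]
  apply Finset.sum_congr
  · congr
  intro x _
  rw [wt_eq]
  by_cases h : x ∈ E
  · rw [ind_mem h, mul_one]; simp [h]
  · rw [ind_not_mem h, mul_zero]; simp [h]

section Hyper

open HypergraphCube

theorem relabelSlot_mul {n r : ℕ} (σ τ : Equiv.Perm (Fin n)) (e : HyperedgeSlot n r) :
    relabelSlot σ (relabelSlot τ e) = relabelSlot (σ * τ) e := by
  apply Subtype.ext
  simp only [relabelSlot]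
  rw [Finset.map_map]
  rfl

theorem relabelSlot_one {n r : ℕ} (e : HyperedgeSlot n r) :
    relabelSlot (1 : Equiv.Perm (Fin n)) e = e := by
  apply Subtype.ext
  simp only [relabelSlot]
  ext a
  have : (Equiv.symm (1 : Equiv.Perm (Fin n))) = 1 := rfl
  simp [this]

/-- the permutation of the slots -/
def slotPerm {n r : ℕ} (σ : Equiv.Perm (Fin n)) : Equiv.Perm (HyperedgeSlot n r) where
  toFun := relabelSlot σ
  invFun := relabelSlot σ⁻¹
  left_inv e := by rw [relabelSlot_mul]; simp [relabelSlot_one]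
  right_inv e := by rw [relabelSlot_mul]; simp [relabelSlot_one]

theorem hyper {r : ℕ} (hr : 2 ≤ r) {n : ℕ} (hn : r ≤ n) {p : ℝ} (hp0 : 0 < p) (hp1 : p < 1)
    (f : (HyperedgeSlot n r → Bool) → Bool) (hf : IsSymmetric f) :
    probTrue p f * (1 - probTrue p f) ≤
      (12 * (40 * (r:ℝ)) ^ ((r:ℝ) / ((r:ℝ) - 1)) + 192 * r) /
        Real.log n ^ ((r : ℝ) / ((r : ℝ) - 1)) * totalInfluence p f := by
  classical
  set F : (HyperedgeSlot n r → Bool) → ℝ := ind {x | f x = true} with hF
  have h1 : probTrue p f = ex p F := prob_eq_ex p _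
  have h2 : totalInfluence p f = dir p F := by
    unfold totalInfluence dir
    apply Finset.sum_congr rfl
    intro e _
    unfold pivotalInfluence
    rw [prob_eq_ex]
    congr 1
    funext x
    have key : ∀ y, F y = if f y = true then 1 else 0 := by
      intro y
      rw [hF]
      by_cases h : f y = true
      · rw [ind_mem (by exact h)]; simp [h]
      · rw [ind_not_mem (by exact h)]; simp [h]
    rw [key, key]
    by_cases h : f (Function.update x e true) ≠ f (Function.update x e false)
    · rw [ind_mem (by exact h)]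
      cases h3 : f (Function.update x e true) <;> cases h4 : f (Function.update x e false) <;>
        simp_all
    · rw [ind_not_mem (by exact h)]
      push_neg at h
      rw [h]; simp
  have hsym : Sym (fun e : HyperedgeSlot n r => e.1) F := by
    intro σ
    refine ⟨slotPerm σ, fun e => rfl, ?_⟩
    intro x
    have : f (x ∘ slotPerm σ) = f x := hf σ x
    rw [hF]
    unfold ind
    simp only [Set.mem_setOf_eq, this]
  have := influence_ineq (V := Fin n) hp0 hp1 (supp := fun e : HyperedgeSlot n r => e.1)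
    Subtype.val_injective hr (fun e => e.2) (by simpa using by omega) (f := F)
    (fun x => ind_bool _ _) hsym
  rw [Fintype.card_fin] at this
  rw [h1, h2]
  exact this

end Hyper

section Graph

open RandomGraph

theorem fromEdge_adj {n : ℕ} (ω : EdgeSlot n → Bool) (a b : Fin n) :
    (graphOf ω).Adj a b ↔ ∃ h : ¬ (s(a, b)).IsDiag, ω ⟨s(a, b), h⟩ = true := by
  unfold graphOf
  rw [SimpleGraph.fromEdgeSet_adj]
  constructor
  · rintro ⟨h, _⟩; exact h
  · rintro h
    refine ⟨h, ?_⟩
    obtain ⟨h1, _⟩ := h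
    simpa using h1

theorem graphOf_mono {n : ℕ} {ω ω' : EdgeSlot n → Bool} (h : ∀ z, ω z = true → ω' z = true) :
    graphOf ω ≤ graphOf ω' := by
  intro a b hab
  rw [fromEdge_adj] at hab ⊢
  obtain ⟨h1, h2⟩ := hab
  exact ⟨h1, h _ h2⟩

theorem graphOf_true {n : ℕ} : graphOf (fun _ : EdgeSlot n => true) = ⊤ := by
  ext a b
  rw [fromEdge_adj]
  simp

theorem graphOf_false {n : ℕ} : graphOf (fun _ : EdgeSlot n => false) = ⊥ := by
  ext a b
  rw [fromEdge_adj]
  simp

/-- action on edge slots -/
def edgePerm {n : ℕ} (σ : Equiv.Perm (Fin n)) : Equiv.Perm (EdgeSlot n) where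
  toFun z := ⟨z.1.map σ, by
    intro h; exact z.2 ((Sym2.isDiag_map σ.injective).1 h)⟩
  invFun z := ⟨z.1.map σ.symm, by
    intro h; exact z.2 ((Sym2.isDiag_map σ.symm.injective).1 h)⟩
  left_inv z := by
    apply Subtype.ext
    simp [Sym2.map_map]
  right_inv z := by
    apply Subtype.ext
    simp [Sym2.map_map]

theorem graphOf_edgePerm {n : ℕ} (σ : Equiv.Perm (Fin n)) (x : EdgeSlot n → Bool) :
    graphOf (x ∘ edgePerm σ) = (graphOf x).map σ.symm.toEmbedding := by
  have h : graphOf x = (graphOf (x ∘ edgePerm σ)).map σ.toEmbedding := by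
    ext a b
    rw [SimpleGraph.map_adj]
    constructor
    · intro hab
      refine ⟨σ.symm a, σ.symm b, ?_, by simp, by simp⟩
      rw [fromEdge_adj] at hab ⊢
      obtain ⟨h1, h2⟩ := hab
      have h1' : a ≠ b := by simpa using h1
      refine ⟨by simpa using h1', ?_⟩
      simp only [Function.comp, edgePerm, Equiv.coe_fn_mk, Sym2.map_mk]
      rw [← h2]
      congr 1
      apply Subtype.ext
      simp
    · rintro ⟨a', b', hab, rfl, rfl⟩
      rw [fromEdge_adj] at hab ⊢
      obtain ⟨h1, h2⟩ := hab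
      have h1' : a' ≠ b' := by simpa using h1
      refine ⟨by simpa using h1', ?_⟩
      rw [← h2]
      simp only [Function.comp, edgePerm, Equiv.coe_fn_mk, Sym2.map_mk]
      congr 1
  rw [h]
  rw [SimpleGraph.map_map]
  conv_lhs => rw [← SimpleGraph.map_id (G := graphOf (x ∘ edgePerm σ))]
  congr 1
  ext a
  simp

theorem supp_card {n : ℕ} (z : EdgeSlot n) : (z.1.toFinset).card = 2 :=
  Sym2.card_toFinset_of_not_isDiag _ z.2

theorem supp_inj {n : ℕ} : Function.Injective (fun z : EdgeSlot n => z.1.toFinset) := by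
  intro z w h
  apply Subtype.ext
  apply Sym2.ext
  intro a
  have : a ∈ z.1.toFinset ↔ a ∈ w.1.toFinset := by
    simp only at h
    rw [h]
  simpa using this

variable {n : ℕ} {P : Set (SimpleGraph (Fin n))}

theorem sym_graph
    (hsymm : ∀ σ : Equiv.Perm (Fin n), ∀ G : SimpleGraph (Fin n), G ∈ P → G.map σ.toEmbedding ∈ P) :
    Sym (fun z : EdgeSlot n => z.1.toFinset) (ind {ω : EdgeSlot n → Bool | graphOf ω ∈ P}) := by
  intro σ
  refine ⟨edgePerm σ, ?_, ?_⟩
  · intro e
    ext a
    simp only [edgePerm, Equiv.coe_fn_mk, Sym2.mem_toFinset, Finset.mem_map_equiv]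
    rw [Sym2.mem_map]
    constructor
    · rintro ⟨b, hb, rfl⟩; simpa using hb
    · intro h; exact ⟨σ.symm a, h, by simp⟩
  · intro x
    have h : graphOf (x ∘ edgePerm σ) ∈ P ↔ graphOf x ∈ P := by
      constructor
      · intro h
        have := hsymm σ _ h
        rw [graphOf_edgePerm, SimpleGraph.map_map] at this
        have e : (⇑σ.toEmbedding ∘ ⇑σ.symm.toEmbedding) = id := by
          ext a; simp
        rw [e] at this
        rwa [SimpleGraph.map_id] at this
      · intro h
        rw [graphOf_edgePerm]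
        exact hsymm σ.symm _ h
    by_cases hx : graphOf x ∈ P
    · rw [ind_mem (x := x) (by exact hx), ind_mem (x := x ∘ edgePerm σ) (by exact h.2 hx)]
    · rw [ind_not_mem (x := x) (by exact hx),
        ind_not_mem (x := x ∘ edgePerm σ) (by exact fun hh => hx (h.1 hh))]

theorem bot_not_mem
    (hmono : ∀ G G' : SimpleGraph (Fin n), G ≤ G' → G ∈ P → G' ∈ P) (hnu : P ≠ Set.univ) :
    (⊥ : SimpleGraph (Fin n)) ∉ P := by
  intro h
  exact hnu (Set.eq_univ_of_forall fun G => hmono _ _ bot_le h)

theorem top_mem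
    (hmono : ∀ G G' : SimpleGraph (Fin n), G ≤ G' → G ∈ P → G' ∈ P) (hne : P.Nonempty) :
    (⊤ : SimpleGraph (Fin n)) ∈ P := by
  obtain ⟨G, hG⟩ := hne
  exact hmono _ _ le_top hG

theorem infl_eq_dir (p : ℝ)
    (hmono : ∀ G G' : SimpleGraph (Fin n), G ≤ G' → G ∈ P → G' ∈ P) :
    infl p (ind {ω : EdgeSlot n → Bool | graphOf ω ∈ P})
      = dir p (ind {ω : EdgeSlot n → Bool | graphOf ω ∈ P}) := by
  unfold infl dir
  apply Finset.sum_congr rfl
  intro i _
  congr 1
  funext x
  set F := ind {ω : EdgeSlot n → Bool | graphOf ω ∈ P} with hF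
  have hle : graphOf (Function.update x i false) ∈ P → graphOf (Function.update x i true) ∈ P := by
    apply hmono
    apply graphOf_mono
    intro z hz
    by_cases h : z = i
    · subst h; simp
    · rw [Function.update_of_ne h] at hz ⊢; exact hz
  by_cases h0 : graphOf (Function.update x i false) ∈ P
  · have e0 : F (Function.update x i false) = 1 := ind_mem h0
    have e1 : F (Function.update x i true) = 1 := ind_mem (hle h0)
    rw [e0, e1]; norm_num
  · have e0 : F (Function.update x i false) = 0 := ind_not_mem h0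
    rw [e0]
    rcases ind_bool {ω : EdgeSlot n → Bool | graphOf ω ∈ P} (Function.update x i true) with h | h
    · rw [← hF] at h; rw [h]; norm_num
    · rw [← hF] at h; rw [h]; norm_num

theorem ex_pos_of {ι : Type*} [Fintype ι] [DecidableEq ι] {p : ℝ} (hp0 : 0 < p) (hp1 : p < 1)
    {g : (ι → Bool) → ℝ} (hg : ∀ x, 0 ≤ g x) {x : ι → Bool} (hx : 0 < g x) : 0 < ex p g := by
  unfold ex
  calc 0 < wt p x * g x := mul_pos (wt_pos hp0 hp1 x) hx
    _ ≤ _ := Finset.single_le_sum (f := fun x => wt p x * g x)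
      (fun y _ => mul_nonneg (wt_pos hp0 hp1 y).le (hg y)) (Finset.mem_univ x)

theorem ex_zero {ι : Type*} [Fintype ι] [DecidableEq ι] (g : (ι → Bool) → ℝ) :
    ex 0 g = g (fun _ => false) := by
  unfold ex
  rw [Finset.sum_eq_single (fun _ => false)]
  · simp [wt, mu]
  · intro x _ hx
    have : ∃ i, x i = true := by
      by_contra hcon
      push_neg at hcon
      apply hx
      funext i
      simpa using hcon i
    obtain ⟨i, hi⟩ := this
    have : wt (0:ℝ) x = 0 := by
      unfold wt
      apply Finset.prod_eq_zero (Finset.mem_univ i)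
      simp [mu, hi]
    rw [this, zero_mul]
  · simp

theorem ex_one' {ι : Type*} [Fintype ι] [DecidableEq ι] (g : (ι → Bool) → ℝ) :
    ex 1 g = g (fun _ => true) := by
  unfold ex
  rw [Finset.sum_eq_single (fun _ => true)]
  · simp [wt, mu]
  · intro x _ hx
    have : ∃ i, x i = false := by
      by_contra hcon
      push_neg at hcon
      apply hx
      funext i
      simpa using hcon i
    obtain ⟨i, hi⟩ := this
    have : wt (1:ℝ) x = 0 := by
      unfold wt
      apply Finset.prod_eq_zero (Finset.mem_univ i)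
      simp [mu, hi]
    rw [this, zero_mul]
  · simp

theorem graph_main (hn : 2 ≤ n)
    (hsymm : ∀ σ : Equiv.Perm (Fin n), ∀ G : SimpleGraph (Fin n), G ∈ P → G.map σ.toEmbedding ∈ P)
    (hmono : ∀ G G' : SimpleGraph (Fin n), G ≤ G' → G ∈ P → G' ∈ P)
    (hne : P.Nonempty) (hnu : P ≠ Set.univ) (ε : ℝ) (hε0 : 0 < ε) (hε : ε < 1 / 2)
    (p q : ℝ) (hp0 : 0 ≤ p) (hp1 : p ≤ 1) (hq0 : 0 ≤ q) (hq1 : q ≤ 1)
    (hp : ε ≤ gnpProb n p P)
    (hq : p + 2 ^ 19 / Real.log n ^ 2 * Real.log (1 / (2 * ε)) ≤ q) :
    1 - ε ≤ gnpProb n q P := by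
  set F := ind {ω : EdgeSlot n → Bool | graphOf ω ∈ P} with hF
  have hprob : ∀ t, gnpProb n t P = ex t F := fun t => prob_eq_ex t _
  rw [hprob] at hp ⊢
  have hFfalse : F (fun _ => false) = 0 := by
    apply ind_not_mem
    change graphOf (fun _ : EdgeSlot n => false) ∉ P
    rw [graphOf_false]
    exact bot_not_mem hmono hnu
  have hFtrue : F (fun _ => true) = 1 := by
    apply ind_mem
    change graphOf (fun _ : EdgeSlot n => true) ∈ P
    rw [graphOf_true]
    exact top_mem hmono hne
  have hF01 : ∀ x, F x = 0 ∨ F x = 1 := fun x => ind_bool _ _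
  -- the end points
  have hppos : 0 < p := by
    rcases hp0.lt_or_eq with h | h
    · exact h
    · exfalso
      rw [← h, ex_zero, hFfalse] at hp
      linarith
  rcases hq1.lt_or_eq with hq1' | hq1'
  swap
  · rw [hq1', ex_one', hFtrue]; linarith
  have hnR : (2:ℝ) ≤ n := by exact_mod_cast hn
  have hL : 0 < Real.log n := Real.log_pos (by linarith)
  have hlogε : 0 < Real.log (1 / (2 * ε)) := by
    apply Real.log_pos
    rw [lt_div_iff₀ (by positivity)]; linarith
  have hpq : p ≤ q := by
    have : 0 ≤ 2 ^ 19 / Real.log n ^ 2 * Real.log (1 / (2 * ε)) := by positivity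
    linarith
  have hin : ∀ t ∈ Set.Icc p q, 0 < t ∧ t < 1 := fun t ht =>
    ⟨lt_of_lt_of_le hppos ht.1, lt_of_le_of_lt ht.2 hq1'⟩
  have hFpos : ∀ t ∈ Set.Icc p q, 0 < ex t F := by
    intro t ht
    obtain ⟨h0, h1⟩ := hin t ht
    apply ex_pos_of h0 h1 (x := fun _ => true)
    · intro x; rcases hF01 x with h | h <;> rw [h]; norm_num
    · rw [hFtrue]; norm_num
  have hFlt : ∀ t ∈ Set.Icc p q, 0 < 1 - ex t F := by
    intro t ht
    obtain ⟨h0, h1⟩ := hin t ht
    have : 1 - ex t F = ex t (fun x => 1 - F x) := by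
      have := ex_sub (p := t) (fun _ => (1:ℝ)) F
      rw [this]
      rw [ex_const h0 h1]
    rw [this]
    apply ex_pos_of h0 h1 (x := fun _ => false)
    · intro x; rcases hF01 x with h | h <;> rw [h] <;> norm_num
    · rw [hFfalse]; norm_num
  -- the differential inequality
  set c : ℝ := Real.log n ^ 2 / 2 ^ 17 with hc
  have hineq : ∀ t ∈ Set.Icc p q, c * (ex t F * (1 - ex t F)) ≤ infl t F := by
    intro t ht
    obtain ⟨h0, h1⟩ := hin t ht
    have h := influence_ineq (V := Fin n) h0 h1 (supp := fun z : EdgeSlot n => z.1.toFinset)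
      supp_inj le_rfl supp_card (by simpa using hn) (f := F) hF01 (sym_graph hsymm)
    rw [Fintype.card_fin] at h
    have e1 : ((2:ℕ):ℝ) / (((2:ℕ):ℝ) - 1) = 2 := by norm_num
    rw [e1, Real.rpow_two, Real.rpow_two] at h
    have e2 : infl t F = dir t F := infl_eq_dir t hmono
    rw [e2]
    have hd := dir_nonneg h0 h1 F
    rw [div_mul_eq_mul_div, le_div_iff₀ (by positivity)] at h
    rw [hc, div_mul_eq_mul_div, div_le_iff₀ (by positivity)]
    calc Real.log n ^ 2 * (ex t F * (1 - ex t F)) = ex t F * (1 - ex t F) * Real.log n ^ 2 := by ring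
      _ ≤ _ := h
      _ = 77184 * dir t F := by push_cast; ring
      _ ≤ dir t F * 2 ^ 17 := by nlinarith
  have hder : ∀ t ∈ Set.Icc p q, HasDerivAt (fun t => Real.log (ex t F) - Real.log (1 - ex t F))
      (infl t F / ex t F - (-infl t F) / (1 - ex t F)) t := by
    intro t ht
    have h1 := russo F t
    have h2 := (h1.log (hFpos t ht).ne')
    have h3 := ((h1.const_sub 1).log (hFlt t ht).ne')
    exact h2.sub h3
  have hmvt := Convex.mul_sub_le_image_sub_of_le_deriv (convex_Icc p q)
    (f := fun t => Real.log (ex t F) - Real.log (1 - ex t F))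
    (fun t ht => (hder t ht).continuousAt.continuousWithinAt)
    (fun t ht => (hder t (interior_subset ht)).differentiableAt.differentiableWithinAt)
    (C := c) (by
      intro t ht
      have ht' := interior_subset ht
      rw [(hder t ht').deriv]
      have h1 := hFpos t ht'
      have h2 := hFlt t ht'
      have h3 := hineq t ht'
      have : infl t F / ex t F - (-infl t F) / (1 - ex t F) = infl t F / (ex t F * (1 - ex t F)) := by
        field_simp; ring
      rw [this, le_div_iff₀ (by positivity)]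
      exact h3) p ⟨le_rfl, hpq⟩ q ⟨hpq, le_rfl⟩ hpq
  by_contra hcon
  push_neg at hcon
  have hp' := hFpos p ⟨le_rfl, hpq⟩
  have hq' := hFpos q ⟨hpq, le_rfl⟩
  have hp'' := hFlt p ⟨le_rfl, hpq⟩
  have hq'' := hFlt q ⟨hpq, le_rfl⟩
  -- upper bound for the increment
  have u1 : Real.log (ex q F) < Real.log (1 - ε) := Real.log_lt_log hq' hcon
  have u2 : Real.log ε < Real.log (1 - ex q F) := Real.log_lt_log hε0 (by linarith)
  have u3 : Real.log ε ≤ Real.log (ex p F) := Real.log_le_log hε0 hp
  have u4 : Real.log (1 - ex p F) ≤ Real.log (1 - ε) := Real.log_le_log hp'' (by linarith)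
  have u5 : 4 * Real.log (1 / (2 * ε)) ≤ c * (q - p) := by
    have : 2 ^ 19 / Real.log n ^ 2 * Real.log (1 / (2 * ε)) ≤ q - p := by linarith
    have hc0 : 0 < c := by positivity
    calc 4 * Real.log (1 / (2 * ε)) = c * (2 ^ 19 / Real.log n ^ 2 * Real.log (1 / (2 * ε))) := by
          rw [hc]; field_simp; norm_num
      _ ≤ _ := mul_le_mul_of_nonneg_left this hc0.le
  have u6 : Real.log (1 / (2 * ε)) = - (Real.log 2 + Real.log ε) := by
    rw [one_div, Real.log_inv, Real.log_mul (by norm_num) hε0.ne']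
  have u7 : Real.log (1 - ε) + Real.log ε + 2 * Real.log 2 ≤ 0 := by
    have : Real.log (1 - ε) + Real.log ε + 2 * Real.log 2 = Real.log ((1 - ε) * ε * 4) := by
      rw [Real.log_mul (mul_pos (by linarith) hε0).ne' (by norm_num),
        Real.log_mul (by linarith) hε0.ne']
      have : Real.log 4 = 2 * Real.log 2 := by
        rw [show (4:ℝ) = 2 ^ 2 by norm_num, Real.log_pow]; norm_num
      rw [this]
    rw [this]
    apply Real.log_nonpos
    · have : 0 < (1 - ε) * ε := mul_pos (by linarith) hε0
      linarith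
    · nlinarith [sq_nonneg (1 - 2 * ε)]
  rw [u6] at u5
  linarith

end Graph

end Crest.Agent.H16.Sharp
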